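import Vale.Agent.P088.R2.H794.Aff

/-!
# P088, two general metrics: matrices
-/

open MeasureTheory Set
open scoped ContDiff Matrix

noncomputable section

namespace Vale.Agent.P088.HY.H794

open Vale.Agent.P088.LR Vale.Agent.P088.LR.CF

variable {n : ℕ}

section

open scoped MatrixOrder Matrix.Norms.L2Operator

lemma psd_root {G : Matrix (Fin n) (Fin n) ℝ} (hG : G.PosSemidef) :
    ∃ S : Matrix (Fin n) (Fin n) ℝ, G = star S * S :=
  CStarAlgebra.nonneg_iff_eq_star_mul_self.mp hG.nonneg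

end

lemma posDef_root {G : Matrix (Fin n) (Fin n) ℝ} (hG : G.PosDef) :
    ∃ S : Matrix (Fin n) (Fin n) ℝ, Sᵀ * S = G ∧ S.det ≠ 0 := by
  obtain ⟨S, hS⟩ := psd_root hG.posSemidef
  rw [Matrix.star_eq_conjTranspose, Matrix.conjTranspose_eq_transpose_of_trivial] at hS
  refine ⟨S, hS.symm, fun h => ?_⟩
  have h1 := congrArg Matrix.det hS
  rw [Matrix.det_mul, h, mul_zero] at h1
  exact hG.det_pos.ne' h1

lemma sq_le_diag (S : Matrix (Fin n) (Fin n) ℝ) (i j : Fin n) : S i j ^ 2 ≤ (Sᵀ * S) j j := by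
  rw [Matrix.mul_apply]
  have h : ∀ k, Sᵀ j k * S k j = S k j ^ 2 := fun k => by
    rw [Matrix.transpose_apply]; ring
  simp_rw [h]
  exact Finset.single_le_sum (f := fun k => S k j ^ 2) (fun _ _ => sq_nonneg _)
    (Finset.mem_univ i)

lemma abs_le_add_one {x b : ℝ} (hb : 0 ≤ b) (h : x ^ 2 ≤ b) : |x| ≤ b + 1 := by
  refine abs_le_of_sq_le_sq ?_ (by linarith)
  nlinarith

lemma adj_le {G : Matrix (Fin n) (Fin n) ℝ} {B : ℝ} (hB : 0 ≤ B) (h : ∀ i j, |G i j| ≤ B)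
    (i j : Fin n) : |G.adjugate i j| ≤ n.factorial * (B + 1) ^ n := by
  rw [Matrix.adjugate_apply]
  have h1 := Matrix.det_le (A := G.updateRow j (Pi.single i 1)) (abv := AbsoluteValue.abs)
    (x := B + 1) (fun a b => by
      show |G.updateRow j (Pi.single i 1) a b| ≤ B + 1
      by_cases ha : a = j
      · subst ha
        rw [Matrix.updateRow_self]
        by_cases hb : b = i
        · subst hb
          simp; exact hB
        · rw [Pi.single_eq_of_ne hb, abs_zero]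
          linarith
      · rw [Matrix.updateRow_ne ha]
        exact (h a b).trans (by linarith))
  rw [Fintype.card_fin, nsmul_eq_mul] at h1
  exact h1

/-- The bound of the entries of `T = S⁻¹`. -/
def cT (n : ℕ) (B : ℝ) : ℝ := B * (n.factorial * (B + 1) ^ n) + 1

lemma cT_pos (n : ℕ) {B : ℝ} (hB : 0 < B) : 0 < cT n B := by
  unfold cT; positivity

lemma inv_diag_le {G : Matrix (Fin n) (Fin n) ℝ} {B : ℝ} (hB : 0 < B)
    (h : ∀ i j, |G i j| ≤ B) (hd : B⁻¹ ≤ G.det) (i : Fin n) :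
    |G⁻¹ i i| ≤ B * (n.factorial * (B + 1) ^ n) := by
  have hdp : 0 < G.det := lt_of_lt_of_le (inv_pos.2 hB) hd
  rw [Matrix.inv_def, Matrix.smul_apply, smul_eq_mul, Ring.inverse_eq_inv', abs_mul,
    abs_of_pos (inv_pos.2 hdp)]
  refine mul_le_mul ?_ (adj_le hB.le h i i) (abs_nonneg _) hB.le
  rw [inv_le_comm₀ hdp hB]
  exact hd

lemma root_inv_le {G S : Matrix (Fin n) (Fin n) ℝ} {B : ℝ} (hB : 0 < B)
    (hS : Sᵀ * S = G) (h : ∀ i j, |G i j| ≤ B) (hd : B⁻¹ ≤ G.det)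
    (i j : Fin n) : |S⁻¹ i j| ≤ cT n B := by
  have h1 := sq_le_diag (S⁻¹)ᵀ j i
  rw [Matrix.transpose_apply, Matrix.transpose_transpose] at h1
  have h2 : S⁻¹ * (S⁻¹)ᵀ = G⁻¹ := by
    rw [← hS, Matrix.mul_inv_rev, Matrix.transpose_nonsing_inv]
  rw [h2] at h1
  exact abs_le_add_one (by positivity) (h1.trans ((le_abs_self _).trans (inv_diag_le hB h hd i)))

lemma root_le {G S : Matrix (Fin n) (Fin n) ℝ} {B : ℝ} (hB : 0 ≤ B)
    (hS : Sᵀ * S = G) (h : ∀ i j, |G i j| ≤ B) (i j : Fin n) : |S i j| ≤ B + 1 := by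
  have h1 := sq_le_diag S i j
  rw [hS] at h1
  exact abs_le_add_one hB (h1.trans ((le_abs_self _).trans (h j j)))

/-- The rescaled metric. -/
def gsr (κ : ℝ) (M : Matrix (Fin n) (Fin n) ℝ) (g : MF n) : MF n := fun y =>
  κ • (Mᵀ * g (ap M y) * M)

lemma gsr_apply (κ : ℝ) (M : Matrix (Fin n) (Fin n) ℝ) (g : MF n) (y : V n) (i j : Fin n) :
    gsr κ M g y i j = κ * ∑ b, (∑ a, M a i * g (ap M y) a b) * M b j := by
  simp only [gsr, Matrix.smul_apply, smul_eq_mul, Matrix.mul_apply, Matrix.transpose_apply]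

lemma smM_gsr {κ : ℝ} {M : Matrix (Fin n) (Fin n) ℝ} {g : MF n} (hg : SmM g) :
    SmM (gsr κ M g) := by
  intro i j
  simp only [gsr_apply]
  exact contDiff_const.mul (ContDiff.sum fun b _ => (ContDiff.sum fun a _ =>
    contDiff_const.mul ((hg a b).comp (contDiff_ap M))).mul contDiff_const)

lemma posDef_gsr {κ : ℝ} (hκ : 0 < κ) {M : Matrix (Fin n) (Fin n) ℝ} (hM : M.det ≠ 0) {g : MF n}
    (hg : ∀ x, (g x).PosDef) (y : V n) : (gsr κ M g y).PosDef := by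
  unfold gsr
  refine Matrix.PosDef.smul ?_ hκ
  have h := (hg (ap M y)).conjTranspose_mul_mul_same (B := M) ?_
  · rwa [Matrix.conjTranspose_eq_transpose_of_trivial] at h
  · intro a b hab
    have hab' : M *ᵥ a = M *ᵥ b := hab
    have h2 := congrArg (fun v => M⁻¹ *ᵥ v) hab'
    simpa only [Matrix.mulVec_mulVec, Matrix.nonsing_inv_mul M hM.isUnit,
      Matrix.one_mulVec] using h2

/-- The density of the rescaled metric. -/
lemma sg_gsr {κ : ℝ} (hκ : 0 < κ) {M : Matrix (Fin n) (Fin n) ℝ} (hM : M.det ≠ 0) {g : MF n}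
    (hg : ∀ x, (g x).PosDef) :
    sg (gsr κ M g) = fun y => (√(κ ^ n) * |M.det| * κ⁻¹) • tsr M (sg g) y := by
  funext y
  have hgd : 0 < (g (ap M y)).det := (hg _).det_pos
  have hu : IsUnit (g (ap M y)).det := hgd.ne'.isUnit
  have hd : (gsr κ M g y).det = κ ^ n * (M.det ^ 2 * (g (ap M y)).det) := by
    unfold gsr
    rw [Matrix.det_smul, Fintype.card_fin, Matrix.det_mul, Matrix.det_mul, Matrix.det_transpose]
    ring
  have hi : (gsr κ M g y)⁻¹ = κ⁻¹ • (M⁻¹ * (g (ap M y))⁻¹ * (M⁻¹)ᵀ) := by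
    refine Matrix.inv_eq_right_inv ?_
    unfold gsr
    rw [Matrix.smul_mul, Matrix.mul_smul, smul_smul, mul_inv_cancel₀ hκ.ne', one_smul]
    calc Mᵀ * g (ap M y) * M * (M⁻¹ * (g (ap M y))⁻¹ * (M⁻¹)ᵀ)
        = Mᵀ * g (ap M y) * (M * M⁻¹) * (g (ap M y))⁻¹ * (M⁻¹)ᵀ := by
          simp only [Matrix.mul_assoc]
      _ = Mᵀ * (M⁻¹)ᵀ := by
          rw [Matrix.mul_nonsing_inv M hM.isUnit, Matrix.mul_one,
            Matrix.mul_assoc (Mᵀ) (g (ap M y)), Matrix.mul_nonsing_inv _ hu, Matrix.mul_one]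
      _ = 1 := by
          rw [← Matrix.transpose_mul, Matrix.nonsing_inv_mul M hM.isUnit, Matrix.transpose_one]
  unfold sg
  rw [hd, hi, Real.sqrt_mul (by positivity), Real.sqrt_mul (by positivity), Real.sqrt_sq_eq_abs]
  simp only [tsr, Matrix.mul_smul, Matrix.smul_mul, smul_smul]
  congr 1
  ring

/-- `√(det A) A⁻¹` determines `A`, `n ≥ 3`. -/
theorem sg_inj794 (hn : 3 ≤ n) {A B : Matrix (Fin n) (Fin n) ℝ} (hA : A.PosDef) (hB : B.PosDef)
    (h : √A.det • A⁻¹ = √B.det • B⁻¹) : A = B := by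
  set a : ℝ := √A.det with ha
  set b : ℝ := √B.det with hb
  have ha0 : 0 < a := Real.sqrt_pos.2 hA.det_pos
  have hb0 : 0 < b := Real.sqrt_pos.2 hB.det_pos
  have ha2 : a ^ 2 = A.det := Real.sq_sqrt hA.det_pos.le
  have hb2 : b ^ 2 = B.det := Real.sq_sqrt hB.det_pos.le
  have hAu : IsUnit A.det := hA.det_pos.ne'.isUnit
  have hBu : IsUnit B.det := hB.det_pos.ne'.isUnit
  have h1 : a • B = b • A := by
    have e1 : A * (a • A⁻¹) * B = a • B := by
      rw [Matrix.mul_smul, Matrix.mul_nonsing_inv A hAu, Matrix.smul_mul, Matrix.one_mul]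
    have e2 : A * (b • B⁻¹) * B = b • A := by
      rw [Matrix.mul_smul, Matrix.smul_mul, Matrix.mul_assoc, Matrix.nonsing_inv_mul B hBu,
        Matrix.mul_one]
    rw [← e1, ← e2, h]
  have h2 : a ^ n * b ^ 2 = b ^ n * a ^ 2 := by
    have := congrArg Matrix.det h1
    rw [Matrix.det_smul, Matrix.det_smul, Fintype.card_fin, ← ha2, ← hb2] at this
    exact this
  obtain ⟨k, rfl⟩ : ∃ k, n = k + 1 + 2 := ⟨n - 3, by omega⟩
  have h3 : a ^ (k + 1) = b ^ (k + 1) := by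
    have h4 : (a ^ 2 * b ^ 2) * a ^ (k + 1) = (a ^ 2 * b ^ 2) * b ^ (k + 1) := by
      rw [pow_add a (k + 1) 2, pow_add b (k + 1) 2] at h2
      linear_combination h2
    exact mul_left_cancel₀ (by positivity) h4
  have h5 : a = b := (pow_left_inj₀ ha0.le hb0.le (Nat.succ_ne_zero k)).1 h3
  rw [h5] at h1
  have h6 := congrArg (fun M => b⁻¹ • M) h1
  simp only [smul_smul, inv_mul_cancel₀ hb0.ne', one_smul] at h6
  exact h6.symm

/-- The conclusion for the metrics. -/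
theorem iso794 (hn : 3 ≤ n) {J G₁ G₂ : Matrix (Fin n) (Fin n) ℝ} (hJ : 0 < J.det)
    (h1 : G₁.PosDef) (h2 : G₂.PosDef)
    (h : J.det⁻¹ • (J * (√G₂.det • G₂⁻¹) * Jᵀ) = √G₁.det • G₁⁻¹) : G₂ = Jᵀ * G₁ * J := by
  have hu : IsUnit J.det := hJ.ne'.isUnit
  have hG : IsUnit G₂.det := h2.det_pos.ne'.isUnit
  set H : Matrix (Fin n) (Fin n) ℝ := (J⁻¹)ᵀ * G₂ * J⁻¹ with hH
  have hHp : H.PosDef := by
    have h3 := h2.conjTranspose_mul_mul_same (B := J⁻¹) (by
      intro a b hab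
      have hab' : J⁻¹ *ᵥ a = J⁻¹ *ᵥ b := hab
      have h2 := congrArg (fun v => J *ᵥ v) hab'
      simpa only [Matrix.mulVec_mulVec, Matrix.mul_nonsing_inv J hu,
        Matrix.one_mulVec] using h2)
    rwa [Matrix.conjTranspose_eq_transpose_of_trivial] at h3
  have hd : H.det = (J.det⁻¹) ^ 2 * G₂.det := by
    rw [hH, Matrix.det_mul, Matrix.det_mul, Matrix.det_transpose, Matrix.det_nonsing_inv,
      Ring.inverse_eq_inv']
    ring
  have hi : H⁻¹ = J * G₂⁻¹ * Jᵀ := by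
    refine Matrix.inv_eq_right_inv ?_
    rw [hH]
    calc (J⁻¹)ᵀ * G₂ * J⁻¹ * (J * G₂⁻¹ * Jᵀ)
        = (J⁻¹)ᵀ * G₂ * (J⁻¹ * J) * G₂⁻¹ * Jᵀ := by simp only [Matrix.mul_assoc]
      _ = (J⁻¹)ᵀ * Jᵀ := by
          rw [Matrix.nonsing_inv_mul J hu, Matrix.mul_one, Matrix.mul_assoc ((J⁻¹)ᵀ) G₂,
            Matrix.mul_nonsing_inv _ hG, Matrix.mul_one]
      _ = 1 := by
          rw [← Matrix.transpose_mul, Matrix.mul_nonsing_inv J hu, Matrix.transpose_one]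
  have hk : √H.det • H⁻¹ = √G₁.det • G₁⁻¹ := by
    rw [← h, hd, hi, Real.sqrt_mul (by positivity), Real.sqrt_sq (inv_pos.2 hJ).le]
    simp only [Matrix.mul_smul, Matrix.smul_mul, smul_smul]
  have he := sg_inj794 hn hHp h1 hk
  rw [← he, hH]
  calc G₂ = (Jᵀ * (J⁻¹)ᵀ) * G₂ * (J⁻¹ * J) := by
        rw [← Matrix.transpose_mul, Matrix.nonsing_inv_mul J hu, Matrix.transpose_one,
          Matrix.one_mul, Matrix.mul_one]
    _ = Jᵀ * ((J⁻¹)ᵀ * G₂ * J⁻¹) * J := by simp only [Matrix.mul_assoc]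

/-- From the densities to the metrics. -/
theorem iso_dif (hn : 3 ≤ n) {Ω : Set (V n)} {g₁ g₂ : MF n} (h1 : ∀ x, (g₁ x).PosDef)
    (h2 : ∀ x, (g₂ x).PosDef) {w K : V n → V n} (hD : Dif Ω w K)
    (h : ∀ x, psh (sg g₂) w K x = sg g₁ x) (x : V n) :
    g₂ x = (jm w x)ᵀ * g₁ (x + w x) * jm w x := by
  have h3 := h (x + w x)
  unfold psh at h3
  rw [hD.l x] at h3
  exact iso794 hn (hD.dp x) (h1 _) (h2 x) h3

end Vale.Agent.P088.HY.H794
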