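import Vale.Agent.P088.R2.H794.Ext
import Vale.Agent.P088.H207.N6

/-!
# P088: rigidity of an arbitrary metric in a small cell
-/

open MeasureTheory Set Filter Topology
open scoped ContDiff Matrix

noncomputable section

namespace Vale.Agent.P088.HY.H794

open Vale.Agent.P088.LR Vale.Agent.P088.LR.CF

variable {n : ℕ}

lemma norm_ifd_one {f : V n → ℝ} (y : V n) : ‖fderiv ℝ f y‖ = ‖iteratedFDeriv ℝ 1 f y‖ := by
  rw [← norm_iteratedFDeriv_fderiv, norm_iteratedFDeriv_zero]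

lemma segm_oB {R : ℝ} {y : V n} (hy : y ∈ oB n R) :
    segment ℝ 0 y ⊆ oB n R := by
  intro z hz
  rw [segment_eq_image] at hz
  obtain ⟨t, ht, rfl⟩ := hz
  show ∑ j, ((1 - t) • (0 : V n) + t • y) j ^ 2 < R ^ 2
  rw [smul_zero, zero_add, smul_sq]
  have h1 : ∑ j, y j ^ 2 < R ^ 2 := hy
  have h2 : 0 ≤ ∑ j, y j ^ 2 := Finset.sum_nonneg fun j _ => sq_nonneg _
  have h3 : t ^ 2 ≤ 1 := pow_le_one₀ ht.1 ht.2
  nlinarith

/-- Mean value in the ball. -/
lemma mv_oB {R B : ℝ} (hR : 0 < R) (hB : 0 ≤ B) {f : V n → ℝ} (hf : ContDiffOn ℝ ∞ f (oB n R))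
    (h1 : ∀ y ∈ oB n R, ‖iteratedFDeriv ℝ 1 f y‖ ≤ B) {y : V n} (hy : y ∈ oB n R) :
    |f y - f 0| ≤ R * B := by
  have hd : ∀ z ∈ segment ℝ 0 y, HasFDerivWithinAt f (fderiv ℝ f z) (segment ℝ 0 y) z := by
    intro z hz
    have h2 : DifferentiableAt ℝ f z :=
      ((hf.contDiffAt ((isOpen_oB R).mem_nhds (segm_oB hy hz))).differentiableAt (by simp))
    exact h2.hasFDerivAt.hasFDerivWithinAt
  have h3 := Convex.norm_image_sub_le_of_norm_hasFDerivWithin_le (C := B) hd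
    (fun z hz => by rw [norm_ifd_one]; exact h1 z (segm_oB hy hz)) (convex_segment (0 : V n) y)
    (left_mem_segment ℝ 0 y) (right_mem_segment ℝ 0 y)
  rw [sub_zero, Real.norm_eq_abs] at h3
  refine h3.trans ?_
  rw [mul_comm]
  exact mul_le_mul_of_nonneg_right (norm_le_of_oB hR hy) hB

lemma ifd_sub_const {f : V n → ℝ} (c : ℝ) {l : ℕ} (hl : l ≠ 0) {y : V n}
    (hf : ContDiffAt ℝ ∞ f y) :
    iteratedFDeriv ℝ l (fun y => f y - c) y = iteratedFDeriv ℝ l f y := by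
  have h1 := iteratedFDeriv_sub_apply (𝕜 := ℝ) (i := l) (x := y) (f := f) (g := fun _ => c)
    (hf.of_le (by exact_mod_cast le_top)) contDiffAt_const
  have h2 : (f - fun _ => c) = fun y => f y - c := rfl
  rw [h2] at h1
  rw [h1, iteratedFDeriv_const_of_ne hl]
  simp

/-- The extension is near a constant metric, in the scale `r`. -/
lemma exR_near {r B X : ℝ} (hr : 0 < r) (hr1 : r ≤ 1) (hB : 0 ≤ B) {k : ℕ} (hk : 1 ≤ k)
    (hX : Cl k X (chR : V n → ℝ)) (hX1 : 1 ≤ X) {f : MF n}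
    (hf : ∀ i j, ContDiffOn ℝ ∞ (fun y => f y i j) (oB n (2 * r)))
    (hb : ∀ y ∈ oB n (2 * r), ∀ i j, ∀ l ≤ k, ‖iteratedFDeriv ℝ l (fun y => f y i j) y‖ ≤ B)
    (i j : Fin n) : ClR k r (2 ^ k * (X * (2 * r * B))) (fun y => exR r f y i j - f 0 i j) := by
  have h2r : 0 < 2 * r := by linarith
  have hO := isOpen_oB (n := n) (2 * r)
  have hF : ∀ l ≤ k, ∀ y ∈ oB n (2 * r),
      r ^ l * ‖iteratedFDeriv ℝ l (fun y => f y i j - f 0 i j) y‖ ≤ 2 * r * B := by
    intro l hl y hy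
    rcases Nat.eq_zero_or_pos l with h0 | h0
    · subst h0
      rw [pow_zero, one_mul, norm_iteratedFDeriv_zero, Real.norm_eq_abs]
      exact mv_oB h2r hB (hf i j) (fun z hz => hb z hz i j 1 hk) hy
    · rw [ifd_sub_const _ (by omega) ((hf i j).contDiffAt (hO.mem_nhds hy))]
      have h1 := hb y hy i j l hl
      have h2 : r ^ l ≤ r := by
        calc r ^ l ≤ r ^ 1 := pow_le_pow_of_le_one hr.le hr1 h0
          _ = r := pow_one r
      have h3 : r ^ l * ‖iteratedFDeriv ℝ l (fun y => f y i j) y‖ ≤ r * B :=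
        mul_le_mul h2 h1 (norm_nonneg _) hr.le
      have h4 : 0 ≤ r * B := by positivity
      linarith
  intro l hl y
  by_cases hy : y ∈ oB n (2 * r)
  · have e : (fun y => exR r f y i j - f 0 i j) = fun y => chR (r⁻¹ • y) * (f y i j - f 0 i j) := by
      funext y
      show f 0 i j + chR (r⁻¹ • y) * (f y i j - f 0 i j) - f 0 i j = _
      ring
    rw [e]
    refine (mul_scale hr hO chR_sm ((hf i j).sub contDiffOn_const) hX (by linarith) hF hl hy).trans ?_
    refine mul_le_mul_of_nonneg_right (pow_le_pow_right₀ (by norm_num) hl) (by positivity)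
  · have e : (fun y => exR r f y i j - f 0 i j) =ᶠ[𝓝 y] fun _ => (0 : ℝ) := by
      filter_upwards [exR_nh hr (f := f) hy] with z hz
      rw [hz, sub_self]
    rw [(e.iteratedFDeriv ℝ l).self_of_nhds]
    have h0 : iteratedFDeriv ℝ l (fun _ : V n => (0 : ℝ)) y = 0 := by
      rw [iteratedFDeriv_zero_fun]; rfl
    rw [h0, norm_zero, mul_zero]
    positivity

/-- A metric which is the extension off a cell, with bounded derivatives, is near a constant one, in
the scale `r`. -/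
lemma glue_near [NeZero n] {r D : ℝ} (hr : 0 < r) (hD : 0 ≤ D) {k : ℕ} (hk : 1 ≤ k)
    {Ω : Set (V n)} (hreg : interior (closure Ω) = Ω)
    (hΩ : ∀ y ∈ Ω, ∀ j, |y j| ≤ 2 * r) {h g : V n → ℝ} (hh : ContDiff ℝ ∞ h)
    (hg : ContDiff ℝ ∞ g) {c : ℝ} (hoff : ∀ y, (∃ j, 4 * r < |y j|) → h y = c)
    (hgh : ∀ y ∉ Ω, g y = h y) (hcl : ClR k r D (fun y => h y - c))
    (hb : ∀ y ∈ Ω, ∀ l ≤ k, l ≠ 0 → r ^ l * ‖iteratedFDeriv ℝ l g y‖ ≤ D) :
    ClR k r (7 * D) (fun y => g y - c) := by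
  have hall : ∀ l ≤ k, l ≠ 0 → ∀ y, r ^ l * ‖iteratedFDeriv ℝ l g y‖ ≤ D := by
    intro l hl hl0 y
    by_cases hy : y ∈ Ω
    · exact hb y hy l hl hl0
    · rw [Vale.Agent.P088.H292.BM.iter_off hreg hg hh hgh l hy,
        ← ifd_sub_const c hl0 hh.contDiffAt]
      exact hcl l hl y
  intro l hl y
  rcases Nat.eq_zero_or_pos l with h0 | h0
  · subst h0
    rw [pow_zero, one_mul, norm_iteratedFDeriv_zero, Real.norm_eq_abs]
    by_cases hy : y ∈ Ω
    · -- mean value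
      obtain ⟨z, hz⟩ : ∃ z : V n, z = y + Pi.single (0 : Fin n) (7 * r) := ⟨_, rfl⟩
      have hz0 : 4 * r < |z 0| := by
        rw [hz, Pi.add_apply, Pi.single_eq_same]
        have h1 := abs_le.1 (hΩ y hy 0)
        rw [lt_abs]
        left
        linarith [h1.1]
      have hzΩ : z ∉ Ω := fun h => by
        have := hΩ z h 0
        linarith
      have h2 : g z = c := by rw [hgh z hzΩ]; exact hoff z ⟨0, hz0⟩
      have h3 := Convex.norm_image_sub_le_of_norm_fderiv_le (f := g) (C := D / r) (s := univ)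
        (fun x _ => (hg.differentiable (by simp)) x) (fun x _ => by
          rw [norm_ifd_one, le_div_iff₀ hr]
          have := hall 1 hk one_ne_zero x
          rw [pow_one] at this
          linarith) convex_univ (mem_univ z) (mem_univ y)
      rw [h2, Real.norm_eq_abs] at h3
      have h4 : ‖y - z‖ ≤ 7 * r := by
        have : y - z = -Pi.single (0 : Fin n) (7 * r) := by rw [hz]; abel
        rw [this, norm_neg, pi_norm_le_iff_of_nonneg (by positivity)]
        intro j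
        by_cases hj : j = 0
        · subst hj
          rw [Pi.single_eq_same, Real.norm_of_nonneg (by positivity)]
        · rw [Pi.single_eq_of_ne hj, norm_zero]; positivity
      calc |g y - c| ≤ D / r * ‖y - z‖ := h3
        _ ≤ D / r * (7 * r) := mul_le_mul_of_nonneg_left h4 (by positivity)
        _ = 7 * D := by field_simp
    · have h1 := hcl 0 (Nat.zero_le _) y
      rw [pow_zero, one_mul, norm_iteratedFDeriv_zero, Real.norm_eq_abs] at h1
      rw [hgh y hy]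
      linarith
  · rw [ifd_sub_const c (by omega) hg.contDiffAt]
    have := hall l hl (by omega) y
    linarith

/-- **Rigidity of an arbitrary metric in a small cell.** -/
theorem rigO_cell [NeZero n] {k : ℕ} (hk : 1 ≤ k) {B ε : ℝ} (hB : 0 < B) (hε : 0 < ε)
    (hR : RigR n k B ε) : ∃ r₀ : ℝ, 0 < r₀ ∧ ∀ r : ℝ, 0 < r → r ≤ r₀ → ∀ f : MF n,
    (∀ i j, ContDiffOn ℝ ∞ (fun y => f y i j) (oB n (2 * r))) →
    (∀ y ∈ oB n (2 * r), (f y).PosDef) →
    (∀ y ∈ oB n (2 * r), ∀ i j, ∀ l ≤ k, ‖iteratedFDeriv ℝ l (fun y => f y i j) y‖ ≤ B) →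
    1 / B ≤ (f 0).det → ∀ Ω : Set (V n), IsOpen Ω → interior (closure Ω) = Ω →
    Ω ⊆ oB n (3 / 2 * r) →
    Vale.Agent.P088.H207.R.RigO n Ω (exR r f) (fun g => ∀ y ∈ Ω, ∀ i j, ∀ l ≤ k,
      ‖iteratedFDeriv ℝ l (fun y => g y i j) y‖ ≤ B) := by
  obtain ⟨X, hX1, hX⟩ := chR_bd n k
  obtain ⟨D₀, hD₀⟩ : ∃ D : ℝ, D = 2 ^ k * (X * (2 * B)) := ⟨_, rfl⟩
  have hD0 : 0 < D₀ := by rw [hD₀]; positivity
  have hBD : B ≤ D₀ := by
    rw [hD₀]
    have h1 : (1 : ℝ) ≤ 2 ^ k := one_le_pow₀ (by norm_num)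
    have h2 : B ≤ X * (2 * B) := by nlinarith
    calc B ≤ X * (2 * B) := h2
      _ = 1 * (X * (2 * B)) := (one_mul _).symm
      _ ≤ _ := mul_le_mul_of_nonneg_right h1 (by positivity)
  refine ⟨min 1 (ε / (7 * D₀)), lt_min one_pos (by positivity), ?_⟩
  intro r hr hr0 f hf hfp hfb hdet Ω hΩ hreg hΩr
  have hr1 : r ≤ 1 := hr0.trans (min_le_left _ _)
  have hr2 : 7 * (D₀ * r) ≤ ε := by
    have h1 := hr0.trans (min_le_right _ _)
    rw [le_div_iff₀ (by positivity)] at h1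
    linarith
  have h0 : (0 : V n) ∈ oB n (2 * r) := zero_mem_oB (by linarith)
  have hbox : ∀ y ∈ Ω, ∀ j, |y j| ≤ 2 * r := fun y hy j => by
    have := abs_le_of_oB (R := 3 / 2 * r) (by positivity) (le_of_lt (hΩr hy)) j
    linarith
  have hsq : ∀ {y : V n} {j : Fin n}, 4 * r < |y j| → 49 / 16 * r ^ 2 ≤ ∑ j, y j ^ 2 := by
    intro y j hj
    have h1 : y j ^ 2 ≤ ∑ j, y j ^ 2 :=
      Finset.single_le_sum (f := fun j => y j ^ 2) (fun i _ => sq_nonneg _) (Finset.mem_univ j)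
    have h2 : (4 * r) ^ 2 ≤ y j ^ 2 := by
      rw [← sq_abs (y j)]
      exact pow_le_pow_left₀ (by positivity) hj.le 2
    nlinarith
  have hhcl : ∀ i j, ClR k r (D₀ * r) (fun y => exR r f y i j - f 0 i j) := fun i j l hl y => by
    have := exR_near hr hr1 hB.le hk hX hX1 hf hfb i j l hl y
    refine this.trans (le_of_eq ?_)
    rw [hD₀]; ring
  have hDr : 0 ≤ D₀ * r := by positivity
  intro g hg hgp hoff hgX hst
  refine hR r hr (f 0) (hfp 0 h0) (fun i j => ?_) ?_ Ω hΩ hreg hbox (exR r f) g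
    (exR_sm hr hf) hg (exR_pos hr hfp) hgp ?_ hoff (fun i j => ?_) (fun i j => ?_) hst
  · have := hfb 0 h0 i j 0 (Nat.zero_le _)
    rwa [norm_iteratedFDeriv_zero, Real.norm_eq_abs] at this
  · rwa [one_div] at hdet
  · rintro y ⟨j, hj⟩
    exact exR_out hr (hsq hj)
  · intro l hl y
    refine (hhcl i j l hl y).trans ?_
    linarith
  · intro l hl y
    refine (glue_near hr hDr hk hreg hbox (exR_sm hr hf i j) (hg i j)
      (fun y hy => by obtain ⟨j', hj'⟩ := hy; rw [exR_out hr (hsq hj')])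
      (fun y hy => by rw [hoff y hy]) (hhcl i j) (fun y hy l hl hl0 => ?_) l hl y).trans hr2
    have h1 := hgX y hy i j l hl
    have h2 : r ^ l ≤ r := by
      calc r ^ l ≤ r ^ 1 := pow_le_pow_of_le_one hr.le hr1 (Nat.pos_of_ne_zero hl0)
        _ = r := pow_one r
    calc r ^ l * ‖iteratedFDeriv ℝ l (fun y => g y i j) y‖ ≤ r * B :=
          mul_le_mul h2 h1 (norm_nonneg _) hr.le
      _ ≤ D₀ * r := by rw [mul_comm]; exact mul_le_mul_of_nonneg_right hBD hr.le

end Vale.Agent.P088.HY.H794
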