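import Vale.Agent.P088.R2.H558.Spec
import Vale.Agent.P088.R2.H794.Mat
import Vale.Agent.P088.H442.Top
import Vale.Agent.P088.H158.PushA

/-!
# P088, two general metrics near a constant one, at any scale
-/

open MeasureTheory Set
open scoped ContDiff Matrix

noncomputable section

namespace Vale.Agent.P088.HY.H794

open Vale.Agent.P088.LR Vale.Agent.P088.LR.CF

variable {n : ℕ}

lemma bl_bal : bls n ⊆ bal n := fun x hx => by
  have h : ∑ j, (x j - 1 / 2) ^ 2 ≤ 1 / 1024 := hx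
  show ∑ j, (x j - 1 / 2) ^ 2 ≤ 1 / 16
  linarith

lemma sg_one_mat : √(1 : Matrix (Fin n) (Fin n) ℝ).det • (1 : Matrix (Fin n) (Fin n) ℝ)⁻¹ = 1 := by
  simp

/-- Two metrics near `1`, in the unit scale. -/
theorem unit_log (hL : RowLOG) (hn : 3 ≤ n) : ∃ (k : ℕ) (ε : ℝ), 0 < ε ∧ ∀ Ω : Set (V n),
    IsOpen Ω → interior (closure Ω) = Ω → Ω ⊆ bls n → ∀ g₁ g₂ : MF n, SmM g₁ → SmM g₂ →
    (∀ x, (g₁ x).PosDef) → (∀ x, (g₂ x).PosDef) → (∀ x ∉ bal n, g₁ x = 1) →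
    (∀ x ∉ Ω, g₂ x = g₁ x) →
    (∀ i j, Cl k ε (fun x => g₁ x i j - (1 : Matrix (Fin n) (Fin n) ℝ) i j)) →
    (∀ i j, Cl k ε (fun x => g₂ x i j - (1 : Matrix (Fin n) (Fin n) ℝ) i j)) →
    St2 Ω (sg g₁) (sg g₂) →
    ∃ w K, Dif Ω w K ∧ ∀ x, g₂ x = (jm w x)ᵀ * g₁ (x + w x) * jm w x := by
  obtain ⟨k, ε, hε, h⟩ := hL n hn
  obtain ⟨δ, hδ, hN⟩ := H72.norm0 n k ε hε
  refine ⟨k, δ, hδ, ?_⟩
  intro Ω hΩ hreg hb g₁ g₂ s1 s2 p1 p2 hoff1 hoff c1 c2 hst
  obtain ⟨w, K, hD, hK⟩ := h Ω hΩ hreg hb (sg g₁) (sg g₂) (LR.H442.smM_sg442 s1 p1)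
    (LR.H442.smM_sg442 s2 p2) (LR.H442.symm_sg442 p1) (LR.H442.symm_sg442 p2)
    (fun x hx => by
      unfold sg
      rw [hoff1 x hx]
      exact sg_one_mat)
    (fun x hx => by
      unfold sg
      rw [hoff x hx]) (hN g₁ s1 c1) (hN g₂ s2 c2) hst
  exact ⟨w, K, hD, iso_dif hn p1 p2 hD hK⟩

lemma ifd_sum_le {ι : Type*} [Fintype ι] {f : ι → V n → ℝ} (hf : ∀ p, ContDiff ℝ ∞ (f p))
    (c : ι → ℝ) {l : ℕ} {y : V n} {C A : ℝ} (hC : 0 ≤ C) (hc : ∀ p, |c p| ≤ C)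
    (h : ∀ p, ‖iteratedFDeriv ℝ l (f p) y‖ ≤ A) :
    ‖iteratedFDeriv ℝ l (fun y => ∑ p, c p * f p y) y‖ ≤ Fintype.card ι * (C * A) := by
  have h1 : iteratedFDeriv ℝ l (fun y => ∑ p, c p * f p y) y =
      ∑ p, iteratedFDeriv ℝ l (fun y => c p • f p y) y := by
    refine iteratedFDeriv_fun_sum_apply fun p _ => ?_
    exact (((hf p).of_le (by exact_mod_cast le_top)).const_smul (c p)).contDiffAt
  rw [h1]
  refine (norm_sum_le _ _).trans ?_
  calc ∑ p, ‖iteratedFDeriv ℝ l (fun y => c p • f p y) y‖ ≤ ∑ _p : ι, C * A := by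
        refine Finset.sum_le_sum fun p _ => ?_
        have h2 : iteratedFDeriv ℝ l (fun y => c p • f p y) y = c p • iteratedFDeriv ℝ l (f p) y :=
          iteratedFDeriv_const_smul_apply' ((hf p).of_le (by exact_mod_cast le_top)).contDiffAt
        rw [h2, norm_smul]
        exact mul_le_mul (hc p) (h p) (norm_nonneg _) hC
    _ = _ := by simp

/-- All derivatives up to order `k`, in the scale `R`, are at most `ε`. -/
def ClR (k : ℕ) (R ε : ℝ) (f : V n → ℝ) : Prop :=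
  ∀ l ≤ k, ∀ x, R ^ l * ‖iteratedFDeriv ℝ l f x‖ ≤ ε

/-- Rigidity of two metrics which are near a constant one in the scale `R`. -/
def RigR (n k : ℕ) (B ε : ℝ) : Prop :=
  ∀ R : ℝ, 0 < R → ∀ G : Matrix (Fin n) (Fin n) ℝ, G.PosDef → (∀ i j, |G i j| ≤ B) →
  B⁻¹ ≤ G.det → ∀ Ω : Set (V n), IsOpen Ω → interior (closure Ω) = Ω →
  (∀ x ∈ Ω, ∀ j, |x j| ≤ 2 * R) → ∀ g₁ g₂ : MF n, SmM g₁ → SmM g₂ → (∀ x, (g₁ x).PosDef) →
  (∀ x, (g₂ x).PosDef) → (∀ x, (∃ j, 4 * R < |x j|) → g₁ x = G) → (∀ x ∉ Ω, g₂ x = g₁ x) →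
  (∀ i j, ClR k R ε (fun x => g₁ x i j - G i j)) →
  (∀ i j, ClR k R ε (fun x => g₂ x i j - G i j)) → St2 Ω (sg g₁) (sg g₂) →
  ∃ w K, Dif Ω w K ∧ ∀ x, g₂ x = (jm w x)ᵀ * g₁ (x + w x) * jm w x

lemma mulVec_abs_le {A : Matrix (Fin n) (Fin n) ℝ} {a b : ℝ} (ha : 0 ≤ a)
    (hA : ∀ i j, |A i j| ≤ a) {x : V n} (hx : ∀ j, |x j| ≤ b) (i : Fin n) :
    |(A *ᵥ x) i| ≤ n * (a * b) := by
  calc |(A *ᵥ x) i| = |∑ j, A i j * x j| := rfl
    _ ≤ ∑ j, |A i j * x j| := Finset.abs_sum_le_sum_abs _ _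
    _ ≤ ∑ _j : Fin n, a * b := by
        refine Finset.sum_le_sum fun j _ => ?_
        rw [abs_mul]
        exact mul_le_mul (hA i j) (hx j) (abs_nonneg _) ha
    _ = _ := by simp

/-- The scaling factor. -/
def tt (n : ℕ) (B : ℝ) : ℝ := 64 * ((n : ℝ) + 1) ^ 2 * (B + 1)

lemma tt_pos (n : ℕ) {B : ℝ} (hB : 0 < B) : 0 < tt n B := by unfold tt; positivity

/-- The bound of the norm of the linear map, divided by `R`. -/
def dd (n : ℕ) (B : ℝ) : ℝ := n * (tt n B * cT n B)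

lemma sum_sq_le {v : V n} {a : ℝ} (h : ∀ j, |v j| ≤ a) : ∑ j, v j ^ 2 ≤ n * a ^ 2 := by
  calc ∑ j, v j ^ 2 ≤ ∑ _j : Fin n, a ^ 2 := by
        refine Finset.sum_le_sum fun j _ => ?_
        rw [← sq_abs]
        exact pow_le_pow_left₀ (abs_nonneg _) (h j) 2
    _ = _ := by simp

theorem rigR_of_log (hL : RowLOG) (hn : 3 ≤ n) :
    ∃ k : ℕ, ∀ B : ℝ, 0 < B → ∃ ε > 0, RigR n k B ε := by
  obtain ⟨k, ε₀, hε₀, hU⟩ := unit_log hL hn
  refine ⟨k, fun B hB => ?_⟩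
  have ht := tt_pos n hB
  have hc := cT_pos n hB
  have hn0 : (0 : ℝ) < n := by exact_mod_cast (by omega : 0 < n)
  have hm : 0 < max 1 (dd n B) ^ k := by positivity
  refine ⟨ε₀ / (n * n * (cT n B * cT n B) * max 1 (dd n B) ^ k), by positivity, ?_⟩
  intro R hR G hG hGb hGd Ω hΩ hreg hΩb g₁ g₂ s1 s2 p1 p2 hoff1 hoff c1 c2 hst
  obtain ⟨S, hS, hS0⟩ := posDef_root hG
  have hSu : IsUnit S.det := hS0.isUnit
  have hT := root_inv_le hB hS hGb hGd
  have hSb := root_le hB.le hS hGb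
  -- the matrix of the change of variables
  obtain ⟨a, ha⟩ : ∃ a : ℝ, a = tt n B * R := ⟨_, rfl⟩
  have ha0 : 0 < a := by rw [ha]; positivity
  obtain ⟨M, hMe⟩ : ∃ M : Matrix (Fin n) (Fin n) ℝ, M = a • S⁻¹ := ⟨_, rfl⟩
  have hM : M.det ≠ 0 := by
    rw [hMe, Matrix.det_smul, Matrix.det_nonsing_inv, Ring.inverse_eq_inv']
    exact mul_ne_zero (pow_ne_zero _ ha0.ne') (inv_ne_zero hS0)
  have hMi : M⁻¹ = a⁻¹ • S := by
    refine Matrix.inv_eq_right_inv ?_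
    rw [hMe, Matrix.smul_mul, Matrix.mul_smul, smul_smul, mul_inv_cancel₀ ha0.ne', one_smul,
      Matrix.nonsing_inv_mul S hSu]
  have hMb : ∀ i j, |M i j| ≤ a * cT n B := by
    intro i j
    rw [hMe, Matrix.smul_apply, smul_eq_mul, abs_mul, abs_of_pos ha0]
    exact mul_le_mul_of_nonneg_left (hT i j) ha0.le
  have hMn : ‖ml M‖ ≤ dd n B * R := by
    refine (ml_norm (by positivity) hMb).trans (le_of_eq ?_)
    rw [ha]; unfold dd; ring
  have hκ : 0 < (a ^ 2)⁻¹ := by positivity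
  -- the domain
  have hai : ∀ {x : V n} {b : ℝ}, (∀ j, |x j| ≤ b) → ∀ j,
      |(ai M x - (hf : V n)) j| ≤ a⁻¹ * (n * ((B + 1) * b)) := by
    intro x b hx j
    have e : ai M x - (hf : V n) = a⁻¹ • (S *ᵥ x) := by
      unfold ai
      rw [add_sub_cancel_right, hMi, Matrix.smul_mulVec]
    rw [e, Pi.smul_apply, smul_eq_mul, abs_mul, abs_of_pos (inv_pos.2 ha0)]
    exact mul_le_mul_of_nonneg_left (mulVec_abs_le (by linarith) hSb hx j) (inv_pos.2 ha0).le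
  have hq : a⁻¹ * (n * ((B + 1) * R)) ≤ 1 / (64 * (n + 1)) := by
    rw [inv_mul_le_iff₀ ha0, ha, mul_one_div, le_div_iff₀ (by positivity)]
    unfold tt
    have h1 : (n : ℝ) ≤ n + 1 := by linarith
    have h2 : (n : ℝ) * ((B + 1) * R) ≤ (n + 1) * ((B + 1) * R) :=
      mul_le_mul_of_nonneg_right h1 (by positivity)
    nlinarith [mul_le_mul_of_nonneg_right h2 (by positivity : (0 : ℝ) ≤ 64 * (n + 1))]
  have hnn : ∀ c : ℝ, 0 ≤ c → (n : ℝ) * (c * (1 / (64 * (n + 1)))) ^ 2 ≤ c ^ 2 / 4096 := by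
    intro c hc0
    have h3 : (n : ℝ) * (c * (1 / (64 * (n + 1)))) ^ 2 = c ^ 2 / 4096 * (n / (n + 1) ^ 2) := by
      field_simp
      ring
    rw [h3]
    have h4 : (n : ℝ) / (n + 1) ^ 2 ≤ 1 := by
      rw [div_le_one (by positivity)]
      nlinarith
    exact mul_le_of_le_one_right (by positivity) h4
  have hmemA : ∀ {x : V n} {c : ℝ}, 0 ≤ c → (∀ j, |x j| ≤ c * R) →
      ∑ j, (ai M x j - 1 / 2) ^ 2 ≤ c ^ 2 / 4096 := by
    intro x c hc0 hx
    have h5 : ∀ j, |ai M x j - 1 / 2| ≤ c * (1 / (64 * (n + 1))) := by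
      intro j
      have h6 := hai hx j
      have h7 : a⁻¹ * (n * ((B + 1) * (c * R))) = c * (a⁻¹ * (n * ((B + 1) * R))) := by ring
      rw [h7] at h6
      exact h6.trans (mul_le_mul_of_nonneg_left hq hc0)
    exact (sum_sq_le (v := fun j => ai M x j - 1 / 2) h5).trans (hnn c hc0)
  obtain ⟨Ω', hΩ'⟩ : ∃ Ω' : Set (V n), Ω' = ap M ⁻¹' Ω := ⟨_, rfl⟩
  have hO' : IsOpen Ω' := by
    rw [hΩ']; exact hΩ.preimage (contDiff_ap M).continuous
  have hreg' : interior (closure Ω') = Ω' := by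
    rw [hΩ']; exact reg_ap hM hreg
  have hb' : Ω' ⊆ bls n := by
    intro y hy
    rw [hΩ'] at hy
    have h1 := hmemA (x := ap M y) (c := 2) (by norm_num) fun j => by
      have := hΩb _ hy j
      linarith
    rw [ai_ap hM] at h1
    show ∑ j, (y j - 1 / 2) ^ 2 ≤ 1 / 1024
    linarith
  -- the metrics
  have hone : ∀ g : MF n, ∀ y, ∀ i j, gsr (a ^ 2)⁻¹ M g y i j -
      (1 : Matrix (Fin n) (Fin n) ℝ) i j =
      ∑ p : Fin n × Fin n, (S⁻¹ p.1 i * S⁻¹ p.2 j) * (g (ap M y) p.1 p.2 - G p.1 p.2) := by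
    intro g y i j
    have e1 : gsr (a ^ 2)⁻¹ M g y = (S⁻¹)ᵀ * g (ap M y) * S⁻¹ := by
      unfold gsr
      rw [hMe, Matrix.transpose_smul, Matrix.smul_mul, Matrix.smul_mul, Matrix.mul_smul, smul_smul,
        smul_smul]
      have : (a ^ 2)⁻¹ * a * a = 1 := by field_simp
      rw [this, one_smul]
    have e2 : (S⁻¹)ᵀ * G * S⁻¹ = 1 := by
      rw [← hS, ← Matrix.mul_assoc, ← Matrix.transpose_mul, Matrix.mul_nonsing_inv S hSu,
        Matrix.transpose_one, Matrix.one_mul, Matrix.mul_nonsing_inv S hSu]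
    have e3 : gsr (a ^ 2)⁻¹ M g y - 1 = (S⁻¹)ᵀ * (g (ap M y) - G) * S⁻¹ := by
      rw [e1, Matrix.mul_sub, Matrix.sub_mul, e2]
    have e4 := congrFun (congrFun e3 i) j
    rw [Matrix.sub_apply] at e4
    rw [e4, Matrix.mul_apply, Fintype.sum_prod_type, Finset.sum_comm]
    refine Finset.sum_congr rfl fun b _ => ?_
    rw [Matrix.mul_apply, Finset.sum_mul]
    refine Finset.sum_congr rfl fun c _ => ?_
    rw [Matrix.transpose_apply, Matrix.sub_apply]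
    ring
  have hcl : ∀ g : MF n, SmM g → (∀ i j, ClR k R (ε₀ / (n * n * (cT n B * cT n B) *
      max 1 (dd n B) ^ k)) (fun x => g x i j - G i j)) → ∀ i j, Cl k ε₀ (fun y =>
      gsr (a ^ 2)⁻¹ M g y i j - (1 : Matrix (Fin n) (Fin n) ℝ) i j) := by
    intro g hg hcg i j l hl y
    simp only [hone g]
    have h1 := ifd_sum_le (f := fun (p : Fin n × Fin n) (y : V n) =>
      g (ap M y) p.1 p.2 - G p.1 p.2)
      (fun p => ((hg p.1 p.2).comp (contDiff_ap M)).sub contDiff_const)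
      (fun p => S⁻¹ p.1 i * S⁻¹ p.2 j) (l := l) (y := y) (C := cT n B * cT n B)
      (A := max 1 (dd n B) ^ k * (ε₀ / (n * n * (cT n B * cT n B) * max 1 (dd n B) ^ k)))
      (by positivity)
      (fun p => by
        rw [abs_mul]
        exact mul_le_mul (hT _ _) (hT _ _) (abs_nonneg _) hc.le)
      (fun p => by
        refine (ifd_ap (f := fun x => g x p.1 p.2 - G p.1 p.2) ((hg p.1 p.2).sub contDiff_const)
          l y).trans ?_
        have h2 := hcg p.1 p.2 l hl (ap M y)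
        have h3 : ‖ml M‖ ^ l ≤ (dd n B * R) ^ l := pow_le_pow_left₀ (norm_nonneg _) hMn l
        have h4 : dd n B ^ l ≤ max 1 (dd n B) ^ k := by
          have hd0 : 0 ≤ dd n B := by unfold dd; positivity
          calc dd n B ^ l ≤ max 1 (dd n B) ^ l := pow_le_pow_left₀ hd0 (le_max_right _ _) l
            _ ≤ _ := pow_le_pow_right₀ (le_max_left _ _) hl
        calc ‖ml M‖ ^ l * ‖iteratedFDeriv ℝ l (fun x => g x p.1 p.2 - G p.1 p.2) (ap M y)‖
            ≤ (dd n B * R) ^ l * ‖iteratedFDeriv ℝ l (fun x => g x p.1 p.2 - G p.1 p.2)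
                (ap M y)‖ := mul_le_mul_of_nonneg_right h3 (norm_nonneg _)
          _ = dd n B ^ l * (R ^ l * ‖iteratedFDeriv ℝ l (fun x => g x p.1 p.2 - G p.1 p.2)
                (ap M y)‖) := by rw [mul_pow]; ring
          _ ≤ _ := mul_le_mul h4 h2 (by positivity) hm.le)
    refine h1.trans (le_of_eq ?_)
    rw [Fintype.card_prod, Fintype.card_fin]
    push_cast
    field_simp
  have hoff1' : ∀ y ∉ bal n, gsr (a ^ 2)⁻¹ M g₁ y = 1 := by
    intro y hy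
    have h1 : ∃ j, 4 * R < |ap M y j| := by
      by_contra hcon
      push Not at hcon
      apply hy
      have h2 := hmemA (x := ap M y) (c := 4) (by norm_num) hcon
      rw [ai_ap hM] at h2
      show ∑ j, (y j - 1 / 2) ^ 2 ≤ 1 / 16
      linarith
    have h2 := hoff1 _ h1
    ext i j
    have h3 := hone g₁ y i j
    rw [h2] at h3
    simp only [sub_self, mul_zero, Finset.sum_const_zero] at h3
    linarith
  have hoff' : ∀ y ∉ Ω', gsr (a ^ 2)⁻¹ M g₂ y = gsr (a ^ 2)⁻¹ M g₁ y := by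
    intro y hy
    unfold gsr
    rw [hoff (ap M y) (by rw [hΩ'] at hy; exact hy)]
  have hst' : St2 Ω' (sg (gsr (a ^ 2)⁻¹ M g₁)) (sg (gsr (a ^ 2)⁻¹ M g₂)) := by
    rw [sg_gsr hκ hM p1, sg_gsr hκ hM p2, hΩ']
    refine st2_const (smM_tsr (LR.H442.smM_sg442 s1 p1)) (smM_tsr (LR.H442.smM_sg442 s2 p2)) ?_
      (st2_tsr hM hΩ.measurableSet (LR.H442.smM_sg442 s1 p1) (LR.H442.smM_sg442 s2 p2) hst)
    have : 0 < |M.det| := abs_pos.2 hM
    positivity
  obtain ⟨w, K, hD, hw⟩ := hU Ω' hO' hreg' hb' _ _ (smM_gsr s1) (smM_gsr s2)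
    (posDef_gsr hκ hM p1) (posDef_gsr hκ hM p2) hoff1' hoff' (hcl g₁ s1 c1) (hcl g₂ s2 c2) hst'
  -- back to the original coordinates
  have hMu : IsUnit M.det := hM.isUnit
  have ew : ∀ x, x + M *ᵥ w (ai M x) = ap M (ai M x + w (ai M x)) := by
    intro x
    unfold ap
    rw [show ai M x + w (ai M x) - hf = (ai M x - hf) + w (ai M x) by abel, Matrix.mulVec_add]
    have : M *ᵥ (ai M x - hf) = x := ap_ai hM x
    rw [this]
  have hwd : Differentiable ℝ w := hD.sw.differentiable (by simp)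
  have ejm : ∀ x, jm (fun x => M *ᵥ w (ai M x)) x = M * jm w (ai M x) * M⁻¹ := by
    intro x
    have h1 : ∀ j, pd j (fun x => M *ᵥ w (ai M x)) x =
        M *ᵥ (∑ k, M⁻¹ k j • pd k w (ai M x)) := by
      intro j
      have h2 : (fun x => M *ᵥ w (ai M x)) = fun x => ml M (w (ai M x)) := by
        funext x; rw [ml_apply]
      rw [h2]
      have h3 : Differentiable ℝ (fun y => w (ai M y)) :=
        hwd.comp ((contDiff_ai M).differentiable (by simp))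
      unfold pd
      have h4 := (ml M).hasFDerivAt.comp x (h3 x).hasFDerivAt
      rw [show (fun x => ml M (w (ai M x))) = (ml M) ∘ fun x => w (ai M x) from rfl, h4.fderiv,
        ContinuousLinearMap.comp_apply, ml_apply]
      congr 1
      exact pd_ai j hwd x
    ext i j
    have h5 : M * jm w (ai M x) * M⁻¹ =
        1 + M * (Matrix.of fun a b => pd b w (ai M x) a) * M⁻¹ := by
      have h6 : jm w (ai M x) = 1 + (Matrix.of fun a b => pd b w (ai M x) a) := rfl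
      rw [h6, Matrix.mul_add, Matrix.add_mul, Matrix.mul_one, Matrix.mul_nonsing_inv M hMu]
    rw [h5, Matrix.add_apply]
    unfold jm
    rw [h1 j]
    congr 1
    simp only [Matrix.mulVec, dotProduct, Matrix.mul_apply, Finset.sum_apply, Pi.smul_apply,
      smul_eq_mul, Finset.mul_sum, Finset.sum_mul, Matrix.of_apply]
    rw [Finset.sum_comm]
    refine Finset.sum_congr rfl fun a _ => Finset.sum_congr rfl fun b _ => ?_
    ring
  refine ⟨fun x => M *ᵥ w (ai M x), fun x => ap M (K (ai M x)), ⟨?_, ?_, ?_, ?_, ?_, ?_⟩, ?_⟩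
  · have h2 : (fun x => M *ᵥ w (ai M x)) = fun x => ml M (w (ai M x)) := by
      funext x; rw [ml_apply]
    rw [h2]
    exact (ml M).contDiff.comp (hD.sw.comp (contDiff_ai M))
  · exact (contDiff_ap M).comp (hD.sK.comp (contDiff_ai M))
  · intro x
    show ap M (K (ai M (x + M *ᵥ w (ai M x)))) = x
    rw [ew, ai_ap hM, hD.l, ap_ai hM]
  · intro y
    show ap M (K (ai M y)) + M *ᵥ w (ai M (ap M (K (ai M y)))) = y
    rw [ew, ai_ap hM, hD.r, ap_ai hM]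
  · intro x hx
    show M *ᵥ w (ai M x) = 0
    rw [hD.z, Matrix.mulVec_zero]
    rw [hΩ']
    show ¬ (ap M (ai M x) ∈ Ω)
    rwa [ap_ai hM]
  · intro x
    rw [ejm, Matrix.det_mul, Matrix.det_mul, Matrix.det_nonsing_inv, Ring.inverse_eq_inv']
    have h1 : M.det * (jm w (ai M x)).det * M.det⁻¹ = (jm w (ai M x)).det := by
      field_simp
    rw [h1]
    exact hD.dp _
  · intro x
    have h1 := hw (ai M x)
    unfold gsr at h1
    rw [ap_ai hM, ← ew] at h1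
    rw [ejm]
    have h2 : Mᵀ * g₂ x * M = (jm w (ai M x))ᵀ * (Mᵀ * g₁ (x + M *ᵥ w (ai M x)) * M) *
        jm w (ai M x) := by
      rw [Matrix.mul_smul, Matrix.smul_mul] at h1
      exact smul_right_injective _ hκ.ne' h1
    have h3 : (M⁻¹)ᵀ * (Mᵀ * g₂ x * M) * M⁻¹ = g₂ x := by
      calc (M⁻¹)ᵀ * (Mᵀ * g₂ x * M) * M⁻¹ = ((M⁻¹)ᵀ * Mᵀ) * g₂ x * (M * M⁻¹) := by
            simp only [Matrix.mul_assoc]
        _ = g₂ x := by
            rw [← Matrix.transpose_mul, Matrix.mul_nonsing_inv M hMu, Matrix.transpose_one,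
              Matrix.one_mul, Matrix.mul_one]
    rw [← h3, h2, Matrix.transpose_mul, Matrix.transpose_mul]
    simp only [Matrix.mul_assoc]

end Vale.Agent.P088.HY.H794
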