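import Vale.Agent.P088.H442.Defs3

/-!
# P088, two general metrics: the affine change of variables `x = M (y - 1/2)`
-/

open MeasureTheory Set
open scoped ContDiff Matrix

noncomputable section

namespace Vale.Agent.P088.HY.H794

open Vale.Agent.P088.LR Vale.Agent.P088.LR.CF

variable {n : ℕ}

/-- `(1/2, …, 1/2)`. -/
def hf : V n := fun _ => (1 / 2 : ℝ)

/-- `x = M (y - 1/2)`. -/
def ap (M : Matrix (Fin n) (Fin n) ℝ) (y : V n) : V n := M *ᵥ (y - hf)

/-- `y = 1/2 + M⁻¹ x`. -/
def ai (M : Matrix (Fin n) (Fin n) ℝ) (x : V n) : V n := M⁻¹ *ᵥ x + hf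

variable {M : Matrix (Fin n) (Fin n) ℝ}

lemma ap_ai (hM : M.det ≠ 0) (x : V n) : ap M (ai M x) = x := by
  simp only [ap, ai, add_sub_cancel_right, Matrix.mulVec_mulVec,
    Matrix.mul_nonsing_inv M hM.isUnit, Matrix.one_mulVec]

lemma ai_ap (hM : M.det ≠ 0) (y : V n) : ai M (ap M y) = y := by
  simp only [ap, ai, Matrix.mulVec_mulVec, Matrix.nonsing_inv_mul M hM.isUnit,
    Matrix.one_mulVec, sub_add_cancel]

/-- The linear map. -/
def ml (M : Matrix (Fin n) (Fin n) ℝ) : V n →L[ℝ] V n := LinearMap.toContinuousLinearMap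
  (Matrix.toLin' M)

lemma ml_apply (x : V n) : ml M x = M *ᵥ x := by
  simp [ml]

lemma contDiff_ap (M : Matrix (Fin n) (Fin n) ℝ) : ContDiff ℝ ∞ (ap M : V n → V n) := by
  have h : (ap M : V n → V n) = fun y => ml M (y - hf) := by
    funext y; rw [ml_apply]; rfl
  rw [h]
  exact (ml M).contDiff.comp (contDiff_id.sub contDiff_const)

lemma contDiff_ai (M : Matrix (Fin n) (Fin n) ℝ) : ContDiff ℝ ∞ (ai M : V n → V n) := by
  have h : (ai M : V n → V n) = fun y => ml M⁻¹ y + hf := by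
    funext y; rw [ml_apply]; rfl
  rw [h]
  exact (ml M⁻¹).contDiff.add contDiff_const

lemma fd_ap (M : Matrix (Fin n) (Fin n) ℝ) (y : V n) : HasFDerivAt (ap M : V n → V n) (ml M) y := by
  have h : (ap M : V n → V n) = fun y => ml M (y - hf) := by
    funext y; rw [ml_apply]; rfl
  rw [h]
  have h1 := (ml M).hasFDerivAt.comp y ((hasFDerivAt_id y).sub_const hf)
  simpa using h1

lemma fd_ai (M : Matrix (Fin n) (Fin n) ℝ) (x : V n) :
    HasFDerivAt (ai M : V n → V n) (ml M⁻¹) x := by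
  have h : (ai M : V n → V n) = fun y => ml M⁻¹ y + hf := by
    funext y; rw [ml_apply]; rfl
  rw [h]
  exact (ml M⁻¹).hasFDerivAt.add_const hf

/-- The homeomorphism. -/
def hmA (M : Matrix (Fin n) (Fin n) ℝ) (hM : M.det ≠ 0) : V n ≃ₜ V n where
  toFun := ap M
  invFun := ai M
  left_inv := ai_ap hM
  right_inv := ap_ai hM
  continuous_toFun := (contDiff_ap M).continuous
  continuous_invFun := (contDiff_ai M).continuous

lemma reg_ap (hM : M.det ≠ 0) {Ω : Set (V n)} (h : interior (closure Ω) = Ω) :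
    interior (closure (ap M ⁻¹' Ω)) = ap M ⁻¹' Ω := by
  have e1 := (hmA M hM).preimage_closure Ω
  have e2 := (hmA M hM).preimage_interior (closure Ω)
  have e3 : (hmA M hM) ⁻¹' Ω = ap M ⁻¹' Ω := rfl
  rw [e1, e3, h, e3] at e2
  exact e2.symm

section

variable {F : Type*} [NormedAddCommGroup F] [NormedSpace ℝ F]

lemma single_sum (v : V n) : v = ∑ k, v k • (Pi.single k (1 : ℝ) : V n) := by
  funext j
  rw [Finset.sum_apply]
  simp [Pi.single_apply]

lemma fd_vec {f : V n → F} (x v : V n) : fderiv ℝ f x v = ∑ k, v k • pd k f x := by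
  conv_lhs => rw [single_sum v]
  rw [map_sum]
  refine Finset.sum_congr rfl fun k _ => ?_
  rw [map_smul]
  rfl

lemma mulVec_single (i : Fin n) : M *ᵥ (Pi.single i (1 : ℝ) : V n) = fun k => M k i := by
  funext k
  simp [Matrix.mulVec, dotProduct, Pi.single_apply]

lemma pd_ap (i : Fin n) {f : V n → F} (hf : Differentiable ℝ f) (y : V n) :
    pd i (fun y => f (ap M y)) y = ∑ k, M k i • pd k f (ap M y) := by
  have h := (hf (ap M y)).hasFDerivAt.comp y (fd_ap M y)
  unfold pd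
  rw [show (fun y => f (ap M y)) = f ∘ ap M from rfl, h.fderiv,
    ContinuousLinearMap.comp_apply, ml_apply, mulVec_single, fd_vec]
  rfl

lemma pd_ai (i : Fin n) {f : V n → F} (hf : Differentiable ℝ f) (x : V n) :
    pd i (fun x => f (ai M x)) x = ∑ k, M⁻¹ k i • pd k f (ai M x) := by
  have h := (hf (ai M x)).hasFDerivAt.comp x (fd_ai M x)
  unfold pd
  rw [show (fun x => f (ai M x)) = f ∘ ai M from rfl, h.fderiv,
    ContinuousLinearMap.comp_apply, ml_apply, mulVec_single, fd_vec]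
  rfl

lemma ifd_ap {f : V n → F} (hf : ContDiff ℝ ∞ f) (l : ℕ) (y : V n) :
    ‖iteratedFDeriv ℝ l (fun y => f (ap M y)) y‖ ≤ ‖ml M‖ ^ l * ‖iteratedFDeriv ℝ l f (ap M y)‖ := by
  have h1 : iteratedFDeriv ℝ l (fun y => f (ap M y)) y =
      iteratedFDeriv ℝ l (fun z => f (ml M z)) (y - H794.hf) := by
    have := iteratedFDeriv_comp_sub' (𝕜 := ℝ) (f := fun z => f (ml M z)) l (H794.hf : V n)
    have h2 := congrFun this y
    simp only [ml_apply] at h2 ⊢
    exact h2
  have h2 : iteratedFDeriv ℝ l (fun z => f (ml M z)) (y - H794.hf) =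
      (iteratedFDeriv ℝ l f (ap M y)).compContinuousLinearMap fun _ => ml M := by
    have := ContinuousLinearMap.iteratedFDeriv_comp_right (ml M)
      (f := f) (n := ∞) hf (y - H794.hf) (i := l) (by exact_mod_cast le_top)
    rw [ml_apply] at this
    exact this
  rw [h1, h2]
  refine (ContinuousMultilinearMap.norm_compContinuousLinearMap_le _ _).trans ?_
  rw [Finset.prod_const, Finset.card_univ, Fintype.card_fin, mul_comm]

end

lemma ml_norm {C : ℝ} (hC : 0 ≤ C) (h : ∀ i j, |M i j| ≤ C) : ‖ml M‖ ≤ n * C := by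
  refine ContinuousLinearMap.opNorm_le_bound _ (by positivity) fun x => ?_
  rw [ml_apply]
  refine (pi_norm_le_iff_of_nonneg (by positivity)).2 fun i => ?_
  calc ‖(M *ᵥ x) i‖ = ‖∑ j, M i j * x j‖ := rfl
    _ ≤ ∑ j, ‖M i j * x j‖ := norm_sum_le _ _
    _ ≤ ∑ _j : Fin n, C * ‖x‖ := by
        refine Finset.sum_le_sum fun j _ => ?_
        rw [norm_mul]
        exact mul_le_mul (h i j) (norm_le_pi_norm x j) (norm_nonneg _) hC
    _ = n * C * ‖x‖ := by simp; ring

/-- The transformed tensor. -/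
def tsr (M : Matrix (Fin n) (Fin n) ℝ) (s : MF n) : MF n := fun y =>
  M⁻¹ * s (ap M y) * (M⁻¹)ᵀ

lemma tsr_apply (s : MF n) (y : V n) (i j : Fin n) :
    tsr M s y i j = ∑ b, (∑ a, M⁻¹ i a * s (ap M y) a b) * M⁻¹ j b := by
  simp only [tsr, Matrix.mul_apply, Matrix.transpose_apply]

lemma smM_tsr {s : MF n} (hs : SmM s) : SmM (tsr M s) := by
  intro i j
  simp only [tsr_apply]
  exact ContDiff.sum fun b _ => (ContDiff.sum fun a _ =>
    contDiff_const.mul ((hs a b).comp (contDiff_ap M))).mul contDiff_const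

lemma contDiff_pd' {f : V n → ℂ} (hf : ContDiff ℝ ∞ f) (i : Fin n) : ContDiff ℝ ∞ (pd i f) :=
  (hf.fderiv_right (m := ∞) (by simp)).clm_apply contDiff_const

/-- The flux. -/
def fl (s : MF n) (U : V n → ℂ) (i : Fin n) (y : V n) : ℂ := ∑ j, (s y i j : ℂ) * pd j U y

lemma contDiff_fl {s : MF n} (hs : SmM s) {U : V n → ℂ} (hU : ContDiff ℝ ∞ U) (i : Fin n) :
    ContDiff ℝ ∞ (fl s U i) :=
  ContDiff.sum fun j _ => (Complex.ofRealCLM.contDiff.comp (hs i j)).mul (contDiff_pd' hU j)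

lemma inv_sum (hM : M.det ≠ 0) (k l : Fin n) :
    ∑ j, (M⁻¹ j l : ℂ) * (M k j : ℂ) = if k = l then 1 else 0 := by
  have h := congrFun (congrFun (Matrix.mul_nonsing_inv M hM.isUnit) k) l
  rw [Matrix.mul_apply, Matrix.one_apply] at h
  have h2 : (∑ j, (M⁻¹ j l : ℂ) * (M k j : ℂ)) = ((∑ j, M k j * M⁻¹ j l : ℝ) : ℂ) := by
    push_cast
    exact Finset.sum_congr rfl fun j _ => mul_comm _ _
  rw [h2, h]
  split_ifs <;> simp

lemma inv_sum' (hM : M.det ≠ 0) (k l : Fin n) :
    ∑ j, (M j l : ℂ) * (M⁻¹ k j : ℂ) = if k = l then 1 else 0 := by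
  have h := congrFun (congrFun (Matrix.nonsing_inv_mul M hM.isUnit) k) l
  rw [Matrix.mul_apply, Matrix.one_apply] at h
  have h2 : (∑ j, (M j l : ℂ) * (M⁻¹ k j : ℂ)) = ((∑ j, M⁻¹ k j * M j l : ℝ) : ℂ) := by
    push_cast
    exact Finset.sum_congr rfl fun j _ => mul_comm _ _
  rw [h2, h]
  split_ifs <;> simp

/-- The flux of the transformed tensor. -/
lemma fl_tsr (hM : M.det ≠ 0) (s : MF n) {U : V n → ℂ} (hU : Differentiable ℝ U) (i : Fin n)
    (y : V n) : fl (tsr M s) (fun y => U (ap M y)) i y = ∑ a, (M⁻¹ i a : ℂ) * fl s U a (ap M y) := by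
  unfold fl
  have h1 : ∀ j, pd j (fun y => U (ap M y)) y = ∑ k, (M k j : ℂ) * pd k U (ap M y) := by
    intro j
    rw [pd_ap j hU y]
    exact Finset.sum_congr rfl fun k _ => Complex.real_smul
  have h2 : ∀ j, (tsr M s y i j : ℂ) =
      ∑ b, ∑ a, (M⁻¹ i a : ℂ) * (s (ap M y) a b : ℂ) * (M⁻¹ j b : ℂ) := by
    intro j
    rw [tsr_apply]
    push_cast
    refine Finset.sum_congr rfl fun b _ => ?_
    rw [Finset.sum_mul]
  simp_rw [h1, h2]
  calc ∑ j, (∑ b, ∑ a, (M⁻¹ i a : ℂ) * (s (ap M y) a b : ℂ) * (M⁻¹ j b : ℂ)) *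
        ∑ k, (M k j : ℂ) * pd k U (ap M y)
      = ∑ b, ∑ a, ∑ k, ((M⁻¹ i a : ℂ) * (s (ap M y) a b : ℂ)) * pd k U (ap M y) *
          ∑ j, (M⁻¹ j b : ℂ) * (M k j : ℂ) := by
        simp_rw [Finset.sum_mul, Finset.mul_sum]
        rw [Finset.sum_comm]
        refine Finset.sum_congr rfl fun b _ => ?_
        rw [Finset.sum_comm]
        refine Finset.sum_congr rfl fun a _ => ?_
        rw [Finset.sum_comm]
        refine Finset.sum_congr rfl fun k _ => Finset.sum_congr rfl fun j _ => ?_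
        ring
    _ = ∑ b, ∑ a, ((M⁻¹ i a : ℂ) * (s (ap M y) a b : ℂ)) * pd b U (ap M y) := by
        refine Finset.sum_congr rfl fun b _ => Finset.sum_congr rfl fun a _ => ?_
        simp_rw [inv_sum hM]
        simp
    _ = ∑ a, (M⁻¹ i a : ℂ) * ∑ b, (s (ap M y) a b : ℂ) * pd b U (ap M y) := by
        rw [Finset.sum_comm]
        refine Finset.sum_congr rfl fun a _ => ?_
        rw [Finset.mul_sum]
        refine Finset.sum_congr rfl fun b _ => ?_
        ring

lemma dv_eq_fl (s : MF n) (U : V n → ℂ) (x : V n) : dv s U x = ∑ i, pd i (fl s U i) x := rfl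

lemma pd_sum_const (c : Fin n → ℂ) {f : Fin n → V n → ℂ} (hf : ∀ a, Differentiable ℝ (f a))
    (i : Fin n) (y : V n) : pd i (fun y => ∑ a, c a * f a y) y = ∑ a, c a * pd i (f a) y := by
  unfold pd
  have h : HasFDerivAt (fun y => ∑ a, c a * f a y) (∑ a, c a • fderiv ℝ (f a) y) y := by
    refine HasFDerivAt.fun_sum fun a _ => ?_
    exact ((hf a) y).hasFDerivAt.const_mul (c a)
  rw [h.fderiv]
  simp

/-- The divergence of the transformed tensor. -/
lemma dv_tsr (hM : M.det ≠ 0) {s : MF n} (hs : SmM s) {U : V n → ℂ} (hU : ContDiff ℝ ∞ U)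
    (y : V n) : dv (tsr M s) (fun y => U (ap M y)) y = dv s U (ap M y) := by
  rw [dv_eq_fl, dv_eq_fl]
  have hUd : Differentiable ℝ U := hU.differentiable (by simp)
  have h1 : ∀ i, fl (tsr M s) (fun y => U (ap M y)) i =
      fun y => ∑ a, (M⁻¹ i a : ℂ) * fl s U a (ap M y) := fun i => by
    funext y
    exact fl_tsr hM s hUd i y
  have hfd : ∀ a, Differentiable ℝ (fl s U a) := fun a =>
    (contDiff_fl hs hU a).differentiable (by simp)
  have hfd' : ∀ a, Differentiable ℝ (fun y => fl s U a (ap M y)) := fun a =>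
    (hfd a).comp ((contDiff_ap M).differentiable (by simp))
  calc ∑ i, pd i (fl (tsr M s) (fun y => U (ap M y)) i) y
      = ∑ i, ∑ a, (M⁻¹ i a : ℂ) * ∑ k, (M k i : ℂ) * pd k (fl s U a) (ap M y) := by
        refine Finset.sum_congr rfl fun i _ => ?_
        rw [h1, pd_sum_const _ hfd' i y]
        refine Finset.sum_congr rfl fun a _ => ?_
        rw [pd_ap i (hfd a) y]
        rfl
    _ = ∑ a, ∑ k, pd k (fl s U a) (ap M y) * ∑ i, (M⁻¹ i a : ℂ) * (M k i : ℂ) := by
        simp_rw [Finset.mul_sum]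
        rw [Finset.sum_comm]
        refine Finset.sum_congr rfl fun a _ => ?_
        rw [Finset.sum_comm]
        refine Finset.sum_congr rfl fun k _ => Finset.sum_congr rfl fun i _ => ?_
        ring
    _ = ∑ i, pd i (fl s U i) (ap M y) := by
        simp_rw [inv_sum hM]
        simp

lemma bl_eq_fl (Ω : Set (V n)) (s : MF n) (U W : V n → ℂ) :
    bl Ω s U W = ∫ x in Ω, ∑ i, ∑ j, (s x i j : ℂ) * pd i U x * pd j W x := rfl

lemma int_ap (hM : M.det ≠ 0) (Ω : Set (V n)) (f : V n → ℂ) (hΩ : MeasurableSet Ω) :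
    ∫ y in ap M ⁻¹' Ω, f (ap M y) = |M.det⁻¹| • ∫ x in Ω, f x := by
  have hΩ' : MeasurableSet (ap M ⁻¹' Ω) := (contDiff_ap M).continuous.measurable hΩ
  rw [← integral_indicator hΩ, ← integral_indicator hΩ']
  have h1 : ∀ y, (ap M ⁻¹' Ω).indicator (fun y => f (ap M y)) y =
      (fun z => Ω.indicator f (Matrix.toLin' M z)) (y - hf) := by
    intro y
    have e : Matrix.toLin' M (y - hf) = ap M y := by
      rw [Matrix.toLin'_apply]; rfl
    simp only [e]
    by_cases hy : ap M y ∈ Ω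
    · rw [indicator_of_mem (show y ∈ ap M ⁻¹' Ω from hy)]
      exact (indicator_of_mem hy f).symm
    · rw [indicator_of_notMem (show y ∉ ap M ⁻¹' Ω from hy)]
      exact (indicator_of_notMem hy f).symm
  simp_rw [h1]
  rw [integral_sub_right_eq_self (fun z => Ω.indicator f (Matrix.toLin' M z))]
  have hme : MeasurableEmbedding (Matrix.toLin' M : V n → V n) := by
    have : (Matrix.toLin' M : V n → V n) = ml M := by
      funext x; rw [ml_apply, Matrix.toLin'_apply]
    rw [this]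
    refine (Topology.IsClosedEmbedding.measurableEmbedding ?_)
    have he : (ml M : V n → V n) = ((Matrix.toLin' M).toContinuousLinearMap : V n → V n) := rfl
    have hinj : Function.Injective (ml M : V n → V n) := by
      intro a b hab
      rw [ml_apply, ml_apply] at hab
      have h2 := congrArg (fun v => M⁻¹ *ᵥ v) hab
      simpa only [Matrix.mulVec_mulVec, Matrix.nonsing_inv_mul M hM.isUnit,
        Matrix.one_mulVec] using h2
    exact LinearMap.isClosedEmbedding_of_injective (f := (ml M : V n →ₗ[ℝ] V n))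
      (LinearMap.ker_eq_bot.2 hinj)
  have h3 := hme.integral_map (μ := (volume : Measure (V n))) (Ω.indicator f)
  rw [← h3, Real.map_matrix_volume_pi_eq_smul_volume_pi hM, integral_smul_measure,
    ENNReal.toReal_ofReal (abs_nonneg _)]

/-- The form of the transformed tensor. -/
lemma bl_tsr (hM : M.det ≠ 0) {Ω : Set (V n)} (hΩ : MeasurableSet Ω) (s : MF n) {U W : V n → ℂ}
    (hU : Differentiable ℝ U) (hW : Differentiable ℝ W) :
    bl (ap M ⁻¹' Ω) (tsr M s) (fun y => U (ap M y)) (fun y => W (ap M y)) =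
      |M.det⁻¹| • bl Ω s U W := by
  unfold bl
  rw [← int_ap hM Ω _ hΩ]
  refine integral_congr_ae (Filter.Eventually.of_forall fun y => ?_)
  show ∑ i, ∑ j, (tsr M s y i j : ℂ) * pd i (fun y => U (ap M y)) y * pd j (fun y => W (ap M y)) y =
    ∑ i, ∑ j, (s (ap M y) i j : ℂ) * pd i U (ap M y) * pd j W (ap M y)
  have e1 : ∀ i, ∑ j, (tsr M s y i j : ℂ) * pd i (fun y => U (ap M y)) y *
      pd j (fun y => W (ap M y)) y =
      pd i (fun y => U (ap M y)) y * fl (tsr M s) (fun y => W (ap M y)) i y := by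
    intro i
    unfold fl
    rw [Finset.mul_sum]
    exact Finset.sum_congr rfl fun j _ => by ring
  have e2 : ∀ i, ∑ j, (s (ap M y) i j : ℂ) * pd i U (ap M y) * pd j W (ap M y) =
      pd i U (ap M y) * fl s W i (ap M y) := by
    intro i
    unfold fl
    rw [Finset.mul_sum]
    exact Finset.sum_congr rfl fun j _ => by ring
  simp_rw [e1, e2]
  calc ∑ i, pd i (fun y => U (ap M y)) y * fl (tsr M s) (fun y => W (ap M y)) i y
      = ∑ i, (∑ k, (M k i : ℂ) * pd k U (ap M y)) * ∑ a, (M⁻¹ i a : ℂ) * fl s W a (ap M y) := by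
        refine Finset.sum_congr rfl fun i _ => ?_
        rw [fl_tsr hM s hW i y, pd_ap i hU y]
        rfl
    _ = ∑ k, ∑ a, (pd k U (ap M y) * fl s W a (ap M y)) * ∑ i, (M⁻¹ i a : ℂ) * (M k i : ℂ) := by
        simp_rw [Finset.sum_mul, Finset.mul_sum]
        rw [Finset.sum_comm]
        refine Finset.sum_congr rfl fun k _ => ?_
        rw [Finset.sum_comm]
        refine Finset.sum_congr rfl fun a _ => Finset.sum_congr rfl fun i _ => ?_
        ring
    _ = ∑ k, pd k U (ap M y) * fl s W k (ap M y) := by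
        simp_rw [inv_sum hM]
        simp

lemma tsr_sub (s₁ s₂ : MF n) :
    (fun y => tsr M s₂ y - tsr M s₁ y) = tsr M (fun x => s₂ x - s₁ x) := by
  funext y
  simp only [tsr, Matrix.mul_sub, Matrix.sub_mul]

/-- The orthogonality relation under the affine change of variables. -/
theorem st2_tsr (hM : M.det ≠ 0) {Ω : Set (V n)} (hΩ : MeasurableSet Ω) {s₁ s₂ : MF n}
    (h1 : SmM s₁) (h2 : SmM s₂) (h : St2 Ω s₁ s₂) :
    St2 (ap M ⁻¹' Ω) (tsr M s₁) (tsr M s₂) := by
  intro U W hU hW hdU hdW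
  have hU' : ContDiff ℝ ∞ (fun x => U (ai M x)) := hU.comp (contDiff_ai M)
  have hW' : ContDiff ℝ ∞ (fun x => W (ai M x)) := hW.comp (contDiff_ai M)
  have eU : (fun y => (fun x => U (ai M x)) (ap M y)) = U := by
    funext y
    simp only [ai_ap hM]
  have eW : (fun y => (fun x => W (ai M x)) (ap M y)) = W := by
    funext y
    simp only [ai_ap hM]
  have g1 : ∀ x ∈ Ω, dv s₁ (fun x => U (ai M x)) x = 0 := by
    intro x hx
    have h3 := dv_tsr hM h1 hU' (ai M x)
    rw [eU, ap_ai hM] at h3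
    rw [← h3]
    exact hdU _ (by show ap M (ai M x) ∈ Ω; rwa [ap_ai hM])
  have g2 : ∀ x ∈ Ω, dv s₂ (fun x => W (ai M x)) x = 0 := by
    intro x hx
    have h3 := dv_tsr hM h2 hW' (ai M x)
    rw [eW, ap_ai hM] at h3
    rw [← h3]
    exact hdW _ (by show ap M (ai M x) ∈ Ω; rwa [ap_ai hM])
  have g3 := h _ _ hU' hW' g1 g2
  have g4 := bl_tsr hM hΩ (fun x => s₂ x - s₁ x) (hU'.differentiable (by simp))
    (hW'.differentiable (by simp))
  rw [g3, smul_zero, eU, eW] at g4
  rw [tsr_sub]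
  exact g4

/-- Multiplication by a constant. -/
theorem st2_const {Ω : Set (V n)} {s₁ s₂ : MF n} (h1 : SmM s₁) (h2 : SmM s₂) {a : ℝ} (ha : a ≠ 0)
    (h : St2 Ω s₁ s₂) : St2 Ω (fun x => a • s₁ x) (fun x => a • s₂ x) := by
  have hfl : ∀ (s : MF n), SmM s → ∀ U : V n → ℂ, ContDiff ℝ ∞ U → ∀ x,
      dv (fun x => a • s x) U x = (a : ℂ) * dv s U x := by
    intro s hs U hU x
    rw [dv_eq_fl, dv_eq_fl, Finset.mul_sum]
    refine Finset.sum_congr rfl fun i _ => ?_
    have e : fl (fun x => a • s x) U i = fun y => (a : ℂ) * fl s U i y := by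
      funext y
      unfold fl
      rw [Finset.mul_sum]
      refine Finset.sum_congr rfl fun j _ => ?_
      show ((a * s y i j : ℝ) : ℂ) * pd j U y = _
      push_cast
      ring
    rw [e]
    unfold pd
    rw [fderiv_const_mul ((contDiff_fl hs hU i).differentiable (by simp) x)]
    rfl
  have ha' : (a : ℂ) ≠ 0 := by exact_mod_cast ha
  intro U W hU hW hdU hdW
  have g := h U W hU hW (fun x hx => by
      have h3 := hdU x hx
      rw [hfl s₁ h1 U hU x] at h3
      exact (mul_eq_zero.1 h3).resolve_left ha') (fun x hx => by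
      have h3 := hdW x hx
      rw [hfl s₂ h2 W hW x] at h3
      exact (mul_eq_zero.1 h3).resolve_left ha')
  have e : bl Ω (fun x => a • s₂ x - a • s₁ x) U W = (a : ℂ) * bl Ω (fun x => s₂ x - s₁ x) U W := by
    unfold bl
    rw [← integral_const_mul]
    refine integral_congr_ae (Filter.Eventually.of_forall fun y => ?_)
    simp only [Finset.mul_sum]
    refine Finset.sum_congr rfl fun i _ => Finset.sum_congr rfl fun j _ => ?_
    rw [← smul_sub, Matrix.smul_apply, smul_eq_mul]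
    push_cast
    ring
  rw [e, g, mul_zero]

end Vale.Agent.P088.HY.H794
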