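import Vale.Agent.P088.R2.H794.Core
import Vale.Agent.P088.H292.BdM

/-!
# P088: extension of a metric from a small ball, and closeness to a constant one in the small scale
-/

open MeasureTheory Set Filter Topology
open scoped ContDiff Matrix

noncomputable section

namespace Vale.Agent.P088.HY.H794

open Vale.Agent.P088.LR Vale.Agent.P088.LR.CF

variable {n : ℕ}

/-- The open Euclidean ball about `0`. -/
def oB (n : ℕ) (R : ℝ) : Set (V n) := {y | ∑ j, y j ^ 2 < R ^ 2}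

lemma cont_sq : Continuous fun y : V n => ∑ j, y j ^ 2 :=
  continuous_finsetSum _ fun j _ => (continuous_apply j).pow 2

lemma contDiff_sq : ContDiff ℝ ∞ fun y : V n => ∑ j, y j ^ 2 :=
  ContDiff.sum fun j _ => (contDiff_apply ℝ ℝ j).pow 2

lemma isOpen_oB (R : ℝ) : IsOpen (oB n R) := isOpen_lt cont_sq continuous_const

lemma zero_mem_oB {R : ℝ} (hR : 0 < R) : (0 : V n) ∈ oB n R := by
  show ∑ j : Fin n, (0 : ℝ) ^ 2 < R ^ 2
  simp only [ne_eq, OfNat.ofNat_ne_zero, not_false_eq_true, zero_pow, Finset.sum_const_zero]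
  positivity

lemma smul_sq (t : ℝ) (y : V n) : ∑ j, (t • y) j ^ 2 = t ^ 2 * ∑ j, y j ^ 2 := by
  rw [Finset.mul_sum]
  refine Finset.sum_congr rfl fun j _ => ?_
  rw [Pi.smul_apply, smul_eq_mul]; ring

lemma abs_le_of_oB {R : ℝ} (hR : 0 < R) {y : V n} (hy : ∑ j, y j ^ 2 ≤ R ^ 2) (j : Fin n) :
    |y j| ≤ R := by
  have h1 : y j ^ 2 ≤ R ^ 2 :=
    (Finset.single_le_sum (f := fun j => y j ^ 2) (fun i _ => sq_nonneg _)
      (Finset.mem_univ j)).trans hy
  exact abs_le_of_sq_le_sq h1 hR.le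

lemma norm_le_of_oB {R : ℝ} (hR : 0 < R) {y : V n} (hy : y ∈ oB n R) : ‖y‖ ≤ R := by
  rw [pi_norm_le_iff_of_nonneg hR.le]
  exact fun j => abs_le_of_oB hR (le_of_lt hy) j

lemma closure_oB {R : ℝ} (hR : 0 < R) : closure (oB n R) = {y | ∑ j, y j ^ 2 ≤ R ^ 2} := by
  refine Subset.antisymm (closure_minimal
    (fun y (hy : ∑ j, y j ^ 2 < R ^ 2) => show ∑ j, y j ^ 2 ≤ R ^ 2 from hy.le)
    (isClosed_le cont_sq continuous_const)) fun y hy => ?_
  have h1 : Tendsto (fun t : ℝ => t • y) (𝓝[<] 1) (𝓝 y) := by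
    have : Tendsto (fun t : ℝ => t • y) (𝓝 1) (𝓝 ((1 : ℝ) • y)) :=
      (continuous_id.smul continuous_const).tendsto 1
    rw [one_smul] at this
    exact this.mono_left nhdsWithin_le_nhds
  refine mem_closure_of_tendsto h1 ?_
  have h2 : ∀ᶠ t : ℝ in 𝓝[<] 1, t ∈ Ioo 0 1 := Ioo_mem_nhdsLT (by norm_num)
  filter_upwards [h2] with t ht
  show ∑ j, (t • y) j ^ 2 < R ^ 2
  rw [smul_sq]
  have h3 : ∑ j, y j ^ 2 ≤ R ^ 2 := hy
  have h4 : t ^ 2 < 1 := by
    have := ht.1; have := ht.2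
    nlinarith
  have h5 : 0 < R ^ 2 := by positivity
  have h6 : 0 ≤ ∑ j, y j ^ 2 := Finset.sum_nonneg fun j _ => sq_nonneg _
  nlinarith [mul_le_mul_of_nonneg_left h3 (sq_nonneg t)]

lemma reg_oB {R : ℝ} (hR : 0 < R) : interior (closure (oB n R)) = oB n R := by
  refine Subset.antisymm (fun y hy => ?_) (interior_maximal subset_closure (isOpen_oB R))
  rw [closure_oB hR] at hy
  by_contra hcon
  have h0 : ¬ ∑ j, y j ^ 2 < R ^ 2 := hcon
  have h1 : Tendsto (fun t : ℝ => t • y) (𝓝[>] 1) (𝓝 y) := by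
    have : Tendsto (fun t : ℝ => t • y) (𝓝 1) (𝓝 ((1 : ℝ) • y)) :=
      (continuous_id.smul continuous_const).tendsto 1
    rw [one_smul] at this
    exact this.mono_left nhdsWithin_le_nhds
  have h2 : ∀ᶠ t : ℝ in 𝓝[>] 1, t • y ∈ interior {y : V n | ∑ j, y j ^ 2 ≤ R ^ 2} :=
    h1 (isOpen_interior.mem_nhds hy)
  obtain ⟨t, ht, ht1⟩ := (h2.and self_mem_nhdsWithin).exists
  have h3' : t • y ∈ {y : V n | ∑ j, y j ^ 2 ≤ R ^ 2} := interior_subset ht
  have h3 : ∑ j, (t • y) j ^ 2 ≤ R ^ 2 := h3'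
  rw [smul_sq] at h3
  have h4 : (1 : ℝ) < t := ht1
  have h5 : 0 < R ^ 2 := by positivity
  have h6 : R ^ 2 ≤ ∑ j, y j ^ 2 := not_lt.1 h0
  have h7 : 1 < t ^ 2 := by nlinarith
  nlinarith [mul_le_mul_of_nonneg_left h6 (sq_nonneg t)]

/-- The cut-off. -/
def chR (y : V n) : ℝ := Real.smoothTransition (4 * (49 / 16 - ∑ j, y j ^ 2))

lemma chR_sm : ContDiff ℝ ∞ (chR : V n → ℝ) :=
  Real.smoothTransition.contDiff.comp (contDiff_const.mul (contDiff_const.sub contDiff_sq))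

lemma chR_nonneg (y : V n) : 0 ≤ chR y := Real.smoothTransition.nonneg _

lemma chR_le (y : V n) : chR y ≤ 1 := Real.smoothTransition.le_one _

lemma chR_one {y : V n} (h : ∑ j, y j ^ 2 ≤ 9 / 4) : chR y = 1 :=
  Real.smoothTransition.one_of_one_le (by linarith)

lemma chR_zero {y : V n} (h : 49 / 16 ≤ ∑ j, y j ^ 2) : chR y = 0 :=
  Real.smoothTransition.zero_of_nonpos (by linarith)

lemma chR_bd (n k : ℕ) : ∃ X : ℝ, 1 ≤ X ∧ Cl k X (chR : V n → ℝ) := by
  have hc : IsCompact {y : V n | ∑ j, y j ^ 2 ≤ 4} := by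
    refine Metric.isCompact_of_isClosed_isBounded (isClosed_le cont_sq continuous_const) ?_
    refine (Metric.isBounded_closedBall (x := (0 : V n)) (r := 2)).subset fun y hy => ?_
    rw [mem_closedBall_zero_iff, pi_norm_le_iff_of_nonneg (by norm_num)]
    exact fun j => abs_le_of_oB (by norm_num) (by have : ∑ j, y j ^ 2 ≤ 4 := hy; linarith) j
  have hs : HasCompactSupport (chR : V n → ℝ) := by
    refine HasCompactSupport.intro hc fun y hy => chR_zero ?_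
    have : ¬ ∑ j, y j ^ 2 ≤ 4 := hy
    linarith
  have h : ∀ l : ℕ, ∃ C, ∀ x : V n, ‖iteratedFDeriv ℝ l chR x‖ ≤ C := fun l =>
    (chR_sm.continuous_iteratedFDeriv (by exact_mod_cast le_top)).bounded_above_of_compact_support
      (hs.iteratedFDeriv l)
  choose C hC using h
  refine ⟨1 + ∑ l ∈ Finset.range (k + 1), |C l|, ?_, fun l hl x => ?_⟩
  · have : 0 ≤ ∑ l ∈ Finset.range (k + 1), |C l| := Finset.sum_nonneg fun _ _ => abs_nonneg _
    linarith
  · calc ‖iteratedFDeriv ℝ l chR x‖ ≤ C l := hC l x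
      _ ≤ |C l| := le_abs_self _
      _ ≤ ∑ l ∈ Finset.range (k + 1), |C l| :=
        Finset.single_le_sum (f := fun l => |C l|) (fun i _ => abs_nonneg _)
          (Finset.mem_range.mpr (by omega))
      _ ≤ _ := by linarith

/-- The extension by a constant. -/
def exR (r : ℝ) (f : MF n) : MF n := fun y => f 0 + chR (r⁻¹ • y) • (f y - f 0)

section

variable {r : ℝ} (hr : 0 < r) {f : MF n}

include hr

lemma in_r {y : V n} {a : ℝ} : ∑ j, (r⁻¹ • y) j ^ 2 ≤ a ↔ ∑ j, y j ^ 2 ≤ a * r ^ 2 := by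
  rw [smul_sq, inv_pow, inv_mul_le_iff₀ (by positivity), mul_comm]

lemma in_r' {y : V n} {a : ℝ} : a ≤ ∑ j, (r⁻¹ • y) j ^ 2 ↔ a * r ^ 2 ≤ ∑ j, y j ^ 2 := by
  rw [smul_sq, inv_pow, le_inv_mul_iff₀ (by positivity), mul_comm]

lemma exR_in {y : V n} (hy : ∑ j, y j ^ 2 ≤ (3 / 2 * r) ^ 2) : exR r f y = f y := by
  unfold exR
  rw [chR_one ((in_r hr).2 (by rw [mul_pow] at hy; linarith)), one_smul]
  abel

lemma exR_out {y : V n} (hy : 49 / 16 * r ^ 2 ≤ ∑ j, y j ^ 2) : exR r f y = f 0 := by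
  unfold exR
  rw [chR_zero ((in_r' hr).2 hy), zero_smul, add_zero]

lemma exR_nh {y : V n} (hy : y ∉ oB n (2 * r)) : exR r f =ᶠ[𝓝 y] fun _ => f 0 := by
  have h0 : ¬ ∑ j, y j ^ 2 < (2 * r) ^ 2 := hy
  have hr2 : 0 < r ^ 2 := by positivity
  have h1 : IsOpen {z : V n | 49 / 16 * r ^ 2 < ∑ j, z j ^ 2} := isOpen_lt continuous_const cont_sq
  have h2 : y ∈ {z : V n | 49 / 16 * r ^ 2 < ∑ j, z j ^ 2} := by
    show 49 / 16 * r ^ 2 < ∑ j, y j ^ 2
    nlinarith
  filter_upwards [h1.mem_nhds h2] with z hz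
  exact exR_out hr (le_of_lt hz)

lemma exR_sm (hf : ∀ i j, ContDiffOn ℝ ∞ (fun y => f y i j) (oB n (2 * r))) : SmM (exR r f) := by
  intro i j
  rw [contDiff_iff_contDiffAt]
  intro y
  by_cases hy : y ∈ oB n (2 * r)
  · have h1 : ContDiffOn ℝ ∞ (fun y => exR r f y i j) (oB n (2 * r)) := by
      have e : (fun y => exR r f y i j) = fun y => f 0 i j + chR (r⁻¹ • y) * (f y i j - f 0 i j) := by
        funext y; rfl
      rw [e]
      refine contDiffOn_const.add (ContDiffOn.mul ?_ ((hf i j).sub contDiffOn_const))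
      exact (chR_sm.comp (contDiff_const_smul _)).contDiffOn
    exact h1.contDiffAt ((isOpen_oB _).mem_nhds hy)
  · have h1 : (fun y => exR r f y i j) =ᶠ[𝓝 y] fun _ => f 0 i j := by
      filter_upwards [exR_nh hr (f := f) hy] with z hz
      rw [hz]
    exact contDiffAt_const.congr_of_eventuallyEq h1

lemma exR_pos (hf : ∀ y ∈ oB n (2 * r), (f y).PosDef) (y : V n) : (exR r f y).PosDef := by
  have h0 : (f 0).PosDef := hf 0 (zero_mem_oB (by linarith))
  by_cases hy : y ∈ oB n (2 * r)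
  · have e : exR r f y = (1 - chR (r⁻¹ • y)) • f 0 + chR (r⁻¹ • y) • f y := by
      unfold exR
      rw [smul_sub, sub_smul, one_smul]; abel
    rw [e]
    have h1 := chR_nonneg (r⁻¹ • y)
    have h2 := chR_le (r⁻¹ • y)
    rcases eq_or_lt_of_le h1 with h3 | h3
    · rw [← h3, zero_smul, add_zero, sub_zero, one_smul]; exact h0
    · rw [add_comm]
      exact ((hf y hy).smul h3).add_posSemidef (h0.posSemidef.smul (by linarith))
  · rw [(exR_nh hr (f := f) hy).self_of_nhds]; exact h0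

end

lemma scal_ifd {r : ℝ} (hr : 0 < r) {f : V n → ℝ} (hf : ContDiff ℝ ∞ f) (l : ℕ) (y : V n) :
    r ^ l * ‖iteratedFDeriv ℝ l (fun y => f (r⁻¹ • y)) y‖ = ‖iteratedFDeriv ℝ l f (r⁻¹ • y)‖ := by
  have h := congrFun (iteratedFDeriv_comp_const_smul (𝕜 := ℝ) (i := l) (f := f) r⁻¹
    (hf.of_le (by exact_mod_cast le_top))) y
  rw [h, norm_smul, norm_pow, norm_inv, Real.norm_of_nonneg hr.le, inv_pow, ← mul_assoc,
    mul_inv_cancel₀ (by positivity), one_mul]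

/-- Products in the scale `r`. -/
lemma mul_scale {r : ℝ} (hr : 0 < r) {O : Set (V n)} (hO : IsOpen O) {f g : V n → ℝ}
    (hf : ContDiff ℝ ∞ f) (hg : ContDiffOn ℝ ∞ g O) {k : ℕ} {X A : ℝ} (hX : Cl k X f) (hX0 : 0 ≤ X)
    (hA : ∀ l ≤ k, ∀ y ∈ O, r ^ l * ‖iteratedFDeriv ℝ l g y‖ ≤ A) {l : ℕ} (hl : l ≤ k) {y : V n}
    (hy : y ∈ O) : r ^ l * ‖iteratedFDeriv ℝ l (fun y => f (r⁻¹ • y) * g y) y‖ ≤ 2 ^ l * (X * A) := by
  have hfr : ContDiff ℝ ∞ fun y : V n => f (r⁻¹ • y) := hf.comp (contDiff_const_smul _)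
  have h1 := norm_iteratedFDerivWithin_mul_le (𝕜 := ℝ) (N := ∞) hfr.contDiffOn hg hO.uniqueDiffOn hy
    (n := l) (by exact_mod_cast le_top)
  rw [iteratedFDerivWithin_of_isOpen l hO hy] at h1
  have h2 : ∀ i ≤ l, r ^ l * ((l.choose i : ℝ) *
      ‖iteratedFDerivWithin ℝ i (fun y => f (r⁻¹ • y)) O y‖ *
      ‖iteratedFDerivWithin ℝ (l - i) g O y‖) ≤ (l.choose i : ℝ) * (X * A) := by
    intro i hi
    rw [iteratedFDerivWithin_of_isOpen i hO hy, iteratedFDerivWithin_of_isOpen (l - i) hO hy]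
    have e : r ^ l = r ^ i * r ^ (l - i) := by rw [← pow_add, Nat.add_sub_cancel' hi]
    have h3 := scal_ifd hr hf i y
    have h4 := hX i (hi.trans hl) (r⁻¹ • y)
    have h5 := hA (l - i) ((Nat.sub_le _ _).trans hl) y hy
    calc r ^ l * ((l.choose i : ℝ) * ‖iteratedFDeriv ℝ i (fun y => f (r⁻¹ • y)) y‖ *
          ‖iteratedFDeriv ℝ (l - i) g y‖)
        = (l.choose i : ℝ) * ((r ^ i * ‖iteratedFDeriv ℝ i (fun y => f (r⁻¹ • y)) y‖) *
          (r ^ (l - i) * ‖iteratedFDeriv ℝ (l - i) g y‖)) := by rw [e]; ring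
      _ ≤ (l.choose i : ℝ) * (X * A) := by
          refine mul_le_mul_of_nonneg_left ?_ (by positivity)
          rw [h3]
          exact mul_le_mul h4 h5 (by positivity) hX0
  calc r ^ l * ‖iteratedFDeriv ℝ l (fun y => f (r⁻¹ • y) * g y) y‖
      ≤ r ^ l * ∑ i ∈ Finset.range (l + 1), (l.choose i : ℝ) *
          ‖iteratedFDerivWithin ℝ i (fun y => f (r⁻¹ • y)) O y‖ *
          ‖iteratedFDerivWithin ℝ (l - i) g O y‖ := mul_le_mul_of_nonneg_left h1 (by positivity)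
    _ = ∑ i ∈ Finset.range (l + 1), r ^ l * ((l.choose i : ℝ) *
          ‖iteratedFDerivWithin ℝ i (fun y => f (r⁻¹ • y)) O y‖ *
          ‖iteratedFDerivWithin ℝ (l - i) g O y‖) := Finset.mul_sum _ _ _
    _ ≤ ∑ i ∈ Finset.range (l + 1), (l.choose i : ℝ) * (X * A) :=
        Finset.sum_le_sum fun i hi => h2 i (by simpa [Nat.lt_succ_iff] using hi)
    _ = 2 ^ l * (X * A) := by
        rw [← Finset.sum_mul]
        congr 1
        have := Nat.sum_range_choose l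
        exact_mod_cast this

end Vale.Agent.P088.HY.H794
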