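import Vale.Agent.P088.H207.N6

/-!
# P088: several cells, Runge approximation
-/

set_option linter.all false

open Bundle Manifold MeasureTheory Set Filter Topology
open scoped ContDiff

noncomputable section

namespace Vale.Agent.P088.HY.H794.F

open Vale.Agent.P088 Vale.Agent.P088.EYM Vale.Agent.P088.H207.R

universe u

section

variable {n N : ℕ} [NeZero n] {M : Type u} [TopologicalSpace M]
  [ChartedSpace (EuclideanHalfSpace n) M] [IsManifold (𝓡∂ n) ∞ M] [T2Space M] [CompactSpace M]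
  [ConnectedSpace M] [MeasurableSpace M] [BorelSpace M]

theorem runge_orthS {P : One n N M} {Γ : Set M} (hΓ : RelBd n Γ) (hne : Γ.Nonempty)
    (hsol : P.HasSol Γ) {p : M} {V K : Set (E n)} (hV : IsOpen V) (hVt : V ⊆ tg n p)
    (hpos : V ⊆ {y | 0 < y 0}) (hK : IsCompact K) (hKV : K ⊆ V) {S : Set M} (hcS : IsCompact S)
    (hSi : S ⊆ Mi n M) (hKS : (xc n p).symm '' K ⊆ S)
    (hSV : ∀ y ∈ V, (xc n p).symm y ∈ S → y ∈ K)
    (hconn : IsPreconnected (Mi n M \ S)) {h : M → Fib N}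
    (hh : MemLp h 2 (P.μ.restrict S))
    (horth : ∀ u ∈ P.U Γ, ∫ x in S, inner ℂ (h x) (u x) ∂P.μ = 0)
    {v : E n → Fib N} (hv : ContDiffOn ℝ ∞ v V) (hvL : ∀ y ∈ V, Lop (P.loc p) v y = 0) :
    ∫ x in (xc n p).symm '' K, inner ℂ (h x) (v (xc n p x)) ∂P.μ = 0 := by
  obtain ⟨hrel, hok, hbdy, hsm⟩ := TM.fLoc n N M
  obtain ⟨hfinm, -, hint⟩ := TM.fInt n N M P
  have hVH : V ⊆ Hs n := fun y hy => le_of_lt (show 0 < y 0 from hpos hy)
  have hVr : RelOpen V := ⟨V, hV, (inter_eq_left.2 hVH).symm⟩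
  have hokV : (P.loc p).Ok V := CHarm_ok_mono (hok P p) hVt
  have hSm : MeasurableSet S := hcS.isClosed.measurableSet
  have hcK : IsCompact ((xc n p).symm '' K) :=
    hK.image_of_continuousOn ((continuousOn_extChartAt_symm p).mono (hKV.trans hVt))
  have hKm : MeasurableSet ((xc n p).symm '' K) := hcK.isClosed.measurableSet
  obtain ⟨w, hw, hwb, hwE, hwL, hwT⟩ := TM.fRungeA n N M P Γ S h hΓ hne hsol hcS hh horth
  have hwT0 : ∀ φ : M → Fib N, IsBdryData (𝓡∂ n) Γ φ → (∀ m ∈ S, φ m = 0) →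
      Tendsto (fun k => P.E (w k) φ) atTop (𝓝 0) := by
    intro φ hφ h0
    have h1 := hwT φ hφ
    rwa [setIntegral_eq_zero_of_forall_eq_zero
      fun m hm => by rw [h0 m hm, inner_zero_right]] at h1
  have hZ := zero_off hw hwb hwE hwL hcS.isClosed hSi hΓ hne hwT0 hconn
  obtain ⟨χ, K₂, K₃, hχ, hK₂, hK₃, hKK₂, hK₂₃, hK₃V, hχ1, hχ0⟩ := cutK hK hV hKV
  set φ : E n → Fib N := fun y => χ y • v y with hφdef
  have hφV : ContDiffOn ℝ ∞ φ V := hχ.contDiffOn.smul hv
  have hφ0 : ∀ y, y ∉ K₃ → φ y = 0 := fun y hy => by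
    simp only [hφdef, hχ0 y hy, zero_smul]
  have hφv : ∀ y ∈ K₂, φ y = v y := fun y hy => by
    simp only [hφdef, hχ1 y hy, one_smul]
  -- the test section
  obtain ⟨u, hu, hu1, hu2, hu3⟩ := TM.fExt n N M p φ V K₃ hVr hVt hφV hK₃ hK₃V
    fun y _ hy => hφ0 y hy
  have hub : IsBdryData (𝓡∂ n) Γ u := by
    refine ⟨hu, ?_⟩
    have h1 : ∀ m ∈ (𝓡∂ n).boundary M, u m = 0 := by
      intro m hm
      refine hu2 m ?_
      rintro ⟨y, hy, rfl⟩
      have h2 := cRungeB_mi_of_pos TM.fLoc p (hVt (hK₃V hy)) (hpos (hK₃V hy))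
      rw [← ModelWithCorners.compl_interior] at hm
      exact hm h2
    have h2 : {m ∈ (𝓡∂ n).boundary M | u m ≠ 0} = ∅ := by
      ext m
      simp only [mem_setOf_eq, mem_empty_iff_false, iff_false]
      exact fun hm => hm.2 (h1 m hm.1)
    rw [h2, closure_empty]
    exact empty_subset _
  have h1 := hwT u hub
  have h2 : ∫ x in S, inner ℂ (h x) (u x) ∂P.μ =
      ∫ x in (xc n p).symm '' K, inner ℂ (h x) (v (xc n p x)) ∂P.μ := by
    have e0 : ∫ x in S, inner ℂ (h x) (u x) ∂P.μ =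
        ∫ x in (xc n p).symm '' K, inner ℂ (h x) (u x) ∂P.μ := by
      refine setIntegral_eq_of_subset_of_forall_diff_eq_zero hSm hKS fun m hm => ?_
      have : u m = 0 := by
        refine hu2 m ?_
        rintro ⟨y, hy, rfl⟩
        exact hm.2 (mem_image_of_mem _ (hSV y (hK₃V hy) hm.1))
      rw [this, inner_zero_right]
    rw [e0]
    refine setIntegral_congr_fun hKm fun m hm => ?_
    obtain ⟨y, hy, rfl⟩ := hm
    have e1 : u ((xc n p).symm y) = v y := by
      rw [hu1 y (hKV hy), hφv y (interior_subset (hKK₂ hy))]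
    rw [e1, (xc n p).right_inv (hVt (hKV hy))]
  rw [h2] at h1
  -- the limit is zero
  have hlw : ∀ k, ContDiffOn ℝ ∞ (lu (𝓡∂ n) p (w k)) V := fun k => (hsm _ (hw k) p).mono hVt
  have hus : tsupport u ⊆ (xc n p).symm '' V := hu3.trans (image_mono hK₃V)
  have hE : ∀ k, P.E (w k) u =
      (starRingEnd ℂ) (-∫ y in V, inner ℂ (Lop (P.loc p) φ y) (lu (𝓡∂ n) p (w k) y)) := by
    intro k
    rw [(TM.fEn n N M P p V hVr hVt).1 (w k) u (hw k) hu (Or.inr hus)]
    have e1 : En (P.loc p) V (lu (𝓡∂ n) p (w k)) (lu (𝓡∂ n) p u) =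
        (starRingEnd ℂ) (∫ y in V, ed (P.loc p) φ (lu (𝓡∂ n) p (w k)) y) := by
      unfold En
      rw [← integral_conj]
      refine setIntegral_congr_fun hV.measurableSet fun y hy => ?_
      rw [← CRungeC_ed_symm (hokV.g_pos y hy) rfl]
      exact CRungeC_ed_congr hVr (fun _ _ => rfl) (fun y hy => hu1 y hy) hy
    rw [e1, greenK hV hVH hokV hφV (hlw k) hK₃ hK₃V hφ0]
    rfl
  have hgg := hVr.gg_smooth hokV.g_smooth hokV.g_pos
  have hnab := Jacobi_nab_smooth hVr hokV hφV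
  have hfl : ∀ k, ContDiffOn ℝ ∞ (flux (P.loc p) k φ) V := fun k =>
    dc_smooth_sum (f := fun l y => gg (P.loc p).g k l y • nab (P.loc p) l φ y) _
      fun l _ => (hgg k l).smul (hnab l)
  have hLop : ContDiffOn ℝ ∞ (Lop (P.loc p) φ) V :=
    dc_smooth_sum (f := fun j y => pd j (flux (P.loc p) j φ) y +
      (P.loc p).B j y (flux (P.loc p) j φ y)) _
      fun j _ => (hVr.pd_smooth (hfl j) j).add (smooth_eval (hokV.B_smooth j) (hfl j))
  set K₀ : Set (E n) := K₃ \ interior K₂ with hK₀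
  have hcK₀ : IsCompact K₀ := hK₃.diff isOpen_interior
  have hK₀V : K₀ ⊆ V := sdiff_subset.trans hK₃V
  have hL2 : ∀ y ∈ interior K₂, Lop (P.loc p) φ y = 0 := by
    intro y hy
    have hiV : interior K₂ ⊆ V := interior_subset.trans (hK₂₃.trans hK₃V)
    have e1 : RelOpen (interior K₂) :=
      ⟨interior K₂, isOpen_interior, (inter_eq_left.2 (hiV.trans hVH)).symm⟩
    rw [CRungeC_Lop_congr e1 (fun y' hy' => hφv y' (interior_subset hy')) hy]
    exact hvL y (hiV hy)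
  have hL3 : ∀ y ∈ V, y ∉ K₃ → Lop (P.loc p) φ y = 0 := by
    intro y hy hy3
    have hiV : V \ K₃ ⊆ V := sdiff_subset
    have e1 : RelOpen (V \ K₃) :=
      ⟨V \ K₃, hV.sdiff hK₃.isClosed, (inter_eq_left.2 (hiV.trans hVH)).symm⟩
    rw [CRungeC_Lop_congr e1 (d := fun _ => 0) (fun y' hy' => hφ0 y' hy'.2) ⟨hy, hy3⟩]
    have e3 : ∀ k : Fin n, nab (P.loc p) k (fun _ => (0 : Fib N)) = fun _ => 0 := by
      intro k
      funext y
      simp [nab, pd_const]
    have e4 : ∀ j : Fin n, flux (P.loc p) j (fun _ => (0 : Fib N)) = fun _ => 0 := by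
      intro j
      funext y
      simp [flux, e3]
    simp [Lop, e4, pd_const]
  obtain ⟨b, hb⟩ := hcK₀.exists_bound_of_continuousOn (hLop.continuousOn.mono hK₀V)
  have hint0 : ∀ k, ∫ y in V, (inner ℂ (Lop (P.loc p) φ y) (lu (𝓡∂ n) p (w k) y) : ℂ) =
      ∫ y in K₀, (inner ℂ (Lop (P.loc p) φ y) (lu (𝓡∂ n) p (w k) y) : ℂ) := by
    intro k
    refine setIntegral_eq_of_subset_of_forall_diff_eq_zero hV.measurableSet hK₀V fun y hy => ?_
    by_cases h3 : y ∈ K₃
    · have h4 : y ∈ interior K₂ := by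
        by_contra h5
        exact hy.2 ⟨h3, h5⟩
      rw [hL2 y h4, inner_zero_left]
    · rw [hL3 y hy.1 h3, inner_zero_left]
  have hfinK : volume K₀ < ⊤ := hcK₀.measure_lt_top
  have hZ' : Tendsto (fun k => ∫ y in K₀, ‖lu (𝓡∂ n) p (w k) y‖ ^ 2) atTop (𝓝 0) := by
    refine zero_K (P := P) (fun k => (hw k).continuous) hcK₀ (hK₀V.trans hVt) ?_
    rintro _ ⟨y, hy, rfl⟩
    refine hZ ⟨cRungeB_mi_of_pos TM.fLoc p (hVt (hK₀V hy)) (hpos (hK₀V hy)), fun hyS => ?_⟩
    exact hy.2 (hKK₂ (hSV y (hK₀V hy) hyS))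
  have hlim : Tendsto (fun k => ‖∫ y in V, (inner ℂ (Lop (P.loc p) φ y)
      (lu (𝓡∂ n) p (w k) y) : ℂ)‖) atTop (𝓝 0) := by
    refine lim_aux (b := |b|) (c := volume.real K₀) (abs_nonneg b)
      (fun k => integral_nonneg fun _ => by positivity) hZ' fun k t ht => ?_
    rw [abs_norm, hint0 k]
    have hc1 : ContinuousOn (fun y => ‖lu (𝓡∂ n) p (w k) y‖ ^ 2) K₀ :=
      (((hlw k).continuousOn.mono hK₀V).norm).pow 2
    have i1 : IntegrableOn (fun y => ‖lu (𝓡∂ n) p (w k) y‖ ^ 2) K₀ :=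
      hc1.integrableOn_compact hcK₀
    have i2 : IntegrableOn (fun _ : E n => t) K₀ := integrableOn_const hfinK.ne
    have e1 : ∀ y ∈ K₀, ‖(inner ℂ (Lop (P.loc p) φ y) (lu (𝓡∂ n) p (w k) y) : ℂ)‖ ≤
        |b| * (t + t⁻¹ * ‖lu (𝓡∂ n) p (w k) y‖ ^ 2) := by
      intro y hy
      refine (norm_inner_le_norm _ _).trans ?_
      have e2 : ‖lu (𝓡∂ n) p (w k) y‖ ≤ t + t⁻¹ * ‖lu (𝓡∂ n) p (w k) y‖ ^ 2 := by
        set r := ‖lu (𝓡∂ n) p (w k) y‖
        have e3 : t + t⁻¹ * r ^ 2 - r = t⁻¹ * ((r - t / 2) ^ 2 + 3 / 4 * t ^ 2) := by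
          field_simp
          ring
        have e4 : 0 ≤ t⁻¹ * ((r - t / 2) ^ 2 + 3 / 4 * t ^ 2) := by positivity
        linarith
      exact mul_le_mul ((hb y hy).trans (le_abs_self b)) e2 (norm_nonneg _) (abs_nonneg b)
    refine (norm_integral_le_of_norm_le ((i2.add (i1.const_mul t⁻¹)).const_mul |b|)
      ((ae_restrict_iff' hcK₀.measurableSet).2 (Eventually.of_forall e1))).trans (le_of_eq ?_)
    simp only [Pi.add_apply]
    rw [integral_const_mul, integral_add i2 (i1.const_mul t⁻¹), integral_const_mul,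
      setIntegral_const, smul_eq_mul, mul_comm t]
  have hlim2 : Tendsto (fun k => P.E (w k) u) atTop (𝓝 0) := by
    rw [tendsto_zero_iff_norm_tendsto_zero]
    refine hlim.congr fun k => ?_
    rw [hE k, RCLike.norm_conj, norm_neg]
  exact tendsto_nhds_unique h1 hlim2

omit [ConnectedSpace M] in
/-- From `M` to the chart. -/
theorem down_le (P : One n N M) {p : M} {K : Set (E n)} (hK : IsCompact K) (hKt : K ⊆ tg n p)
    {v : E n → Fib N} (hvK : ContinuousOn v K) : ∃ c : ℝ, 0 < c ∧ ∀ u : M → Fib N, SmS n u →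
    c * ∫ y in K, ‖lu (𝓡∂ n) p u y - v y‖ ^ 2 ≤
      ∫ m in (xc n p).symm '' K, ‖u m - v (xc n p m)‖ ^ 2 ∂P.μ := by
  obtain ⟨hrel, hok, hbdy, hsm⟩ := TM.fLoc n N M
  obtain ⟨hfinm, -, hint⟩ := TM.fInt n N M P
  rcases K.eq_empty_or_nonempty with hKe | hKne
  · refine ⟨1, one_pos, fun u hu => ?_⟩
    simp [hKe]
  set S : Set M := (xc n p).symm '' K with hS
  have hcS : IsCompact S :=
    hK.image_of_continuousOn ((continuousOn_extChartAt_symm p).mono hKt)
  have hSm : MeasurableSet S := hcS.isClosed.measurableSet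
  have hSsrc : S ⊆ (xc n p).source := by
    rintro _ ⟨y, hy, rfl⟩
    exact (xc n p).map_target (hKt hy)
  have hxS : ∀ m ∈ S, xc n p m ∈ K := by
    rintro _ ⟨y, hy, rfl⟩
    rwa [(xc n p).right_inv (hKt hy)]
  have hvc : ContinuousOn (fun m => v (xc n p m)) S :=
    hvK.comp ((continuousOn_extChartAt p).mono hSsrc) hxS
  -- the density
  have hdet : ContinuousOn (fun y => Real.sqrt ((P.loc p).g y).det) K := by
    refine Real.continuous_sqrt.comp_continuousOn ?_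
    have h1 : ContinuousOn (fun y => (P.loc p).g y) K := by
      refine continuousOn_pi.2 fun i => continuousOn_pi.2 fun j => ?_
      exact ((hok P p).g_smooth i j).continuousOn.mono hKt
    exact (continuous_id.matrix_det).comp_continuousOn h1
  obtain ⟨y₀, hy₀, hmin⟩ := hK.exists_isMinOn hKne hdet
  set c : ℝ := Real.sqrt ((P.loc p).g y₀).det with hc
  have hcpos : 0 < c := Real.sqrt_pos.2 ((hok P p).g_pos y₀ (hKt hy₀)).det_pos
  refine ⟨c, hcpos, fun u hu => ?_⟩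
  have hlu : ContDiffOn ℝ ∞ (lu (𝓡∂ n) p u) (tg n p) := hsm u hu p
  have hcont : ContinuousOn (fun m => ‖u m - v (xc n p m)‖ ^ 2) S :=
    ((hu.continuous.continuousOn).sub hvc).norm.pow 2
  have h1 := (hint p _ hK.measurableSet hKt).2
    (fun m => ((‖u m - v (xc n p m)‖ ^ 2 : ℝ) : ℂ))
    ((Complex.continuous_ofReal.comp_continuousOn hcont).aestronglyMeasurable hSm)
  have h2 : ∫ m in S, ‖u m - v (xc n p m)‖ ^ 2 ∂P.μ =
      ∫ y in K, Real.sqrt ((P.loc p).g y).det *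
        ‖lu (𝓡∂ n) p u y - v y‖ ^ 2 := by
    have h3 : ((∫ m in S, ‖u m - v (xc n p m)‖ ^ 2 ∂P.μ : ℝ) : ℂ) =
        ((∫ y in K, Real.sqrt ((P.loc p).g y).det *
          ‖lu (𝓡∂ n) p u y - v y‖ ^ 2 : ℝ) : ℂ) := by
      rw [← integral_complex_ofReal, ← integral_complex_ofReal]
      refine h1.trans (setIntegral_congr_fun hK.measurableSet
        fun y hy => ?_)
      have h4 : xc n p ((xc n p).symm y) = y := (xc n p).right_inv (hKt hy)
      simp only [h4, lu]
      push_cast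
      rfl
    exact_mod_cast h3
  have hi1 : IntegrableOn (fun y => ‖lu (𝓡∂ n) p u y - v y‖ ^ 2) K :=
    (((hlu.continuousOn.mono hKt).sub hvK).norm.pow 2).integrableOn_compact hK
  have hi2 : IntegrableOn (fun y => Real.sqrt ((P.loc p).g y).det *
      ‖lu (𝓡∂ n) p u y - v y‖ ^ 2) K :=
    (hdet.mul (((hlu.continuousOn.mono hKt).sub hvK).norm.pow 2)).integrableOn_compact hK
  rw [h2, ← integral_const_mul]
  exact setIntegral_mono_on (hi1.const_mul c) hi2 hK.measurableSet fun y hy =>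
    mul_le_mul_of_nonneg_right (hmin hy) (by positivity)

/-- A finite family of cells in charts. -/
structure Cells (n : ℕ) [NeZero n] {M : Type u} [TopologicalSpace M]
    [ChartedSpace (EuclideanHalfSpace n) M] [IsManifold (𝓡∂ n) ∞ M] {ι : Type} (p : ι → M)
    (V K K₁ : ι → Set (E n)) : Prop where
  op : ∀ b, IsOpen (V b)
  tg : ∀ b, V b ⊆ tg n (p b)
  pos : ∀ b, V b ⊆ {y | 0 < y 0}
  cK : ∀ b, IsCompact (K b)
  kk : ∀ b, K b ⊆ interior (K₁ b)
  cK₁ : ∀ b, IsCompact (K₁ b)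
  kV : ∀ b, K₁ b ⊆ V b
  dj : ∀ a b, a ≠ b → Disjoint ((xc n (p a)).symm '' V a) ((xc n (p b)).symm '' V b)
  cn : IsPreconnected (Mi n M \ ⋃ b, (xc n (p b)).symm '' K₁ b)

/-- A local solution near one cell, and zero near the other cells, is the limit of global ones. -/
theorem runge_one {ι : Type} [Finite ι] {q : ι → M} {V K K₁ : ι → Set (E n)}
    (C : Cells n q V K K₁) {P : One n N M} {Γ : Set M} (hΓ : RelBd n Γ) (hne : Γ.Nonempty)
    (hsol : P.HasSol Γ) (a : ι) {v : ι → E n → Fib N} (hv0 : ∀ b, b ≠ a → v b = fun _ => 0)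
    (hv : ContDiffOn ℝ ∞ (v a) (V a)) (hvL : ∀ y ∈ V a, Lop (P.loc (q a)) (v a) y = 0) :
    ∃ u : ℕ → M → Fib N, (∀ k, u k ∈ P.U Γ) ∧
      ∀ b, Tendsto (fun k => ∫ y in K₁ b, ‖lu (𝓡∂ n) (q b) (u k) y - v b y‖ ^ 2) atTop (𝓝 0) := by
  obtain ⟨hrel, hok, hbdy, hsm⟩ := TM.fLoc n N M
  obtain ⟨hfinm, -, hint⟩ := TM.fInt n N M P
  have hbd : ((𝓡∂ n).boundary M).Nonempty := by
    obtain ⟨O, -, hO⟩ := hΓ
    obtain ⟨m, hm⟩ := hne
    rw [hO] at hm
    exact ⟨m, hm.2⟩
  have hKt : ∀ b, K₁ b ⊆ tg n (q b) := fun b => (C.kV b).trans (C.tg b)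
  set T : ι → Set M := fun b => (xc n (q b)).symm '' K₁ b with hT
  have hcT : ∀ b, IsCompact (T b) := fun b =>
    (C.cK₁ b).image_of_continuousOn ((continuousOn_extChartAt_symm (q b)).mono (hKt b))
  set S : Set M := ⋃ b, T b with hS
  have hcS : IsCompact S := isCompact_iUnion hcT
  have hSm : MeasurableSet S := hcS.isClosed.measurableSet
  have hTS : ∀ b, T b ⊆ S := fun b => subset_iUnion T b
  have hSi : S ⊆ Mi n M := by
    refine iUnion_subset fun b => ?_
    rintro _ ⟨y, hy, rfl⟩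
    exact cRungeB_mi_of_pos TM.fLoc (q b) (hKt b hy) (C.pos b (C.kV b hy))
  have hSV : ∀ b, ∀ y ∈ V b, (xc n (q b)).symm y ∈ S → y ∈ K₁ b := by
    intro b y hy hyS
    obtain ⟨c, hc⟩ := mem_iUnion.1 hyS
    by_cases hbc : c = b
    · subst hbc
      obtain ⟨y', hy', he⟩ := hc
      have h6 : y' = y := (xc n (q c)).symm.injOn (hKt c hy') (C.tg c hy) he
      exact h6 ▸ hy'
    · exact (Set.disjoint_left.1 (C.dj c b hbc) (image_mono (C.kV c) hc)
        (mem_image_of_mem _ hy)).elim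
  have hTsrc : ∀ b, T b ⊆ (xc n (q b)).source := by
    rintro b _ ⟨y, hy, rfl⟩
    exact (xc n (q b)).map_target (hKt b hy)
  have hxT : ∀ b, ∀ m ∈ T b, xc n (q b) m ∈ K₁ b := by
    rintro b _ ⟨y, hy, rfl⟩
    rwa [(xc n (q b)).right_inv (hKt b hy)]
  have hvc : ContinuousOn (fun m => v a (xc n (q a) m)) (T a) :=
    (hv.continuousOn.mono (C.kV a)).comp ((continuousOn_extChartAt (q a)).mono (hTsrc a)) (hxT a)
  -- the target function
  set w : M → Fib N := (T a).indicator (fun m => v a (xc n (q a) m)) with hw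
  have hw1 : ∀ m ∈ T a, w m = v a (xc n (q a) m) := by
    intro m hm
    simp [hw, indicator_of_mem hm]
  have hwb : ∀ b, ∀ m ∈ T b, w m = v b (xc n (q b) m) := by
    intro b m hm
    by_cases hb : b = a
    · subst hb
      exact hw1 m hm
    · have h1 : m ∉ T a := fun h => Set.disjoint_left.1 (C.dj b a hb)
        (image_mono (C.kV b) hm) (image_mono (C.kV a) h)
      rw [hw, indicator_of_notMem h1, hv0 b hb]
  have hwL : MemLp w 2 (P.μ.restrict S) :=
    cRunge_memLp (hcT a) hvc Measure.restrict_le_self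
  -- the space of solutions
  have hUsm : ∀ u ∈ P.U Γ, SmS n u := by
    rintro u ⟨f, -, hf⟩
    exact hf.smooth
  have hUcomb : ∀ u ∈ P.U Γ, ∀ u' ∈ P.U Γ, ∀ c c' : ℂ, c • u + c' • u' ∈ P.U Γ := by
    rintro u ⟨f, hf1, hf2⟩ u' ⟨f', hf1', hf2'⟩ c c'
    exact ⟨c • f + c' • f', cRunge_comb c c' hf1 hf1',
      (TM.fUniq n N M P hbd).2.1 f f' u u' c c' hf2 hf2'⟩
  have hU0 : (0 : M → Fib N) ∈ P.U Γ := by
    have h1 : IsBdryData (𝓡∂ n) Γ (0 : M → Fib N) :=
      { smooth := contMDiff_const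
        supp := by simp }
    obtain ⟨u, hu⟩ := hsol _ h1
    have h2 := hUcomb u ⟨_, h1, hu⟩ u ⟨_, h1, hu⟩ 0 0
    simpa using h2
  let 𝒰 : Submodule ℂ (M → Fib N) :=
    { carrier := P.U Γ
      zero_mem' := hU0
      add_mem' := fun {u u'} hu hu' => by
        have := hUcomb u hu u' hu' 1 1
        simpa using this
      smul_mem' := fun c u hu => by
        have := hUcomb u hu u hu c 0
        simpa using this }
  have hUL : ∀ u ∈ 𝒰, MemLp u 2 (P.μ.restrict S) := by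
    intro u hu
    have h1 : Continuous u := (hUsm u hu).continuous
    have h2 := cRunge_memLp (μ := P.μ) (ν := P.μ.restrict S) isCompact_univ
      h1.continuousOn Measure.restrict_le_self
    simpa using h2
  obtain ⟨u, hu, hlim⟩ := cRunge_approx (P.μ.restrict S) 𝒰 hUL w hwL (by
    intro h hh horth
    have h1 := runge_orthS hΓ hne hsol (C.op a) (C.tg a) (C.pos a) (C.cK₁ a) (C.kV a) hcS hSi
      (hTS a) (hSV a) C.cn hh (fun u hu => horth u hu) hv hvL
    rw [← h1]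
    have e0 : ∫ x in S, inner ℂ (h x) (w x) ∂P.μ = ∫ x in T a, inner ℂ (h x) (w x) ∂P.μ :=
      setIntegral_eq_of_subset_of_forall_diff_eq_zero hSm (hTS a) fun m hm => by
        rw [hw, indicator_of_notMem hm.2, inner_zero_right]
    rw [e0]
    exact setIntegral_congr_fun (hcT a).isClosed.measurableSet fun m hm => by simp only [hw1 m hm])
  refine ⟨u, hu, fun b => ?_⟩
  have hvb : ContinuousOn (v b) (K₁ b) := by
    by_cases hb : b = a
    · subst hb
      exact hv.continuousOn.mono (C.kV b)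
    · rw [hv0 b hb]
      exact continuousOn_const
  have hvbT : ContinuousOn (fun m => v b (xc n (q b) m)) (T b) :=
    hvb.comp ((continuousOn_extChartAt (q b)).mono (hTsrc b)) (hxT b)
  obtain ⟨c, hc, hdown⟩ := down_le P (C.cK₁ b) (hKt b) hvb
  have husm : ∀ k, SmS n (u k) := fun k => hUsm _ (hu k)
  have hkey : ∀ k, ∫ m in T b, ‖u k m - v b (xc n (q b) m)‖ ^ 2 ∂P.μ ≤
      ∫ m in S, ‖u k m - w m‖ ^ 2 ∂P.μ := by
    intro k
    have e1 : ∫ m in T b, ‖u k m - v b (xc n (q b) m)‖ ^ 2 ∂P.μ =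
        ∫ m in T b, ‖u k m - w m‖ ^ 2 ∂P.μ :=
      setIntegral_congr_fun (hcT b).isClosed.measurableSet fun m hm => by
        simp only [hwb b m hm]
    rw [e1]
    refine setIntegral_mono_set ?_ (Eventually.of_forall fun _ => by positivity)
      (hTS b).eventuallyLE
    have h3 : MemLp (fun m => u k m - w m) 2 (P.μ.restrict S) := (hUL _ (hu k)).sub hwL
    exact h3.integrable_norm_pow (by norm_num)
  have h1 := hlim.const_mul c⁻¹
  rw [mul_zero] at h1
  refine squeeze_zero (fun k => integral_nonneg fun _ => by positivity) (fun k => ?_) h1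
  rw [← div_eq_inv_mul, le_div_iff₀ hc, mul_comm]
  exact (hdown (u k) (husm k)).trans (hkey k)

end

end Vale.Agent.P088.HY.H794.F

end
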