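import Vale.Agent.P088.R2.H794.Fam1

/-!
# P088: several cells, the orthogonality relation in each cell
-/

set_option linter.all false

open Bundle Manifold MeasureTheory Set Filter Topology
open scoped ContDiff Matrix ENNReal

noncomputable section

namespace Vale.Agent.P088.HY.H794.F

open Vale.Agent.P088 Vale.Agent.P088.EYM Vale.Agent.P088.EYM.O Vale.Agent.P088.H207
  Vale.Agent.P088.H207.R
open Vale.Agent.P088.H207.J (tr tri tr_tri tri_tr tr_cd tri_cd int_tr)

universe u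

section

variable {n N : ℕ}

/-- Limits of bilinear integrals on a compact set. -/
theorem lim_intT {K : Set (E n)} (hK : IsCompact K) {a : Fin n → Fin n → E n → ℂ}
    (ha : ∀ j l, ContinuousOn (a j l) K) {f g : Fin n → E n → Fib N}
    {fk gk : ℕ → Fin n → E n → Fib N} (hf : ∀ j, ContinuousOn (f j) K)
    (hg : ∀ j, ContinuousOn (g j) K) (hfk : ∀ k j, ContinuousOn (fk k j) K)
    (hgk : ∀ k j, ContinuousOn (gk k j) K) {e : ℕ → ℝ} (he : Tendsto e atTop (𝓝 0))
    (h1 : ∀ k j, ∀ y ∈ K, ‖fk k j y - f j y‖ ≤ e k)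
    (h2 : ∀ k j, ∀ y ∈ K, ‖gk k j y - g j y‖ ≤ e k) :
    Tendsto (fun k => ∫ y in K, ∑ j, ∑ l, a j l y * inner ℂ (gk k j y) (fk k l y)) atTop
      (𝓝 (∫ y in K, ∑ j, ∑ l, a j l y * inner ℂ (g j y) (f l y))) := by
  obtain ⟨B, hB⟩ := he.bddAbove_range
  have hB' : ∀ k, e k ≤ B := fun k => hB ⟨k, rfl⟩
  have hKm : MeasurableSet K := hK.isClosed.measurableSet
  have hpt : ∀ {u : Fin n → E n → Fib N} {uk : ℕ → Fin n → E n → Fib N},
      (∀ k j, ∀ y ∈ K, ‖uk k j y - u j y‖ ≤ e k) → ∀ j, ∀ y ∈ K,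
      Tendsto (fun k => uk k j y) atTop (𝓝 (u j y)) := by
    intro u uk h j y hy
    rw [tendsto_iff_norm_sub_tendsto_zero]
    exact squeeze_zero (fun _ => norm_nonneg _) (fun k => h k j y hy) he
  have hbd : ∀ {u : Fin n → E n → Fib N} {uk : ℕ → Fin n → E n → Fib N},
      (∀ k j, ∀ y ∈ K, ‖uk k j y - u j y‖ ≤ e k) → ∀ k j, ∀ y ∈ K,
      ‖uk k j y‖ ≤ ‖u j y‖ + B := by
    intro u uk h k j y hy
    have e1 : uk k j y = u j y + (uk k j y - u j y) := by abel
    rw [e1]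
    exact (norm_add_le _ _).trans (add_le_add_right ((h k j y hy).trans (hB' k)) _)
  exact tendsto_integral_of_dominated_convergence (μ := volume.restrict K)
    (F := fun k y => ∑ j, ∑ l, a j l y * inner ℂ (gk k j y) (fk k l y))
    (f := fun y => ∑ j, ∑ l, a j l y * inner ℂ (g j y) (f l y))
    (fun y => ∑ j, ∑ l, ‖a j l y‖ * ((‖g j y‖ + B) * (‖f l y‖ + B)))
    (fun k => (continuousOn_finset_sum _ fun j _ => continuousOn_finset_sum _ fun l _ =>
      (ha j l).mul ((hgk k j).inner (𝕜 := ℂ) (hfk k l))).aestronglyMeasurable hKm)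
    ((continuousOn_finset_sum _ fun j _ => continuousOn_finset_sum _ fun l _ =>
      (ha j l).norm.mul (((hg j).norm.add continuousOn_const).mul
        ((hf l).norm.add continuousOn_const))).integrableOn_compact hK)
    (fun k => (ae_restrict_iff' hKm).2 (Eventually.of_forall fun y hy => by
      refine (norm_sum_le _ _).trans (Finset.sum_le_sum fun j _ => ?_)
      refine (norm_sum_le _ _).trans (Finset.sum_le_sum fun l _ => ?_)
      rw [norm_mul]
      refine mul_le_mul_of_nonneg_left ((norm_inner_le_norm _ _).trans ?_) (norm_nonneg _)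
      exact mul_le_mul (hbd h2 k j y hy) (hbd h1 k l y hy) (norm_nonneg _)
        ((norm_nonneg _).trans (hbd h2 k j y hy))))
    ((ae_restrict_iff' hKm).2 (Eventually.of_forall fun y hy =>
      tendsto_finset_sum _ fun j _ => tendsto_finset_sum _ fun l _ =>
        ((hpt h2 j y hy).inner (hpt h1 l y hy)).const_mul _))

end

section

variable {n N : ℕ} [NeZero n] {M : Type u} [TopologicalSpace M]
  [ChartedSpace (EuclideanHalfSpace n) M] [IsManifold (𝓡∂ n) ∞ M] [T2Space M] [CompactSpace M]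
  [MeasurableSpace M] [BorelSpace M]

/-- Equal energies, localised to several cells. -/
theorem en_diffF {ι : Type} [Fintype ι] (P Q : One n N M) {p : ι → M} {K : ι → Set (E n)}
    (hK : ∀ b, IsCompact (K b)) (hcbt : ∀ b, K b ⊆ tg n (p b))
    (hdj : ∀ a b, a ≠ b → Disjoint ((xc n (p a)).symm '' K a) ((xc n (p b)).symm '' K b))
    (hA : ∀ m, (∀ b, m ∉ (xc n (p b)).symm '' K b) → ∀ X : TangentSpace (𝓡∂ n) m,
      P.A.form m X = Q.A.form m X)
    (hg : ∀ m, (∀ b, m ∉ (xc n (p b)).symm '' K b) → ∀ v w : TangentSpace (𝓡∂ n) m,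
      Q.g.inner m v w = P.g.inner m v w)
    {u w : M → Fib N} (hu : SmS n u) (hw : SmS n w) (hE : P.E w u = Q.E w u) :
    ∑ b, ∫ y in K b,
      (ed (Q.loc (p b)) (lu (𝓡∂ n) (p b) w) (lu (𝓡∂ n) (p b) u) y -
        ed (P.loc (p b)) (lu (𝓡∂ n) (p b) w) (lu (𝓡∂ n) (p b) u) y) = 0 := by
  obtain ⟨hfin, -, hint⟩ := TM.fInt n N M P
  have hrc := continuous_rho P.g Q.g
  set G : M → ℂ := fun x => (rho P.g Q.g x : ℂ) * pairing Q.g Q.A w u x -
    pairing P.g P.A w u x with hG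
  have hcP : Continuous (pairing P.g P.A w u) := continuous_pairing P.g P.A hw hu
  have hcQ : Continuous (pairing Q.g Q.A w u) := continuous_pairing Q.g Q.A hw hu
  have hGc : Continuous G :=
    ((Complex.continuous_ofReal.comp hrc).mul hcQ).sub hcP
  have hQE : Q.E w u = ∫ x, (rho P.g Q.g x : ℂ) * pairing Q.g Q.A w u x ∂P.μ := by
    unfold One.E energy
    rw [withDensity_rho P Q, integral_withDensity_eq_integral_toReal_smul₀]
    · refine integral_congr_ae (Eventually.of_forall fun x => ?_)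
      simp only
      rw [ENNReal.toReal_ofReal (rho_pos P.g Q.g x).le, Complex.real_smul]
    · exact hrc.measurable.ennreal_ofReal.aemeasurable
    · exact Eventually.of_forall fun x => ENNReal.ofReal_lt_top
  have hc' : Continuous fun x => (rho P.g Q.g x : ℂ) * pairing Q.g Q.A w u x :=
    (Complex.continuous_ofReal.comp hrc).mul hcQ
  have h0 : ∫ x, G x ∂P.μ = 0 := by
    have e1 : ∫ x, G x ∂P.μ = (∫ x, (rho P.g Q.g x : ℂ) * pairing Q.g Q.A w u x ∂P.μ) -
        ∫ x, pairing P.g P.A w u x ∂P.μ :=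
      integral_sub (CEnergy_integrable P hc') (CEnergy_integrable P hcP)
    rw [e1, ← hQE, ← hE]
    exact sub_self _
  have hGi : Integrable G P.μ := CEnergy_integrable P hGc
  have hGz : ∀ x, (∀ b, x ∉ (xc n (p b)).symm '' K b) → G x = 0 := by
    intro x hx
    have e1 : gram P.g x x = gram Q.g x x := O.gram_of_inner fun a b => (hg x hx a b).symm
    simp only [hG]
    rw [O.rho_one e1, O.pairing_congr e1 (hA x hx), Complex.ofReal_one, one_mul, sub_self]
  have hTm : ∀ b, MeasurableSet ((xc n (p b)).symm '' K b) := fun b =>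
    ((hK b).image_of_continuousOn
      ((continuousOn_extChartAt_symm (p b)).mono (hcbt b))).isClosed.measurableSet
  have h1 : ∑ b, ∫ x in (xc n (p b)).symm '' K b, G x ∂P.μ = 0 := by
    rw [← h0, ← integral_iUnion_fintype (fun b => hTm b) (fun a b hab => hdj a b hab)
      fun b => hGi.integrableOn]
    exact setIntegral_eq_integral_of_forall_compl_eq_zero fun x hx =>
      hGz x fun b hb => hx (mem_iUnion.2 ⟨b, hb⟩)
  rw [← h1]
  refine Finset.sum_congr rfl fun b _ => ?_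
  rw [(hint (p b) _ (hK b).measurableSet (hcbt b)).2 G
    hGc.aestronglyMeasurable]
  refine setIntegral_congr_fun (hK b).measurableSet fun y hy => ?_
  have hx : (xc n (p b)).symm y ∈ (extChartAt (𝓡∂ n) (p b)).source :=
    (xc n (p b)).map_target (hcbt b hy)
  have hpos := Real.sqrt_pos.2 (gram_det_pos P.g hx)
  rw [CEnergy_ed P (p b) hw hu (hcbt b hy), CEnergy_ed Q (p b) hw hu (hcbt b hy)]
  simp only [hG]
  rw [rho_eq P.g Q.g hx]
  have e1 : ((P.loc (p b)).g y) = gram P.g (p b) ((xc n (p b)).symm y) := rfl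
  have e2 : ((Q.loc (p b)).g y) = gram Q.g (p b) ((xc n (p b)).symm y) := rfl
  rw [e1, e2]
  have hne : ((√(gram P.g (p b) ((xc n (p b)).symm y)).det : ℝ) : ℂ) ≠ 0 := by
    exact_mod_cast hpos.ne'
  push_cast
  field_simp

variable [ConnectedSpace M]

/-- Convergence in `L²` of solutions implies convergence of the derivatives. -/
theorem pd_conv {P : One n N M} {Γ : Set M} {p : M} {V K K₁ : Set (E n)} (hV : IsOpen V)
    (hbt : V ⊆ tg n p) (hpos : V ⊆ {y | 0 < y 0}) (hK : IsCompact K) (hKK : K ⊆ interior K₁)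
    (hK₁ : IsCompact K₁) (hK₁V : K₁ ⊆ V) {uk : ℕ → M → Fib N} (huk : ∀ k, uk k ∈ P.U Γ)
    {F : E n → Fib N} (hF : Sol (P.loc p) V F)
    (hlu : Tendsto (fun k => ∫ y in K₁, ‖lu (𝓡∂ n) p (uk k) y - F y‖ ^ 2) atTop (𝓝 0)) :
    (∀ k, Sol (P.loc p) V (lu (𝓡∂ n) p (uk k))) ∧ ∃ e : ℕ → ℝ, (∀ k, 0 ≤ e k) ∧
      Tendsto e atTop (𝓝 0) ∧
      ∀ k j, ∀ y ∈ K, ‖pd j (lu (𝓡∂ n) p (uk k)) y - pd j F y‖ ≤ e k := by
  obtain ⟨hrel, hok, hbdy, hsm⟩ := TM.fLoc n N M
  have hbH : V ⊆ Hs n := fun y hy => le_of_lt (show 0 < y 0 from hpos hy)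
  have hbr : RelOpen V := CHarm_relOpen_of_open hV hbH
  have hKR : K ⊆ V := hKK.trans (interior_subset.trans hK₁V)
  have hokP : (P.loc p).Ok V := CHarm_ok_mono (hok P p) hbt
  obtain ⟨C, hC⟩ := grad_estK n N (P.loc p) hK hKK hK₁ hK₁V hV hokP hbH
  set I : ℕ → ℝ := fun k => C * ∫ y in K₁, ‖lu (𝓡∂ n) p (uk k) y - F y‖ ^ 2
  have hI : Tendsto I atTop (𝓝 0) := by
    have := hlu.const_mul C
    rwa [mul_zero] at this
  have husol : ∀ k, Sol (P.loc p) V (lu (𝓡∂ n) p (uk k)) := by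
    intro k
    obtain ⟨f, hf, hu⟩ := huk k
    have h1 := TM.fHarm n N M P f (uk k) hu p
    exact ⟨h1.1.mono hbt, fun x hx => h1.2 x (hbt hx)⟩
  have hpdsub : ∀ {u v : E n → Fib N}, ContDiffOn ℝ ∞ u V →
      ContDiffOn ℝ ∞ v V → ∀ j, ∀ y ∈ V,
      pd j (fun y => u y - v y) y = pd j u y - pd j v y := by
    intro u v hu hv j y hy
    rw [cRunge_pd (hpos hy), cRunge_pd (hpos hy), cRunge_pd (hpos hy), fderiv_fun_sub
      ((hu.contDiffAt (hV.mem_nhds hy)).differentiableAt (by simp))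
      ((hv.contDiffAt (hV.mem_nhds hy)).differentiableAt (by simp))]
    rfl
  refine ⟨husol, fun k => √(I k), fun k => Real.sqrt_nonneg _, ?_, ?_⟩
  · have h1 := (Real.continuous_sqrt.tendsto 0).comp hI
    rwa [Real.sqrt_zero] at h1
  · intro k j y hy
    rw [← hpdsub (husol k).1 hF.1 j y (hKR hy)]
    have h1 := hC _ (cClosed_sol_sub hbr hokP (husol k) hF) y hy
    refine Real.le_sqrt_of_sq_le (le_trans ?_ h1)
    refine pow_le_pow_left₀ (norm_nonneg _) ?_ 2
    refine (Finset.single_le_sum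
      (f := fun j => ‖pd j (fun y => lu (𝓡∂ n) p (uk k) y - F y) y‖)
      (fun _ _ => norm_nonneg _) (Finset.mem_univ j)).trans ?_
    exact le_add_of_nonneg_left (norm_nonneg _)

/-- The orthogonality relation in each cell. -/
theorem orthF {ι : Type} [Finite ι] {p : ι → M} {V K K₁ : ι → Set (E n)}
    (C : Cells n p V K K₁) {P Q : One n N M} {Γ : Set M} (hΓ : RelBd n Γ)
    (hne : Γ.Nonempty) (hS : SameD P Q Γ)
    (hPB : ∀ b, ∀ x ∈ V b, ∀ i, (P.loc (p b)).B i x = 0)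
    (hQB : ∀ b, ∀ x ∈ V b, ∀ i, (Q.loc (p b)).B i x = 0)
    (hA : ∀ m, (∀ b, m ∉ (xc n (p b)).symm '' K b) → ∀ X : TangentSpace (𝓡∂ n) m,
      P.A.form m X = Q.A.form m X)
    (hg : ∀ m, (∀ b, m ∉ (xc n (p b)).symm '' K b) → ∀ v w : TangentSpace (𝓡∂ n) m,
      Q.g.inner m v w = P.g.inner m v w)
    (a : ι) {F G : E n → Fib N} (hF : Sol (P.loc (p a)) (V a) F)
    (hG : Sol (Q.loc (p a)) (V a) G) :
    ∫ y in K a, ∑ j, ∑ l,
      ((gg (Q.loc (p a)).g j l y - gg (P.loc (p a)).g j l y : ℝ) : ℂ) *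
        inner ℂ (pd j G y) (pd l F y) = 0 := by
  classical
  haveI := Fintype.ofFinite ι
  obtain ⟨hrel, hok, hbdy, hsm⟩ := TM.fLoc n N M
  obtain ⟨⟨hsP, hsQ, -⟩, -⟩ := Vale.Agent.P088.EYM.cData TM.fUniq TM.fForm n N M P Q Γ hΓ hne hS
  set vF : ι → E n → Fib N := fun b => if b = a then F else fun _ => 0 with hvF
  set vG : ι → E n → Fib N := fun b => if b = a then G else fun _ => 0 with hvG
  have hF0 : ∀ b, b ≠ a → vF b = fun _ => 0 := fun b hb => by simp [hvF, hb]
  have hG0 : ∀ b, b ≠ a → vG b = fun _ => 0 := fun b hb => by simp [hvG, hb]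
  have hFa : vF a = F := by simp [hvF]
  have hGa : vG a = G := by simp [hvG]
  obtain ⟨uk, huk, hlu⟩ := runge_one C hΓ hne hsP a hF0 (hFa ▸ hF.1) (hFa ▸ hF.2)
  obtain ⟨wk, hwk, hlw⟩ := runge_one C hΓ hne hsQ a hG0 (hGa ▸ hG.1) (hGa ▸ hG.2)
  have hbH : ∀ b, V b ⊆ Hs n := fun b y hy => le_of_lt (show 0 < y 0 from C.pos b hy)
  have hbr : ∀ b, RelOpen (V b) := fun b => CHarm_relOpen_of_open (C.op b) (hbH b)
  have hKR : ∀ b, K b ⊆ V b := fun b => (C.kk b).trans (interior_subset.trans (C.kV b))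
  have hz : ∀ (R : One n N M) b, Sol (R.loc (p b)) (V b) (fun _ => (0 : Fib N)) := by
    intro R b
    refine ⟨contDiffOn_const, fun x hx => ?_⟩
    have e3 : ∀ k : Fin n, nab (R.loc (p b)) k (fun _ => (0 : Fib N)) = fun _ => 0 := by
      intro k
      funext y
      simp [nab, pd_const]
    have e4 : ∀ j : Fin n, flux (R.loc (p b)) j (fun _ => (0 : Fib N)) = fun _ => 0 := by
      intro j
      funext y
      simp [flux, e3]
    simp [Lop, e4, pd_const]
  have hFs : ∀ b, Sol (P.loc (p b)) (V b) (vF b) := fun b => by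
    by_cases hb : b = a
    · subst hb
      rw [hFa]
      exact hF
    · rw [hF0 b hb]
      exact hz P b
  have hGs : ∀ b, Sol (Q.loc (p b)) (V b) (vG b) := fun b => by
    by_cases hb : b = a
    · subst hb
      rw [hGa]
      exact hG
    · rw [hG0 b hb]
      exact hz Q b
  have hpdc : ∀ b, ∀ {u : E n → Fib N}, ContDiffOn ℝ ∞ u (V b) → ∀ j,
      ContinuousOn (pd j u) (K b) := fun b _ hu j =>
    (((hbr b).pd_smooth hu j).continuousOn).mono (hKR b)
  have hlim : ∀ b, Tendsto (fun k => ∫ y in K b, ∑ j, ∑ l,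
      ((gg (Q.loc (p b)).g j l y - gg (P.loc (p b)).g j l y : ℝ) : ℂ) *
        inner ℂ (pd j (lu (𝓡∂ n) (p b) (wk k)) y) (pd l (lu (𝓡∂ n) (p b) (uk k)) y)) atTop
      (𝓝 (∫ y in K b, ∑ j, ∑ l,
      ((gg (Q.loc (p b)).g j l y - gg (P.loc (p b)).g j l y : ℝ) : ℂ) *
        inner ℂ (pd j (vG b) y) (pd l (vF b) y))) := by
    intro b
    obtain ⟨hs1, e, he0, he, h1⟩ := pd_conv (C.op b) (C.tg b) (C.pos b)
      ((C.cK b)) (C.kk b) (C.cK₁ b) (C.kV b) huk (hFs b) (hlu b)
    obtain ⟨hs2, e', he0', he', h2⟩ := pd_conv (C.op b) (C.tg b) (C.pos b)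
      ((C.cK b)) (C.kk b) (C.cK₁ b) (C.kV b) hwk (hGs b) (hlw b)
    have hokP : (P.loc (p b)).Ok (V b) := CHarm_ok_mono (hok P (p b)) (C.tg b)
    have hokQ : (Q.loc (p b)).Ok (V b) := CHarm_ok_mono (hok Q (p b)) (C.tg b)
    have hee : Tendsto (fun k => e k + e' k) atTop (𝓝 0) := by
      have := he.add he'
      rwa [add_zero] at this
    refine lim_intT (C.cK b) (a := fun j l y =>
        ((gg (Q.loc (p b)).g j l y - gg (P.loc (p b)).g j l y : ℝ) : ℂ))
      (fk := fun k j => pd j (lu (𝓡∂ n) (p b) (uk k)))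
      (gk := fun k j => pd j (lu (𝓡∂ n) (p b) (wk k)))
      (f := fun j => pd j (vF b)) (g := fun j => pd j (vG b)) (fun j l => ?_)
      (fun j => hpdc b (hFs b).1 j)
      (fun j => hpdc b (hGs b).1 j) (fun k j => hpdc b (hs1 k).1 j) (fun k j => hpdc b (hs2 k).1 j)
      hee ?_ ?_
    · exact Complex.continuous_ofReal.comp_continuousOn
        (((((hbr b).gg_smooth hokQ.g_smooth hokQ.g_pos j l).continuousOn).mono (hKR b)).sub
          ((((hbr b).gg_smooth hokP.g_smooth hokP.g_pos j l).continuousOn).mono (hKR b)))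
    · intro k j y hy
      exact (h1 k j y hy).trans (le_add_of_nonneg_right (he0' k))
    · intro k j y hy
      exact (h2 k j y hy).trans (le_add_of_nonneg_left (he0 k))
  have hsum := tendsto_finset_sum (Finset.univ : Finset ι) fun b _ => hlim b
  have hdjK : ∀ a b, a ≠ b →
      Disjoint ((xc n (p a)).symm '' K a) ((xc n (p b)).symm '' K b) := fun a b hab =>
    (C.dj a b hab).mono (image_mono (hKR a)) (image_mono (hKR b))
  have h0 : ∀ k, ∑ b, ∫ y in K b, ∑ j, ∑ l,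
      ((gg (Q.loc (p b)).g j l y - gg (P.loc (p b)).g j l y : ℝ) : ℂ) *
        inner ℂ (pd j (lu (𝓡∂ n) (p b) (wk k)) y) (pd l (lu (𝓡∂ n) (p b) (uk k)) y) = 0 := by
    intro k
    obtain ⟨f, hf, hu⟩ := huk k
    obtain ⟨h, hh, hw⟩ := hwk k
    have h1 := en_diffF P Q C.cK (fun b => (hKR b).trans (C.tg b)) hdjK hA hg hu.smooth hw.smooth
      (en_eq hΓ hne hS (huk k) (hwk k))
    rw [← h1]
    refine Finset.sum_congr rfl fun b _ => ?_
    refine setIntegral_congr_fun (C.cK b).measurableSet fun y hy => ?_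
    rw [ed_nc Q (p b) (hQB b) _ _ (hKR b hy), ed_nc P (p b) (hPB b) _ _ (hKR b hy)]
    rw [← Finset.sum_sub_distrib]
    refine Finset.sum_congr rfl fun j _ => ?_
    rw [← Finset.sum_sub_distrib]
    refine Finset.sum_congr rfl fun l _ => ?_
    push_cast
    ring
  simp only [h0] at hsum
  have h3 := tendsto_nhds_unique tendsto_const_nhds hsum
  rw [Finset.sum_eq_single a] at h3
  · rw [hFa, hGa] at h3
    exact h3.symm
  · intro b _ hb
    rw [hF0 b hb]
    refine integral_eq_zero_of_ae (Eventually.of_forall fun y => ?_)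
    simp [pd_const]
  · intro h
    exact (h (Finset.mem_univ a)).elim

end

end Vale.Agent.P088.HY.H794.F

end
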