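import Vale.Agent.P088.R2.H794.Fam2

/-!
# P088: several cells, the orthogonality relation of the two tensors in each cell
-/

set_option linter.all false

open Bundle Manifold MeasureTheory Set Filter Topology
open scoped ContDiff Matrix ENNReal

noncomputable section

namespace Vale.Agent.P088.HY.H794.F

open Vale.Agent.P088 Vale.Agent.P088.EYM Vale.Agent.P088.EYM.O Vale.Agent.P088.H207
  Vale.Agent.P088.H207.R
open Vale.Agent.P088.H207.J (tr tri tr_tri tri_tr tr_cd tri_cd int_tr)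

universe u

section

variable {n N : ℕ} [NeZero n] {M : Type u} [TopologicalSpace M]
  [ChartedSpace (EuclideanHalfSpace n) M] [IsManifold (𝓡∂ n) ∞ M] [T2Space M] [CompactSpace M]
  [MeasurableSpace M] [BorelSpace M] [ConnectedSpace M]

/-- Equal data on `M` give the orthogonality relation of the two tensors in each cell. -/
theorem starF (a : Fin N) {ι : Type} [Finite ι] {p : ι → M} {V K K₁ : ι → Set (E n)}
    (C : Cells n p V K K₁) {P Q : One n N M} {Γ : Set M} (hΓ : RelBd n Γ)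
    (hne : Γ.Nonempty) (hS : SameD P Q Γ)
    (hPB : ∀ b, ∀ x ∈ V b, ∀ i, (P.loc (p b)).B i x = 0)
    (hQB : ∀ b, ∀ x ∈ V b, ∀ i, (Q.loc (p b)).B i x = 0)
    (hA : ∀ m, (∀ b, m ∉ (xc n (p b)).symm '' K b) → ∀ X : TangentSpace (𝓡∂ n) m,
      P.A.form m X = Q.A.form m X)
    (hg : ∀ m, (∀ b, m ∉ (xc n (p b)).symm '' K b) → ∀ v w : TangentSpace (𝓡∂ n) m,
      Q.g.inner m v w = P.g.inner m v w)
    (c : ι) {Ω : Set (Fin n → ℝ)} (hΩ : IsOpen Ω) (hVΩ : V c = {x | tr (xc n (p c) (p c)) x ∈ Ω})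
    {g₁ g₂ : LR.MF n} (hg₁ : LR.SmM g₁) (hg₂ : LR.SmM g₂) (hp₁ : ∀ y, (g₁ y).PosDef)
    (hp₂ : ∀ y, (g₂ y).PosDef)
    (hgP : ∀ x ∈ V c, g₁ (tr (xc n (p c) (p c)) x) = (P.loc (p c)).g x)
    (hgQ : ∀ x ∈ V c, g₂ (tr (xc n (p c) (p c)) x) = (Q.loc (p c)).g x) :
    LR.CF.St2 Ω (LR.sg g₁) (LR.sg g₂) := by
  set z : E n := xc n (p c) (p c) with hz
  have hV : IsOpen (V c) := C.op c
  have hbt := C.tg c
  have hpos := C.pos c
  have hK := C.cK c
  have hmV' : ∀ x, tr z x ∈ Ω ↔ x ∈ V c := fun x => by rw [hVΩ]; rfl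
  have hKR : K c ⊆ V c := (C.kk c).trans (interior_subset.trans (C.kV c))
  have hs₁ : LR.SmM (LR.sg g₁) := H833.smM_sg hg₁ hp₁
  have hs₂ : LR.SmM (LR.sg g₂) := H833.smM_sg hg₂ hp₂
  have hsy₁ := H833.symm_sg hp₁
  have hsy₂ := H833.symm_sg hp₂
  have hgg₁ : ∀ x ∈ V c, ∀ j k,
      gg (P.loc (p c)).g j k x = LR.sg g₁ (tr z x) j k := by
    intro x hx j k
    unfold LR.sg gg
    rw [hgP x hx]
    rfl
  have hgg₂ : ∀ x ∈ V c, ∀ j k,
      gg (Q.loc (p c)).g j k x = LR.sg g₂ (tr z x) j k := by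
    intro x hx j k
    unfold LR.sg gg
    rw [hgQ x hx]
    rfl
  intro U W hU hW hUe hWe
  have hW' := conj_cd hW
  -- the two local solutions
  have hF : Sol (P.loc (p c)) (V c) (J.li N z a U) := by
    refine ⟨(J.li_cd hU).contDiffOn, fun x hx => ?_⟩
    rw [J.li_lop (s := LR.sg g₁) hV hpos (hPB c) hs₁ hgg₁ hU hx]
    unfold J.li
    simp only
    rw [hUe _ ((hmV' x).2 hx)]
    simp
  have hG : Sol (Q.loc (p c)) (V c) (J.li N z a fun y => (starRingEnd ℂ) (W y)) := by
    refine ⟨(J.li_cd hW').contDiffOn, fun x hx => ?_⟩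
    rw [J.li_lop (s := LR.sg g₂) hV hpos (hQB c) hs₂ hgg₂ hW' hx]
    unfold J.li
    simp only
    rw [conj_dv hs₂ hW, hWe _ ((hmV' x).2 hx)]
    simp
  have h0 := orthF C hΓ hne hS hPB hQB hA hg c hF hG
  -- the integrand
  set f : (Fin n → ℝ) → ℂ := fun x => ∑ i, ∑ j, ((LR.sg g₂ x - LR.sg g₁ x) i j : ℂ) *
    LR.pd i U x * LR.pd j W x with hf
  have hint : ∀ x ∈ V c, (∑ j, ∑ l,
      ((gg (Q.loc (p c)).g j l x - gg (P.loc (p c)).g j l x : ℝ) : ℂ) *
        inner ℂ (pd j (J.li N z a fun y => (starRingEnd ℂ) (W y)) x) (pd l (J.li N z a U) x)) =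
      f (tr z x) := by
    intro x hx
    rw [hf]
    simp only
    rw [Finset.sum_comm]
    refine Finset.sum_congr rfl fun l _ => ?_
    refine Finset.sum_congr rfl fun j _ => ?_
    rw [cRunge_pd (hpos hx), cRunge_pd (hpos hx), J.li_fd (hW'.differentiable (by simp) _),
      J.li_fd (hU.differentiable (by simp) _), hgg₂ x hx, hgg₁ x hx]
    unfold J.li
    simp only
    rw [conj_pd (hW.differentiable (by simp) _), inner_smul_left, inner_smul_right,
      EuclideanSpace.inner_single_left]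
    have e1 : (LR.sg g₁ (tr z x) j l) = LR.sg g₁ (tr z x) l j := (hsy₁ (tr z x)).apply l j
    have e2 : (LR.sg g₂ (tr z x) j l) = LR.sg g₂ (tr z x) l j := (hsy₂ (tr z x)).apply l j
    rw [e1, e2, Matrix.sub_apply]
    simp only [Complex.conj_conj]
    simp
    ring
  have hfz : ∀ x ∈ V c, x ∉ K c → f (tr z x) = 0 := by
    intro x hx hxρ
    have h5 : ∀ b, (xc n (p c)).symm x ∉ (xc n (p b)).symm '' K b := by
      intro b
      by_cases hb : b = c
      · subst hb
        rintro ⟨x', hx', he⟩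
        have h6 : x' = x := (xc n (p b)).symm.injOn
          (hbt (hKR hx')) (hbt hx) he
        exact hxρ (h6 ▸ hx')
      · intro h
        have hKb : K b ⊆ V b := (C.kk b).trans (interior_subset.trans (C.kV b))
        exact Set.disjoint_left.1 (C.dj b c hb) (image_mono hKb h) (mem_image_of_mem _ hx)
    have h6 : g₂ (tr z x) = g₁ (tr z x) := by
      rw [hgQ x hx, hgP x hx]
      ext i j
      exact hg _ h5 _ _
    have h7 : LR.sg g₂ (tr z x) = LR.sg g₁ (tr z x) := by
      unfold LR.sg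
      rw [h6]
    rw [hf]
    simp only
    rw [h7, sub_self]
    simp
  -- change of variables
  have h1 : ∫ x in V c, f (tr z x) = 0 := by
    have e1 : ∫ x in K c, f (tr z x) = 0 := by
      rw [← h0]
      refine (setIntegral_congr_fun hK.measurableSet fun y hy => ?_).symm
      exact hint y (hKR hy)
    rw [← e1]
    refine setIntegral_eq_of_subset_of_forall_diff_eq_zero
      hV.measurableSet hKR ?_
    intro x hx
    exact hfz x hx.1 hx.2
  have h2 : ∫ x, Ω.indicator f (tr z x) = ∫ x in V c, f (tr z x) := by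
    rw [← integral_indicator hV.measurableSet]
    refine integral_congr_ae (Eventually.of_forall fun x => ?_)
    by_cases hx : x ∈ V c
    · simp only [indicator_of_mem hx, indicator_of_mem ((hmV' x).2 hx)]
    · have hx' : tr z x ∉ Ω := fun h => hx ((hmV' x).1 h)
      simp only [indicator_of_notMem hx, indicator_of_notMem hx']
  rw [h1, int_tr z] at h2
  rw [integral_indicator hΩ.measurableSet] at h2
  exact h2

end

end Vale.Agent.P088.HY.H794.F

end
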