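import Vale.Agent.P088.R2.H794.Fam3

/-!
# P088: several cells, composition of diffeomorphisms supported in disjoint cells
-/

set_option linter.all false

open Bundle Manifold MeasureTheory Set Filter Topology
open scoped ContDiff Matrix ENNReal

noncomputable section

namespace Vale.Agent.P088.HY.H794.F

open Vale.Agent.P088 Vale.Agent.P088.B Vale.Agent.P088.EYM Vale.Agent.P088.EYM.O
open Vale.Agent.P088.H207 (Dm cV Gm Am gl mix mix_g mix_A related_comp)
open Vale.Agent.P088.H207.R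
open Vale.Agent.P088.H207.J (tr tri tr_tri tri_tr tr_cd tri_cd tr_fd)

universe u

section

variable {n : ℕ} [NeZero n] {M : Type u} [TopologicalSpace M]
  [ChartedSpace (EuclideanHalfSpace n) M] [IsManifold (𝓡∂ n) ∞ M]

theorem dm_trans (F G : Diffeomorph (𝓡∂ n) (𝓡∂ n) M M ∞) (x : M) (v : E n) :
    Dm (F.trans G) x v = Dm G (F x) (Dm F x v) := by
  have e1 : mfderiv (𝓡∂ n) (𝓡∂ n) (G ∘ F) x =
      (mfderiv (𝓡∂ n) (𝓡∂ n) G (F x)).comp (mfderiv (𝓡∂ n) (𝓡∂ n) F x) :=
    mfderiv_comp x (G.contMDiff.mdifferentiableAt (by simp))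
      (F.contMDiff.mdifferentiableAt (by simp))
  have e2 : (⇑(F.trans G) : M → M) = G ∘ F := rfl
  unfold Dm
  rw [e2, e1]
  rfl

/-- Diffeomorphisms supported in disjoint sets commute with restriction to these sets. -/
theorem comp_fam {ι : Type} (T : ι → Set M) (hdj : ∀ a b, a ≠ b → Disjoint (T a) (T b))
    (H : ι → Diffeomorph (𝓡∂ n) (𝓡∂ n) M M ∞)
    (hoff : ∀ b m, m ∉ T b → H b m = m ∧ ∀ v : E n, Dm (H b) m v = v)
    (hon : ∀ b, ∀ m ∈ T b, H b m ∈ T b) (S : Finset ι) :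
    ∃ F : Diffeomorph (𝓡∂ n) (𝓡∂ n) M M ∞,
      (∀ m, (∀ b ∈ S, m ∉ T b) → F m = m ∧ ∀ v : E n, Dm F m v = v) ∧
      ∀ b ∈ S, ∀ m ∈ T b, F m = H b m ∧ ∀ v : E n, Dm F m v = Dm (H b) m v := by
  classical
  induction S using Finset.induction_on with
  | empty =>
    refine ⟨Diffeomorph.refl (𝓡∂ n) M ∞, fun m _ => ⟨rfl, fun v => ?_⟩, fun b hb => ?_⟩
    · show mfderiv (𝓡∂ n) (𝓡∂ n) (id : M → M) m v = v
      rw [mfderiv_id]
      rfl
    · exact absurd hb (Finset.notMem_empty b)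
  | insert c S hc ih =>
    obtain ⟨F, h1, h2⟩ := ih
    refine ⟨F.trans (H c), fun m hm => ?_, fun b hb m hm => ?_⟩
    · obtain ⟨e1, e2⟩ := h1 m fun b hb => hm b (Finset.mem_insert_of_mem hb)
      obtain ⟨e3, e4⟩ := hoff c m (hm c (Finset.mem_insert_self c S))
      refine ⟨?_, fun v => ?_⟩
      · show H c (F m) = m
        rw [e1, e3]
      · rw [dm_trans, e1, e2, e4]
    · rcases Finset.mem_insert.1 hb with rfl | hb
      · obtain ⟨e1, e2⟩ := h1 m fun b' hb' h => by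
          have hne : b ≠ b' := fun h => hc (h ▸ hb')
          exact Set.disjoint_left.1 (hdj b b' hne) hm h
        refine ⟨?_, fun v => ?_⟩
        · show H b (F m) = H b m
          rw [e1]
        · rw [dm_trans, e1, e2]
      · obtain ⟨e1, e2⟩ := h2 b hb m hm
        have hne : b ≠ c := fun h => hc (h ▸ hb)
        have hmc : H b m ∉ T c := fun h => Set.disjoint_left.1 (hdj b c hne) (hon b m hm) h
        obtain ⟨e3, e4⟩ := hoff c (H b m) hmc
        refine ⟨?_, fun v => ?_⟩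
        · show H c (F m) = H b m
          rw [e1, e3]
        · rw [dm_trans, e1, e2, e4]

variable [T2Space M]

theorem mv_on {p : M} {Ω : Set (Fin n → ℝ)} (hR : Rg p Ω)
    {h : (Fin n → ℝ) → Fin n → ℝ} (H : Lc Ω h) {m : M}
    (hm : m ∈ (xc n p).symm '' vO (xc n p p) Ω) :
    H207.J.mv p h m ∈ (xc n p).symm '' vO (xc n p p) Ω := by
  obtain ⟨y, hy, rfl⟩ := hm
  have hyt : y ∈ tg n p := (hR.sub _ (vO_sub hy)).1
  have hs : (xc n p).symm y ∈ (xc n p).source := (xc n p).map_target hyt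
  rw [H207.J.mv_src hs, (xc n p).right_inv hyt]
  exact mem_image_of_mem _ (tch_on H hy)

end

section

variable {n N : ℕ} [NeZero n] {M : Type u} [TopologicalSpace M]
  [ChartedSpace (EuclideanHalfSpace n) M] [IsManifold (𝓡∂ n) ∞ M] [T2Space M]
  [MeasurableSpace M]

/-- The pull back of the metric, in the cell. -/
theorem mv_met_in {P Q : One n N M} {p : M} {Ω : Set (Fin n → ℝ)} (hR : Rg p Ω)
    {w K : (Fin n → ℝ) → Fin n → ℝ} (D : LR.Dif (Ω) w K)
    (hQ : ∀ x ∈ vO (xc n p p) Ω, (Q.loc p).g x =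
      (LR.jm w (tr (xc n p p) x))ᵀ * (P.loc p).g (H207.J.tch (xc n p p) (fun y => y + w y) x) *
        LR.jm w (tr (xc n p p) x)) {m : M} (hm : m ∈ (xc n p).symm '' vO (xc n p p) Ω)
    (v v' : E n) :
    Gm Q m v v' = Gm P (H207.J.mv p (fun y => y + w y) m) (Dm (H207.J.mv p fun y => y + w y) m v)
      (Dm (H207.J.mv p fun y => y + w y) m v') := by
  obtain ⟨y, hy, rfl⟩ := hm
  have hycb := vO_sub hy
  have hyt : y ∈ tg n p := (hR.sub _ hycb).1
  have hs : (xc n p).symm y ∈ (xc n p).source := (xc n p).map_target hyt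
  have hmv : H207.J.mv p (fun y => y + w y) ((xc n p).symm y) =
      (xc n p).symm (H207.J.tch (xc n p p) (fun y => y + w y) y) := by
    rw [H207.J.mv_src hs, (xc n p).right_inv hyt]
  have htc := tch_on (lc_w D) hy
  have hs' : H207.J.mv p (fun y => y + w y) ((xc n p).symm y) ∈ (xc n p).source := by
    rw [hmv]
    exact (xc n p).map_target (hR.sub _ (vO_sub htc)).1
  obtain ⟨h1, h2⟩ := EYM.cChart n M univ (H207.J.mv p fun y => y + w y) isOpen_univ
    (mv_smooth hR (lc_w D)).contMDiffOn p p ((xc n p).symm y) (mem_univ _) hs hs'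
  have hJ := mv_jac hR D (m := (xc n p).symm y) (mem_image_of_mem _ hycb)
  rw [(xc n p).right_inv hyt] at hJ
  rw [(xc n p).right_inv hyt, hJ] at h1
  obtain ⟨a, ha⟩ := h2 v
  obtain ⟨b, hb⟩ := h2 v'
  set m := (xc n p).symm y with hmdef
  set J := LR.jm w (tr (xc n p p) y) with hJdef
  have hD : ∀ a : Fin n → ℝ, Dm (H207.J.mv p fun y => y + w y) m
      (∑ j, a j • cV p m j) =
      ∑ k, (J *ᵥ a) k • cV p (H207.J.mv p (fun y => y + w y) m) k := by
    intro a
    rw [map_sum]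
    have e1 : ∀ j : Fin n, Dm (H207.J.mv p fun y => y + w y) m (a j • cV p m j) =
        ∑ k, (a j * J k j) • cV p (H207.J.mv p (fun y => y + w y) m) k := by
      intro j
      rw [map_smul]
      have e2 : Dm (H207.J.mv p fun y => y + w y) m (cV p m j) =
        ∑ k, J k j • cV p (H207.J.mv p (fun y => y + w y) m) k := h1 j
      rw [e2, Finset.smul_sum]
      exact Finset.sum_congr rfl fun k _ => by rw [smul_smul]
    simp only [e1]
    rw [Finset.sum_comm]
    refine Finset.sum_congr rfl fun k _ => ?_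
    rw [← Finset.sum_smul]
    congr 1
    unfold Matrix.mulVec dotProduct
    exact Finset.sum_congr rfl fun j _ => mul_comm _ _
  have ha' : v = ∑ j, a j • cV p m j := ha
  have hb' : v' = ∑ j, b j • cV p m j := hb
  rw [ha', hb', hD a, hD b]
  have e3 : Gm Q m (∑ j, a j • cV p m j)
      (∑ j, b j • cV p m j) = ∑ l, (∑ k, a k * gram Q.g p m k l) * b l :=
    cTensor_expand Q p m a b
  have e4 : Gm P (H207.J.mv p (fun y => y + w y) m)
      (∑ j, (J *ᵥ a) j • cV p (H207.J.mv p (fun y => y + w y) m) j)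
      (∑ j, (J *ᵥ b) j • cV p (H207.J.mv p (fun y => y + w y) m) j) =
      ∑ l, (∑ k, (J *ᵥ a) k * gram P.g p (H207.J.mv p (fun y => y + w y) m) k l) * (J *ᵥ b) l :=
    cTensor_expand P p (H207.J.mv p (fun y => y + w y) m) (J *ᵥ a) (J *ᵥ b)
  rw [e3, e4]
  set G' := (P.loc p).g (H207.J.tch (xc n p p) (fun y => y + w y) y) with hG'
  have e5 : gram P.g p (H207.J.mv p (fun y => y + w y) m) = G' := by
    rw [hmv]
    rfl
  have e6 : gram Q.g p m = Jᵀ * G' * J := hQ y hy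
  rw [e5, e6]
  have e7 : ∀ (G : Matrix (Fin n) (Fin n) ℝ) (a b : Fin n → ℝ),
      ∑ l, (∑ k, a k * G k l) * b l = a ⬝ᵥ (G *ᵥ b) := by
    intro G a b
    rw [Matrix.dotProduct_mulVec]
    rfl
  rw [e7, e7, ← Matrix.mulVec_mulVec, ← Matrix.mulVec_mulVec, Matrix.dotProduct_mulVec,
    Matrix.vecMul_transpose]

end

section

variable {n N : ℕ} [NeZero n] {M : Type u} [TopologicalSpace M]
  [ChartedSpace (EuclideanHalfSpace n) M] [IsManifold (𝓡∂ n) ∞ M] [T2Space M]
  [CompactSpace M] [ConnectedSpace M]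

/-- The conclusion of Question 1, several cells. -/
theorem related_fam {Γ : Set M} {P P' Q : Pair (at_ n M) N} (hR₀ : Related Γ P P')
    {ι : Type} [Finite ι] {p : ι → M} {Ω : ι → Set (Fin n → ℝ)} (hR : ∀ b, Rg (p b) (Ω b))
    (hdj : ∀ a b, a ≠ b → Disjoint ((xc n (p a)).symm '' vO (xc n (p a) (p a)) (Ω a))
      ((xc n (p b)).symm '' vO (xc n (p b) (p b)) (Ω b)))
    {w K : ι → (Fin n → ℝ) → Fin n → ℝ} (D : ∀ b, LR.Dif (Ω b) (w b) (K b))
    (hΓ : ∀ b, ∀ x ∈ Γ, x ∉ (xc n (p b)).symm '' vO (xc n (p b) (p b)) (Ω b))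
    (hAP : ∀ b, ∀ y ∈ vO (xc n (p b) (p b)) (Ω b), P'.A ((xc n (p b)).symm y) = 0)
    (hoff : ∀ m, (∀ b, m ∉ (xc n (p b)).symm '' vO (xc n (p b) (p b)) (Ω b)) → Q.g m = P'.g m)
    (hQ : ∀ b, ∀ y ∈ vO (xc n (p b) (p b)) (Ω b), gl Q (p b) y =
      (LR.jm (w b) (tr (xc n (p b) (p b)) y))ᵀ *
        gl P' (p b) (H207.J.tch (xc n (p b) (p b)) (fun y => y + w b y) y) *
        LR.jm (w b) (tr (xc n (p b) (p b)) y))
    (hG : Vale.Agent.P088.B.GaugeEq Γ P'.A Q.A (at_ n M)) : Related Γ P Q := by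
  classical
  haveI := Fintype.ofFinite ι
  letI := borel M
  obtain ⟨F, hF1, hF2⟩ := comp_fam
    (fun b => (xc n (p b)).symm '' vO (xc n (p b) (p b)) (Ω b)) hdj (fun b => mvD (hR b) (D b))
    (fun b m hm => ⟨mv_off (hR b) (lc_w (D b)) hm, fun v => mv_off_D (hR b) (D b) hm v⟩)
    (fun b m hm => mv_on (hR b) (lc_w (D b)) hm) Finset.univ
  have h1 : Related Γ P (mix P' Q) := by
    refine related_comp hR₀ F (fun x hx => ?_) ?_ ?_
    · exact (hF1 x fun b _ => hΓ b x hx).1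
    · intro m v v'
      rw [mix_g]
      by_cases hm : ∃ b, m ∈ (xc n (p b)).symm '' vO (xc n (p b) (p b)) (Ω b)
      · obtain ⟨b, hb⟩ := hm
        obtain ⟨e1, e2⟩ := hF2 b (Finset.mem_univ b) m hb
        rw [e1, e2, e2]
        exact mv_met_in (P := B2.one P') (Q := B2.one Q) (hR b) (D b) (hQ b) hb v v'
      · have hm' : ∀ b, m ∉ (xc n (p b)).symm '' vO (xc n (p b) (p b)) (Ω b) := fun b hb =>
          hm ⟨b, hb⟩
        obtain ⟨e1, e2⟩ := hF1 m fun b _ => hm' b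
        rw [e1, e2, e2]
        show S.bil (Q.g m) v v' = S.bil (P'.g m) v v'
        rw [hoff m hm']
    · intro m v
      rw [mix_A]
      by_cases hm : ∃ b, m ∈ (xc n (p b)).symm '' vO (xc n (p b) (p b)) (Ω b)
      · obtain ⟨b, hb⟩ := hm
        obtain ⟨e1, e2⟩ := hF2 b (Finset.mem_univ b) m hb
        rw [e1, e2]
        exact mix_con (hR b) (D b) (hAP b) m v
      · have hm' : ∀ b, m ∉ (xc n (p b)).symm '' vO (xc n (p b) (p b)) (Ω b) := fun b hb =>
          hm ⟨b, hb⟩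
        obtain ⟨e1, e2⟩ := hF1 m fun b _ => hm' b
        rw [e1, e2]
  exact related_gauge h1 hG rfl

end

end Vale.Agent.P088.HY.H794.F

end
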