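import Vale.Agent.P088.R2.H794.Fam4

/-!
# P088: local uniqueness near a rigid metric in each of finitely many cells
-/

set_option linter.all false

open Bundle Manifold MeasureTheory Set Filter Topology
open scoped ContDiff Matrix ENNReal

noncomputable section

namespace Vale.Agent.P088.HY.H794.F

open Vale.Agent.P088 Vale.Agent.P088.B Vale.Agent.P088.EYM
open Vale.Agent.P088.H207 (gl ch_at src_at gch_at IsDom inM MatchO)
open Vale.Agent.P088.H207.R
open Vale.Agent.P088.H207.J (tr tri tr_tri tri_tr tr_cd tri_cd tr_fd)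

universe u

/-- Local uniqueness near a rigid metric in each of finitely many cells. -/
theorem bg_fam {n : ℕ} [NeZero n] (hn : 3 ≤ n)
    {N : ℕ} (hN : 1 ≤ N) {M : Type u} [TopologicalSpace M]
    [ChartedSpace (EuclideanHalfSpace n) M] [IsManifold (𝓡∂ n) ∞ M] [T2Space M] [CompactSpace M]
    [ConnectedSpace M] (Z : At n M) (hZ : Z = at_ n M) (Γ O₀ : Set M) (hO₀ : IsOpen O₀)
    (hΓ : Γ = O₀ ∩ bd Z) (hne : Γ.Nonempty) (P P' Q : Pair Z N)
    (hd : Vale.Agent.P088.B.SameData Γ P Q)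
    (hR : Related Γ P P') {ι : Type} [Finite ι] (p : ι → M) {Ω : ι → Set (Fin n → ℝ)}
    {h : ι → LR.MF n} (hh : ∀ a, LR.SmM (h a)) (hhp : ∀ a y, (h a y).PosDef)
    {X : ι → LR.MF n → Prop} (hrig : ∀ a, RigO n (Ω a) (h a) (X a))
    (hp : ∀ a, IsDom Z (p a) (Ω a)) (hconf : ∀ a, MatchO (h a) P' (p a) (Ω a))
    (hdj : ∀ a b, a ≠ b → Disjoint (inM Z (p a) (Ω a)) (inM Z (p b) (Ω b)))
    (K K₁ : ι → Set (Fin n → ℝ)) (hK : ∀ a, IsCompact (K a))
    (hKK : ∀ a, K a ⊆ interior (K₁ a)) (hK₁ : ∀ a, IsCompact (K₁ a)) (hK₁Ω : ∀ a, K₁ a ⊆ Ω a)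
    (hc : IsPreconnected ((bd Z)ᶜ \ ⋃ a, inM Z (p a) (K a)))
    (hc₁ : IsPreconnected ((bd Z)ᶜ \ ⋃ a, inM Z (p a) (K₁ a)))
    (hpw : B8.PwLe (⋃ a, inM Z (p a) (K a))ᶜ Γ P' Q)
    (hU : ∃ U, B8.GaugeBy U (⋃ a, inM Z (p a) (K a))ᶜ Γ P'.A Q.A Z)
    (hX : ∀ a, ∀ g : LR.MF n, LR.SmM g → (∀ y, (g y).PosDef) →
      (∀ y ∈ Ω a, g y = gch Z Q.g (p a) (y + Z.ch (p a) (p a))) → (∀ y ∉ Ω a, g y = h a y) →
      X a g) :
    Related Γ P Q := by
  have hd' : Vale.Agent.P088.B.SameData Γ P' Q := Vale.Agent.P088.B.same_related Z hZ hO₀ hΓ hne hR hd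
  subst hZ
  obtain ⟨U, hU⟩ := hU
  letI := borel M
  haveI : BorelSpace M := ⟨rfl⟩
  obtain ⟨hrel, hok, -, -⟩ := TM.fLoc n N M
  obtain ⟨hIo, hIp, hId⟩ := TM.fConn n M
  have hRg : ∀ a, Rg (p a) (Ω a) := fun a => rg_of (hp a)
  have hb : bd (at_ n M) = (𝓡∂ n).boundary M := bd_at
  set z : ι → E n := fun a => xc n (p a) (p a) with hz
  have hKΩ : ∀ a, K a ⊆ Ω a := fun a => (hKK a).trans (interior_subset.trans (hK₁Ω a))
  have hcl : ∀ a, vO (z a) (closure (Ω a)) ⊆ tg n (p a) := fun a x hx => ((hRg a).sub x hx).1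
  have hvm : ∀ a, ∀ {S T : Set (Fin n → ℝ)}, S ⊆ T → vO (z a) S ⊆ vO (z a) T :=
    fun a _ _ hST x hx => hST hx
  have hbt : ∀ a, vO (z a) (Ω a) ⊆ tg n (p a) := fun a => vO_sub.trans (hcl a)
  have hpos : ∀ a, vO (z a) (Ω a) ⊆ {y | 0 < y 0} := fun a x hx => ((hRg a).sub x (vO_sub hx)).2
  have hKM : ∀ a, inM (at_ n M) (p a) (K a) = (xc n (p a)).symm '' vO (z a) (K a) := fun a =>
    inM_at ((hvm a (hKΩ a)).trans (hbt a))
  have hKM₁ : ∀ a, inM (at_ n M) (p a) (K₁ a) = (xc n (p a)).symm '' vO (z a) (K₁ a) := fun a =>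
    inM_at ((hvm a (hK₁Ω a)).trans (hbt a))
  have hV : ∀ a, inM (at_ n M) (p a) (Ω a) = (xc n (p a)).symm '' vO (z a) (Ω a) := fun a =>
    inM_at (hbt a)
  have hvKc : ∀ a, IsCompact (vO (z a) (K a)) := fun a => vO_compact (hK a)
  have hvK₁c : ∀ a, IsCompact (vO (z a) (K₁ a)) := fun a => vO_compact (hK₁ a)
  have hvO : ∀ a, IsOpen (vO (z a) (Ω a)) := fun a => (hRg a).op.preimage (tr_cd (z a)).continuous
  have hvKK : ∀ a, vO (z a) (K a) ⊆ interior (vO (z a) (K₁ a)) := fun a =>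
    (hvm a (hKK a)).trans (interior_maximal (hvm a interior_subset)
      (isOpen_interior.preimage (tr_cd (z a)).continuous))
  have hVH : ∀ a, vO (z a) (Ω a) ⊆ Hs n := fun a y hy => le_of_lt (show (0 : ℝ) < y 0 from hpos a hy)
  have hmi : Mi n M = (bd (at_ n M))ᶜ := by
    rw [hb, ← ModelWithCorners.compl_interior, compl_compl]
  have hcpK : ∀ a, IsCompact ((xc n (p a)).symm '' vO (z a) (K a)) := fun a =>
    (hvKc a).image_of_continuousOn ((continuousOn_extChartAt_symm (p a)).mono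
      ((hvm a (hKΩ a)).trans (hbt a)))
  have hKmi : ∀ a, (xc n (p a)).symm '' vO (z a) (K a) ⊆ Mi n M := by
    rintro a _ ⟨y, hy, rfl⟩
    exact cRungeB_mi_of_pos TM.fLoc (p a) (hbt a (hvm a (hKΩ a) hy)) (hpos a (hvm a (hKΩ a) hy))
  have hmem : ∀ a, ∀ y ∈ vO (z a) (Ω a), (xc n (p a)).symm y ∈ inM (at_ n M) (p a) (Ω a) :=
    fun a y hy => by
      rw [hV a]
      exact mem_image_of_mem _ hy
  have hchy : ∀ a, ∀ y ∈ vO (z a) (Ω a),
      (at_ n M).ch (p a) ((xc n (p a)).symm y) = WithLp.ofLp y :=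
    fun a y hy => by rw [ch_at, (xc n (p a)).right_inv (hbt a hy)]
  -- the hole
  obtain ⟨S₀, hS'⟩ : ∃ S₀ : Set M, S₀ = ⋃ a, inM (at_ n M) (p a) (K a) := ⟨_, rfl⟩
  have hSc : IsCompact S₀ := by
    rw [hS']
    exact isCompact_iUnion fun a => by rw [hKM a]; exact hcpK a
  have hSmi : S₀ ⊆ Mi n M := by
    rw [hS']
    exact iUnion_subset fun a => by rw [hKM a]; exact hKmi a
  have hole : B8.Hole U S₀ (⋃ a, inM (at_ n M) (p a) (Ω a)) Γ P' Q := by
    refine ⟨hSc.isClosed, ?_, ?_, ?_, ?_, by rw [hS']; exact hpw, by rw [hS']; exact hU⟩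
    · rw [hb, eq_empty_iff_forall_notMem]
      rintro x ⟨h1, h2⟩
      have h3 := hSmi h1
      rw [← ModelWithCorners.compl_interior] at h2
      exact h2 h3
    · have hc' := hc
      rw [← hmi, ← hS'] at hc'
      refine hc'.subset_closure (fun x hx => hx.2) fun x hx => ?_
      rw [mem_closure_iff]
      intro W hW hxW
      obtain ⟨q, ⟨hq1, hq2⟩, hqI⟩ := mem_closure_iff.1 (hId x) (W ∩ S₀ᶜ)
        (hW.inter hSc.isClosed.isOpen_compl) ⟨hxW, hx⟩
      exact ⟨q, hq1, hqI, hq2⟩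
    · refine isOpen_iUnion fun a => ?_
      rw [hV a]
      exact cRungeB_open TM.fLoc (p a)
        ⟨vO (z a) (Ω a), hvO a, (inter_eq_left.2 (hVH a)).symm⟩ (hbt a)
    · rw [hS']
      refine iUnion_mono fun a => ?_
      rw [hKM a, hV a]
      exact image_mono (hvm a (hKΩ a))
  obtain ⟨h1, -, h2⟩ := B8.hole' hn hN (at_ n M) rfl Γ O₀ hO₀ hΓ hne P' Q hd' U _ _ hole
  obtain ⟨V, hV1, -⟩ := h2 ⟨fun _ => 1, fun a b => contMDiffOn_const, fun x hx => ⟨by simp, fun j => by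
    have e1 : dM (fun y : Vale.Agent.P088.B.V n => (1 : Matrix (Fin N) (Fin N) ℂ))
        ((at_ n M).ch x x) j = 0 := by
      ext a b
      unfold dM dj
      simp
    obtain ⟨a, ha⟩ := mem_iUnion.1 hx
    rw [e1, (hconf a x ha).2, Matrix.mul_zero]
    rfl⟩⟩
  -- the second pair with the first connection
  have hgeq : Vale.Agent.P088.B.GaugeEq Γ P'.A Q.A (at_ n M) :=
    ⟨V, hV1.1, hV1.2.1, hV1.2.2.1, fun x j => hV1.2.2.2 x (mem_univ x) j⟩
  obtain ⟨W, hW, hW1, hW2⟩ := Vale.Agent.P088.B.toGauge hgeq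
  have hS : EYM.SameD (B2.one P') (EYM.O.wA (B2.one Q) (B2.one P').A) Γ :=
    (EYM.O.mg_closed n N M (EYM.O.wA (B2.one Q) (B2.one P').A) (B2.one P') Γ
      (B2.one Q).A W hW hW1 hW2).2.2 (Vale.Agent.P088.B.sameD_one hd')
  have hRB : EYM.RelBd n Γ := ⟨O₀, hO₀, by rw [hΓ, hb]⟩
  have hchp : ∀ a, (at_ n M).ch (p a) (p a) = WithLp.ofLp (z a) := fun a => ch_at (p a) (p a)
  have hgP : ∀ a, ∀ y ∈ vO (z a) (Ω a), gl P' (p a) y = h a (tr (z a) y) := by
    intro a y hy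
    have e1 := (hconf a _ (hmem a y hy)).1
    rw [hchy a y hy, gch_at P' (p a) (hbt a hy), hchp a] at e1
    exact e1
  have hA0 : ∀ a, ∀ y ∈ vO (z a) (Ω a), P'.A ((xc n (p a)).symm y) = 0 := fun a y hy =>
    (hconf a _ (hmem a y hy)).2
  have hAP : ∀ a, ∀ y ∈ vO (z a) (Ω a), ∀ i, ((B2.one P').loc (p a)).B i y = 0 := by
    intro a y hy i
    show S.formOf (P'.A ((xc n (p a)).symm y)) _ = 0
    rw [hA0 a y hy]
    show (S.formOf (0 : Fin n → Matrix (Fin N) (Fin N) ℂ)) _ = 0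
    rw [formOf_zero]
    rfl
  have hokQ : ∀ a, ((EYM.O.wA (B2.one Q) (B2.one P').A).loc (p a)).Ok (vO (z a) (Ω a)) := fun a =>
    CHarm_ok_mono (hok _ (p a)) (hbt a)
  have hdjv : ∀ a b, a ≠ b → Disjoint ((xc n (p a)).symm '' vO (z a) (Ω a))
      ((xc n (p b)).symm '' vO (z b) (Ω b)) := fun a b hab => by
    rw [← hV a, ← hV b]
    exact hdj a b hab
  have hC : Cells n p (fun a => vO (z a) (Ω a)) (fun a => vO (z a) (K a))
      (fun a => vO (z a) (K₁ a)) := by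
    refine ⟨hvO, hbt, hpos, hvKc, hvKK, hvK₁c, fun a => hvm a (hK₁Ω a), hdjv, ?_⟩
    rw [← hmi] at hc₁
    have e1 : (⋃ a, inM (at_ n M) (p a) (K₁ a)) = ⋃ a, (xc n (p a)).symm '' vO (z a) (K₁ a) :=
      iUnion_congr hKM₁
    rw [e1] at hc₁
    exact hc₁
  have hoffg : ∀ x, (∀ a, x ∉ (xc n (p a)).symm '' vO (z a) (K a)) → Q.g x = P'.g x := by
    intro x hx
    refine h1 x ?_
    rw [hS', mem_iUnion]
    rintro ⟨a, ha⟩
    rw [hKM a] at ha
    exact hx a ha
  -- one cell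
  have hcell : ∀ a, ∃ w K', ∃ D : LR.Dif (Ω a) w K', ∀ y ∈ vO (z a) (Ω a), gl Q (p a) y =
      (LR.jm w (tr (z a) y))ᵀ * gl P' (p a) (H207.J.tch (z a) (fun y => y + w y) y) *
        LR.jm w (tr (z a) y) := by
    intro a
    -- the two metrics in centred coordinates
    set y₀ : Fin n → ℝ := WithLp.ofLp (z a) with hy₀
    have htri : ∀ y : Fin n → ℝ, WithLp.ofLp (tri (z a) y) = y + y₀ := by
      intro y
      funext j
      show z a j + y j = y j + z a j
      ring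
    have htO : ∀ y ∈ Ω a, tri (z a) y ∈ vO (z a) (Ω a) := fun y hy => by
      show tr (z a) (tri (z a) y) ∈ Ω a
      rwa [tr_tri]
    set f : LR.MF n := fun y => gch (at_ n M) Q.g (p a) (y + y₀) with hf
    have hfgl : ∀ y ∈ Ω a, f y = gl Q (p a) (tri (z a) y) := by
      intro y hy
      have e1 := gch_at Q (p a) (hbt a (htO y hy))
      rw [htri] at e1
      exact e1
    have hf1 : ∀ y ∈ Ω a, y ∉ K a → f y = h a y := by
      intro y hy hy'
      have hx := htO y hy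
      have h5 : ∀ b, (xc n (p a)).symm (tri (z a) y) ∉ (xc n (p b)).symm '' vO (z b) (K b) := by
        intro b hb'
        by_cases hab : b = a
        · subst hab
          obtain ⟨x', hx', he⟩ := hb'
          have h6 : x' = tri (z b) y :=
            (xc n (p b)).symm.injOn (hbt b (hvm b (hKΩ b) hx')) (hbt b hx) he
          rw [h6] at hx'
          have h7 : tr (z b) (tri (z b) y) ∈ K b := hx'
          rw [tr_tri] at h7
          exact hy' h7
        · exact Set.disjoint_left.1 (hdjv b a hab) (image_mono (hvm b (hKΩ b)) hb')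
            (mem_image_of_mem _ hx)
      have e1 : gl Q (p a) (tri (z a) y) = gl P' (p a) (tri (z a) y) := by
        ext i j
        show S.bil (Q.g _) _ _ = S.bil (P'.g _) _ _
        rw [hoffg _ h5]
      rw [hfgl y hy, e1, hgP a _ hx, tr_tri]
    have hfs : ∀ i j, ContDiffOn ℝ ∞ (fun y => f y i j) (Ω a) := by
      intro i j
      have e2 : ContDiffOn ℝ ∞ (fun x : E n => gl Q (p a) x i j) (vO (z a) (Ω a)) :=
        (hokQ a).g_smooth i j
      refine (e2.comp (tri_cd (z a)).contDiffOn fun y hy => htO y hy).congr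
        fun y hy => ?_
      rw [hfgl y hy]
      rfl
    set g : LR.MF n := glueO (Ω a) f (h a) with hg
    have hgs : LR.SmM g := glueO_sm (hRg a).op (hK a).isClosed (hKΩ a) hfs (hh a) hf1
    have hgp : ∀ y, (g y).PosDef := by
      intro y
      by_cases hy : y ∈ Ω a
      · rw [hg, glueO_in hy, hfgl y hy]
        exact (hokQ a).g_pos _ (htO y hy)
      · rw [hg, glueO_out hy]
        exact hhp a y
    have hgQ : ∀ x ∈ vO (z a) (Ω a), g (tr (z a) x) = gl Q (p a) x := by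
      intro x hx
      rw [hg, glueO_in (show tr (z a) x ∈ Ω a from hx), hfgl _ hx, tri_tr]
    have hgPc : ∀ x ∈ vO (z a) (Ω a), h a (tr (z a) x) = gl P' (p a) x := fun x hx =>
      (hgP a x hx).symm
    have hgX : X a g := by
      refine hX a g hgs hgp (fun y hy => ?_) fun y hy => glueO_out hy
      rw [hg, glueO_in hy, hchp a]
    have hstar : LR.CF.St2 (Ω a) (LR.sg (h a)) (LR.sg g) :=
      starF (⟨0, by omega⟩ : Fin N) hC (P := B2.one P')
        (Q := EYM.O.wA (B2.one Q) (B2.one P').A) hRB hne hS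
        (fun b y hy i => hAP b y hy i) (fun b y hy i => hAP b y hy i) (fun x _ X => rfl)
        (fun x hx v w => by
          show S.bil (Q.g x) v w = S.bil (P'.g x) v w
          rw [hoffg x hx]) a (hRg a).op rfl (hh a) hgs (hhp a) hgp hgPc hgQ
    obtain ⟨w, K', D, hwK⟩ := hrig a g hgs hgp (fun y hy => glueO_out hy) hgX hstar
    refine ⟨w, K', D, fun y hy => ?_⟩
    have e1 := tch_on (lc_w D) (z := z a) hy
    have e2 : tr (z a) (H207.J.tch (z a) (fun y => y + w y) y) = tr (z a) y + w (tr (z a) y) := by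
      unfold H207.J.tch
      rw [tr_tri]
    rw [← hgQ y hy, hwK, ← hgPc _ e1, e2]
  choose w K' D hw using hcell
  refine related_fam hR hRg hdjv D ?_ hA0 ?_ hw hgeq
  · intro a x hx hx'
    rw [hΓ, hb] at hx
    obtain ⟨y, hy, rfl⟩ := hx'
    have h3 := cRungeB_mi_of_pos TM.fLoc (p a) (hbt a hy) (hpos a hy)
    have h4 := hx.2
    rw [← ModelWithCorners.compl_interior] at h4
    exact h4 h3
  · intro m hm
    exact hoffg m fun a h => hm a (image_mono (hvm a (hKΩ a)) h)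

end Vale.Agent.P088.HY.H794.F

end
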