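import Vale.Agent.P088.R2.H794.Fam5
import Vale.Agent.P088.H207.N10

/-!
# P088: neighbourhoods of finitely many cells with connected complement
-/

set_option linter.all false

open Bundle Manifold MeasureTheory Set Filter Topology
open scoped ContDiff Matrix ENNReal

noncomputable section

namespace Vale.Agent.P088.HY.H794.F

open Vale.Agent.P088 Vale.Agent.P088.B Vale.Agent.P088.EYM
open Vale.Agent.P088.H207 (IsDom inM ch_at src_at)
open Vale.Agent.P088.H207.R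
open Vale.Agent.P088.H207.J (tr tri tr_tri tri_tr tr_cd tri_cd)

universe u

variable {n : ℕ} [NeZero n] {M : Type u} [TopologicalSpace M]
  [ChartedSpace (EuclideanHalfSpace n) M] [IsManifold (𝓡∂ n) ∞ M] [T2Space M] [CompactSpace M]
  [ConnectedSpace M]

theorem nbF {ι : Type} [Finite ι] {p : ι → M} {Ω K : ι → Set (Fin n → ℝ)}
    (hp : ∀ a, IsDom (at_ n M) (p a) (Ω a)) (hK : ∀ a, IsCompact (K a)) (hKΩ : ∀ a, K a ⊆ Ω a)
    (hdj : ∀ a b, a ≠ b → Disjoint (inM (at_ n M) (p a) (Ω a)) (inM (at_ n M) (p b) (Ω b)))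
    (hc : IsPreconnected ((bd (at_ n M))ᶜ \ ⋃ a, inM (at_ n M) (p a) (K a))) :
    ∃ K₁ : ι → Set (Fin n → ℝ), (∀ a, IsCompact (K₁ a)) ∧ (∀ a, K a ⊆ interior (K₁ a)) ∧
      (∀ a, K₁ a ⊆ Ω a) ∧
      IsPreconnected ((bd (at_ n M))ᶜ \ ⋃ a, inM (at_ n M) (p a) (K₁ a)) := by
  letI := borel M
  haveI : BorelSpace M := ⟨rfl⟩
  obtain ⟨hIo, hIp, hId⟩ := TM.fConn n M
  have hRg : ∀ a, Rg (p a) (Ω a) := fun a => rg_of (hp a)
  have hb : bd (at_ n M) = (𝓡∂ n).boundary M := bd_at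
  have hmi : Mi n M = (bd (at_ n M))ᶜ := by
    rw [hb, ← ModelWithCorners.compl_interior, compl_compl]
  set z : ι → E n := fun a => xc n (p a) (p a) with hz
  have hcl : ∀ a, vO (z a) (closure (Ω a)) ⊆ tg n (p a) := fun a x hx => ((hRg a).sub x hx).1
  have hvm : ∀ a, ∀ {S T : Set (Fin n → ℝ)}, S ⊆ T → vO (z a) S ⊆ vO (z a) T :=
    fun a _ _ hST x hx => hST hx
  have hbt : ∀ a, vO (z a) (Ω a) ⊆ tg n (p a) := fun a => vO_sub.trans (hcl a)
  have hpos : ∀ a, vO (z a) (Ω a) ⊆ {y | 0 < y 0} := fun a x hx => ((hRg a).sub x (vO_sub hx)).2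
  have hVH : ∀ a, vO (z a) (Ω a) ⊆ Hs n := fun a y hy => le_of_lt (show (0 : ℝ) < y 0 from hpos a hy)
  have hvO : ∀ a, IsOpen (vO (z a) (Ω a)) := fun a => (hRg a).op.preimage (tr_cd (z a)).continuous
  have hKM : ∀ a, inM (at_ n M) (p a) (K a) = (xc n (p a)).symm '' vO (z a) (K a) := fun a =>
    inM_at ((hvm a (hKΩ a)).trans (hbt a))
  have hΩM : ∀ a, inM (at_ n M) (p a) (Ω a) = (xc n (p a)).symm '' vO (z a) (Ω a) := fun a =>
    inM_at (hbt a)
  have hKc : ∀ a, IsCompact ((xc n (p a)).symm '' vO (z a) (K a)) := fun a =>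
    (vO_compact (hK a)).image_of_continuousOn
      ((continuousOn_extChartAt_symm (p a)).mono ((hvm a (hKΩ a)).trans (hbt a)))
  have hVo : ∀ a, IsOpen ((xc n (p a)).symm '' vO (z a) (Ω a)) := fun a =>
    cRungeB_open TM.fLoc (p a) ⟨vO (z a) (Ω a), hvO a, (inter_eq_left.2 (hVH a)).symm⟩ (hbt a)
  have hVI : ∀ a, (xc n (p a)).symm '' vO (z a) (Ω a) ⊆ Mi n M := by
    rintro a _ ⟨y, hy, rfl⟩
    exact cRungeB_mi_of_pos TM.fLoc (p a) (hbt a hy) (hpos a hy)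
  have hVs : ∀ a, (xc n (p a)).symm '' vO (z a) (Ω a) ⊆ (xc n (p a)).source := by
    rintro a _ ⟨y, hy, rfl⟩
    exact (xc n (p a)).map_target (hbt a hy)
  have hdjv : ∀ a b, a ≠ b → Disjoint ((xc n (p a)).symm '' vO (z a) (Ω a))
      ((xc n (p b)).symm '' vO (z b) (Ω b)) := fun a b hab => by
    rw [← hΩM a, ← hΩM b]
    exact hdj a b hab
  have e0 : (⋃ a, inM (at_ n M) (p a) (K a)) = ⋃ a, (xc n (p a)).symm '' vO (z a) (K a) :=
    iUnion_congr hKM
  rw [e0, ← hmi] at hc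
  have hSc : IsCompact (⋃ a, (xc n (p a)).symm '' vO (z a) (K a)) := isCompact_iUnion hKc
  obtain ⟨K₃, hK₃, g1, g2, g3⟩ := nbT hIp hIo hSc (isOpen_iUnion hVo)
    (iUnion_mono fun a => image_mono (hvm a (hKΩ a))) (iUnion_subset hVI) hc
    fun x hx => loc_int (hIo.sdiff hSc.isClosed) sdiff_subset hx
  -- the part in one cell
  have hT : ∀ a, IsCompact (K₃ ∩ (xc n (p a)).symm '' vO (z a) (Ω a)) := by
    intro a
    have e1 : K₃ ∩ (xc n (p a)).symm '' vO (z a) (Ω a) =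
        K₃ \ ⋃ b : {b // b ≠ a}, (xc n (p b.1)).symm '' vO (z b.1) (Ω b.1) := by
      ext m
      constructor
      · rintro ⟨h1, h2⟩
        refine ⟨h1, fun h => ?_⟩
        obtain ⟨⟨b, hb'⟩, h3⟩ := mem_iUnion.1 h
        exact Set.disjoint_left.1 (hdjv b a hb') h3 h2
      · rintro ⟨h1, h2⟩
        refine ⟨h1, ?_⟩
        obtain ⟨b, hb'⟩ := mem_iUnion.1 (g2 h1)
        by_cases hab : b = a
        · subst hab
          exact hb'
        · exact (h2 (mem_iUnion.2 ⟨⟨b, hab⟩, hb'⟩)).elim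
    rw [e1]
    exact hK₃.diff (isOpen_iUnion fun b => hVo b.1)
  have hc3 : ∀ a, ContinuousOn (fun m => tr (z a) (xc n (p a) m))
      (K₃ ∩ (xc n (p a)).symm '' vO (z a) (Ω a)) := fun a =>
    (tr_cd (z a)).continuous.comp_continuousOn
      ((continuousOn_extChartAt (p a)).mono (inter_subset_right.trans (hVs a)))
  have hto : ∀ a, ∀ y ∈ Ω a, tri (z a) y ∈ vO (z a) (Ω a) := fun a y hy => by
    show tr (z a) (tri (z a) y) ∈ Ω a
    rwa [tr_tri]
  have hKΩ₁ : ∀ a, (fun m => tr (z a) (xc n (p a) m)) ''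
      (K₃ ∩ (xc n (p a)).symm '' vO (z a) (Ω a)) ⊆ Ω a := by
    rintro a _ ⟨m, ⟨-, hm⟩, rfl⟩
    obtain ⟨y, hy, rfl⟩ := hm
    show tr (z a) (xc n (p a) ((xc n (p a)).symm y)) ∈ Ω a
    rw [(xc n (p a)).right_inv (hbt a hy)]
    exact hy
  have e1 : ∀ a, inM (at_ n M) (p a) ((fun m => tr (z a) (xc n (p a) m)) ''
      (K₃ ∩ (xc n (p a)).symm '' vO (z a) (Ω a))) =
      K₃ ∩ (xc n (p a)).symm '' vO (z a) (Ω a) := by
    intro a
    rw [inM_at ((hvm a (hKΩ₁ a)).trans (hbt a))]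
    ext m
    constructor
    · rintro ⟨x, ⟨m', hm', hx⟩, rfl⟩
      have h5 : xc n (p a) m' = x := by
        have h6 := congrArg (tri (z a)) hx
        rwa [tri_tr, tri_tr] at h6
      rw [← h5, (xc n (p a)).left_inv (hVs a hm'.2)]
      exact hm'
    · intro hm
      exact ⟨xc n (p a) m, ⟨m, hm, rfl⟩, (xc n (p a)).left_inv (hVs a hm.2)⟩
  refine ⟨fun a => (fun m => tr (z a) (xc n (p a) m)) ''
      (K₃ ∩ (xc n (p a)).symm '' vO (z a) (Ω a)), fun a => (hT a).image_of_continuousOn (hc3 a),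
    fun a => ?_, hKΩ₁, ?_⟩
  · have hcs : ContinuousOn (fun y => (xc n (p a)).symm (tri (z a) y)) (Ω a) :=
      (continuousOn_extChartAt_symm (p a)).comp (tri_cd (z a)).continuous.continuousOn
        fun y hy => hbt a (hto a y hy)
    have ho : IsOpen (Ω a ∩ (fun y => (xc n (p a)).symm (tri (z a) y)) ⁻¹' interior K₃) :=
      hcs.isOpen_inter_preimage (hRg a).op isOpen_interior
    refine Subset.trans (fun y hy => ?_) (interior_maximal (fun y hy => ?_) ho)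
    · refine ⟨hKΩ a hy, g1 (mem_iUnion.2 ⟨a, tri (z a) y, ?_, rfl⟩)⟩
      show tr (z a) (tri (z a) y) ∈ K a
      rwa [tr_tri]
    · refine ⟨(xc n (p a)).symm (tri (z a) y),
        ⟨interior_subset hy.2, mem_image_of_mem _ (hto a y hy.1)⟩, ?_⟩
      show tr (z a) (xc n (p a) ((xc n (p a)).symm (tri (z a) y))) = y
      rw [(xc n (p a)).right_inv (hbt a (hto a y hy.1)), tr_tri]
  · have e2 : (⋃ a, inM (at_ n M) (p a) ((fun m => tr (z a) (xc n (p a) m)) ''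
        (K₃ ∩ (xc n (p a)).symm '' vO (z a) (Ω a)))) = K₃ := by
      rw [iUnion_congr e1, ← inter_iUnion]
      exact inter_eq_left.2 g2
    rw [e2, ← hmi]
    exact g3

end Vale.Agent.P088.HY.H794.F

end
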