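import Vale.Agent.P088.R2.H794.Fam2
import Vale.Agent.P088.H207.L3
import Vale.Agent.P088.R2.H455.J.K1

/-!
# P088: several cells, the orthogonality relation of two pairs in each cell
-/

set_option linter.all false

open Bundle Manifold MeasureTheory Set Filter Topology
open scoped ContDiff Matrix ENNReal

noncomputable section

namespace Vale.Agent.P088.HY.H794.F

open Vale.Agent.P088 Vale.Agent.P088.EYM Vale.Agent.P088.EYM.O Vale.Agent.P088.H207
open Vale.Agent.P088.H207.R (grad_estK)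
open Vale.Agent.P088.H207.L (tend_int bnd ed_one)

universe u

section

variable {n N : ℕ} [NeZero n] {M : Type u} [TopologicalSpace M]
  [ChartedSpace (EuclideanHalfSpace n) M] [IsManifold (𝓡∂ n) ∞ M] [T2Space M] [CompactSpace M]
  [MeasurableSpace M] [BorelSpace M] [ConnectedSpace M]

/-- Convergence in `L²` of solutions implies convergence of the energies on a compact set. -/
theorem ed_lim {P Q : One n N M} {Γ : Set M} {p : M} {V K K₁ : Set (E n)} (hV : IsOpen V)
    (hbt : V ⊆ tg n p) (hpos : V ⊆ {y | 0 < y 0}) (hK : IsCompact K) (hKK : K ⊆ interior K₁)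
    (hK₁ : IsCompact K₁) (hK₁V : K₁ ⊆ V) {uk wk : ℕ → M → Fib N} (huk : ∀ k, uk k ∈ P.U Γ)
    (hwk : ∀ k, wk k ∈ Q.U Γ) {F G : E n → Fib N} (hF : Sol (P.loc p) V F)
    (hG : Sol (Q.loc p) V G)
    (hlu : Tendsto (fun k => ∫ y in K₁, ‖lu (𝓡∂ n) p (uk k) y - F y‖ ^ 2) atTop (𝓝 0))
    (hlw : Tendsto (fun k => ∫ y in K₁, ‖lu (𝓡∂ n) p (wk k) y - G y‖ ^ 2) atTop (𝓝 0)) :
    ∀ T : One n N M, (Tendsto (fun k => ∫ y in K,
        ed (T.loc p) (lu (𝓡∂ n) p (wk k)) (lu (𝓡∂ n) p (uk k)) y) atTop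
        (𝓝 (∫ y in K, ed (T.loc p) G F y))) ∧
      ∀ k, IntegrableOn (ed (T.loc p) (lu (𝓡∂ n) p (wk k)) (lu (𝓡∂ n) p (uk k))) K := by
  obtain ⟨hrel, hok, hbdy, hsm⟩ := TM.fLoc n N M
  have hbH : V ⊆ Hs n := fun y hy => le_of_lt (show 0 < y 0 from hpos hy)
  have hbr : RelOpen V := CHarm_relOpen_of_open hV hbH
  have hKR : K ⊆ V := hKK.trans (interior_subset.trans hK₁V)
  have hokP : (P.loc p).Ok V := CHarm_ok_mono (hok P p) hbt
  have hokQ : (Q.loc p).Ok V := CHarm_ok_mono (hok Q p) hbt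
  obtain ⟨C, hC⟩ := grad_estK n N (P.loc p) hK hKK hK₁ hK₁V hV hokP hbH
  obtain ⟨C', hC'⟩ := grad_estK n N (Q.loc p) hK hKK hK₁ hK₁V hV hokQ hbH
  set I : ℕ → ℝ := fun k => C * ∫ y in K₁, ‖lu (𝓡∂ n) p (uk k) y - F y‖ ^ 2
  set I' : ℕ → ℝ := fun k => C' * ∫ y in K₁, ‖lu (𝓡∂ n) p (wk k) y - G y‖ ^ 2
  have hI : Tendsto I atTop (𝓝 0) := by
    have := hlu.const_mul C
    rwa [mul_zero] at this
  have hI' : Tendsto I' atTop (𝓝 0) := by
    have := hlw.const_mul C'
    rwa [mul_zero] at this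
  have he : Tendsto (fun k => √(I k) + √(I' k)) atTop (𝓝 0) := by
    have h1 := (Real.continuous_sqrt.tendsto 0).comp hI
    have h2 := (Real.continuous_sqrt.tendsto 0).comp hI'
    rw [Real.sqrt_zero] at h1 h2
    have := h1.add h2
    rwa [add_zero] at this
  have husol : ∀ k, Sol (P.loc p) V (lu (𝓡∂ n) p (uk k)) := by
    intro k
    obtain ⟨f, hf, hu⟩ := huk k
    have h1 := TM.fHarm n N M P f (uk k) hu p
    exact ⟨h1.1.mono hbt, fun x hx => h1.2 x (hbt hx)⟩
  have hwsol : ∀ k, Sol (Q.loc p) V (lu (𝓡∂ n) p (wk k)) := by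
    intro k
    obtain ⟨f, hf, hu⟩ := hwk k
    have h1 := TM.fHarm n N M Q f (wk k) hu p
    exact ⟨h1.1.mono hbt, fun x hx => h1.2 x (hbt hx)⟩
  have hpdsub : ∀ {u v : E n → Fib N}, ContDiffOn ℝ ∞ u V →
      ContDiffOn ℝ ∞ v V → ∀ j, ∀ y ∈ V,
      pd j (fun y => u y - v y) y = pd j u y - pd j v y := by
    intro u v hu hv j y hy
    rw [cRunge_pd (hpos hy), cRunge_pd (hpos hy), cRunge_pd (hpos hy), fderiv_fun_sub
      ((hu.contDiffAt (hV.mem_nhds hy)).differentiableAt (by simp))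
      ((hv.contDiffAt (hV.mem_nhds hy)).differentiableAt (by simp))]
    rfl
  have hEu : ∀ k, ∀ y ∈ K,
      ‖lu (𝓡∂ n) p (uk k) y - F y‖ + ∑ j, ‖pd j (fun y => lu (𝓡∂ n) p (uk k) y - F y) y‖ ≤
        √(I k) + √(I' k) := fun k y hy =>
    (Real.le_sqrt_of_sq_le (hC _ (cClosed_sol_sub hbr hokP (husol k) hF) y hy)).trans
      (le_add_of_nonneg_right (Real.sqrt_nonneg _))
  have hEw : ∀ k, ∀ y ∈ K,
      ‖lu (𝓡∂ n) p (wk k) y - G y‖ + ∑ j, ‖pd j (fun y => lu (𝓡∂ n) p (wk k) y - G y) y‖ ≤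
        √(I k) + √(I' k) := fun k y hy =>
    (Real.le_sqrt_of_sq_le (hC' _ (cClosed_sol_sub hbr hokQ (hwsol k) hG) y hy)).trans
      (le_add_of_nonneg_left (Real.sqrt_nonneg _))
  intro T
  have hT : (T.loc p).Ok V := CHarm_ok_mono (hok T p) hbt
  refine ⟨?_, fun k => ?_⟩
  · obtain ⟨B, hB0, hB⟩ := bnd hT hK hKR
    have he' : Tendsto (fun k => (1 + B) * (√(I k) + √(I' k))) atTop (𝓝 0) := by
      have := he.const_mul (1 + B)
      rwa [mul_zero] at this
    have hnc : ∀ {u : E n → Fib N}, ContDiffOn ℝ ∞ u V → ∀ j,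
        ContinuousOn (nab (T.loc p) j u) (K) := fun hu j =>
      ((CNear_nab_smooth hbr hT hu j).continuousOn).mono hKR
    have hnd : ∀ {u v : E n → Fib N} {e : ℝ}, ContDiffOn ℝ ∞ u V →
        ContDiffOn ℝ ∞ v V → ∀ y ∈ K,
        ‖u y - v y‖ + ∑ j, ‖pd j (fun y => u y - v y) y‖ ≤ e → ∀ j,
        ‖nab (T.loc p) j u y - nab (T.loc p) j v y‖ ≤ (1 + B) * e := by
      intro u v e hu hv y hy h j
      have e1 : nab (T.loc p) j u y - nab (T.loc p) j v y =
          pd j (fun y => u y - v y) y + (T.loc p).B j y (u y - v y) := by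
        rw [hpdsub hu hv j y (hKR hy), map_sub]
        unfold nab
        abel
      have e2 : ‖pd j (fun y => u y - v y) y‖ ≤ ∑ j, ‖pd j (fun y => u y - v y) y‖ :=
        Finset.single_le_sum (f := fun j => ‖pd j (fun y => u y - v y) y‖)
          (fun _ _ => norm_nonneg _) (Finset.mem_univ j)
      have e3 : ‖(T.loc p).B j y (u y - v y)‖ ≤ B * ‖u y - v y‖ :=
        ((T.loc p).B j y).le_of_opNorm_le (hB j y hy) _
      have e4 : 0 ≤ ∑ j, ‖pd j (fun y => u y - v y) y‖ :=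
        Finset.sum_nonneg fun _ _ => norm_nonneg _
      have e5 := norm_nonneg (u y - v y)
      rw [e1]
      refine (norm_add_le _ _).trans ?_
      have e6 : B * ‖u y - v y‖ ≤ B * e := by
        refine mul_le_mul_of_nonneg_left ?_ hB0
        linarith
      nlinarith
    simp only [ed_one]
    refine tend_int hK
      (a := fun j k y => (gg (T.loc p).g j k y : ℂ))
      (f := fun j => nab (T.loc p) j F) (g := fun j => nab (T.loc p) j G)
      (fk := fun k j => nab (T.loc p) j (lu (𝓡∂ n) p (uk k)))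
      (gk := fun k j => nab (T.loc p) j (lu (𝓡∂ n) p (wk k))) (fun j l => ?_)
      (fun j => hnc hF.1 j) (fun j => hnc hG.1 j) (fun k j => hnc (husol k).1 j)
      (fun k j => hnc (hwsol k).1 j) he' ?_ ?_
    · exact Complex.continuous_ofReal.comp_continuousOn
        (((hbr.gg_smooth hT.g_smooth hT.g_pos j l).continuousOn).mono hKR)
    · exact fun k j y hy => hnd (husol k).1 hF.1 y hy (hEu k y hy) j
    · exact fun k j y hy => hnd (hwsol k).1 hG.1 y hy (hEw k y hy) j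
  · refine ContinuousOn.integrableOn_compact hK ?_
    have hnc : ∀ {u : E n → Fib N}, ContDiffOn ℝ ∞ u V → ∀ j,
        ContinuousOn (nab (T.loc p) j u) (K) := fun hu j =>
      ((CNear_nab_smooth hbr hT hu j).continuousOn).mono hKR
    refine continuousOn_finset_sum _ fun j _ => continuousOn_finset_sum _ fun l _ =>
      ContinuousOn.mul ?_ ((hnc (hwsol k).1 j).inner (𝕜 := ℂ) (hnc (husol k).1 l))
    exact Complex.continuous_ofReal.comp_continuousOn
      (((hbr.gg_smooth hT.g_smooth hT.g_pos j l).continuousOn).mono hKR)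

/-- The orthogonality relation of two pairs in each cell. -/
theorem orthGF {ι : Type} [Finite ι] {p : ι → M} {V K K₁ : ι → Set (E n)}
    (C : Cells n p V K K₁) {P Q : One n N M} {Γ : Set M} (hΓ : RelBd n Γ)
    (hne : Γ.Nonempty) (hS : SameD P Q Γ)
    (hA : ∀ m, (∀ b, m ∉ (xc n (p b)).symm '' K b) → ∀ X : TangentSpace (𝓡∂ n) m,
      P.A.form m X = Q.A.form m X)
    (hg : ∀ m, (∀ b, m ∉ (xc n (p b)).symm '' K b) → ∀ v w : TangentSpace (𝓡∂ n) m,
      Q.g.inner m v w = P.g.inner m v w)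
    (a : ι) {F G : E n → Fib N} (hF : Sol (P.loc (p a)) (V a) F)
    (hG : Sol (Q.loc (p a)) (V a) G) :
    ∫ y in K a, ed (Q.loc (p a)) G F y = ∫ y in K a, ed (P.loc (p a)) G F y := by
  classical
  haveI := Fintype.ofFinite ι
  obtain ⟨⟨hsP, hsQ, -⟩, -⟩ := Vale.Agent.P088.EYM.cData TM.fUniq TM.fForm n N M P Q Γ hΓ hne hS
  set vF : ι → E n → Fib N := fun b => if b = a then F else fun _ => 0 with hvF
  set vG : ι → E n → Fib N := fun b => if b = a then G else fun _ => 0 with hvG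
  have hF0 : ∀ b, b ≠ a → vF b = fun _ => 0 := fun b hb => by simp [hvF, hb]
  have hG0 : ∀ b, b ≠ a → vG b = fun _ => 0 := fun b hb => by simp [hvG, hb]
  have hFa : vF a = F := by simp [hvF]
  have hGa : vG a = G := by simp [hvG]
  obtain ⟨uk, huk, hlu⟩ := runge_one C hΓ hne hsP a hF0 (hFa ▸ hF.1) (hFa ▸ hF.2)
  obtain ⟨wk, hwk, hlw⟩ := runge_one C hΓ hne hsQ a hG0 (hGa ▸ hG.1) (hGa ▸ hG.2)
  have hKR : ∀ b, K b ⊆ V b := fun b => (C.kk b).trans (interior_subset.trans (C.kV b))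
  have hnz : ∀ (R : One n N M) b, ∀ k : Fin n,
      nab (R.loc (p b)) k (fun _ => (0 : Fib N)) = fun _ => 0 := by
    intro R b k
    funext y
    simp [nab, pd_const]
  have hz : ∀ (R : One n N M) b, Sol (R.loc (p b)) (V b) (fun _ => (0 : Fib N)) := by
    intro R b
    refine ⟨contDiffOn_const, fun x hx => ?_⟩
    have e4 : ∀ j : Fin n, flux (R.loc (p b)) j (fun _ => (0 : Fib N)) = fun _ => 0 := by
      intro j
      funext y
      simp [flux, hnz R b]
    simp [Lop, e4, pd_const]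
  have hFs : ∀ b, Sol (P.loc (p b)) (V b) (vF b) := fun b => by
    by_cases hb : b = a
    · subst hb
      rw [hFa]
      exact hF
    · rw [hF0 b hb]
      exact hz P b
  have hGs : ∀ b, Sol (Q.loc (p b)) (V b) (vG b) := fun b => by
    by_cases hb : b = a
    · subst hb
      rw [hGa]
      exact hG
    · rw [hG0 b hb]
      exact hz Q b
  have hlim := fun b => ed_lim (C.op b) (C.tg b) (C.pos b) (C.cK b) (C.kk b) (C.cK₁ b) (C.kV b)
    huk hwk (hFs b) (hGs b) (hlu b) (hlw b)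
  have hdjK : ∀ a b, a ≠ b →
      Disjoint ((xc n (p a)).symm '' K a) ((xc n (p b)).symm '' K b) := fun a b hab =>
    (C.dj a b hab).mono (image_mono (hKR a)) (image_mono (hKR b))
  have hsum := tendsto_finset_sum (Finset.univ : Finset ι) fun b _ =>
    ((hlim b Q).1.sub (hlim b P).1)
  have h0 : ∀ k, ∑ b, ((∫ y in K b,
        ed (Q.loc (p b)) (lu (𝓡∂ n) (p b) (wk k)) (lu (𝓡∂ n) (p b) (uk k)) y) -
      ∫ y in K b,
        ed (P.loc (p b)) (lu (𝓡∂ n) (p b) (wk k)) (lu (𝓡∂ n) (p b) (uk k)) y) = 0 := by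
    intro k
    obtain ⟨f, hf, hu⟩ := huk k
    obtain ⟨h, hh, hw⟩ := hwk k
    have h1 := en_diffF P Q C.cK (fun b => (hKR b).trans (C.tg b)) hdjK hA hg hu.smooth hw.smooth
      (en_eq hΓ hne hS (huk k) (hwk k))
    rw [← h1]
    refine Finset.sum_congr rfl fun b _ => ?_
    rw [integral_sub ((hlim b Q).2 k) ((hlim b P).2 k)]
  simp only [h0] at hsum
  have h3 := tendsto_nhds_unique tendsto_const_nhds hsum
  rw [Finset.sum_eq_single a] at h3
  · rw [hFa, hGa] at h3
    exact (sub_eq_zero.1 h3.symm)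
  · intro b _ hb
    have e1 : ∀ T : One n N M, ∀ y, ed (T.loc (p b)) (vG b) (vF b) y = 0 := by
      intro T y
      rw [hF0 b hb]
      unfold ed
      simp [hnz T b]
    simp only [e1, integral_zero, sub_self]
  · intro h
    exact (h (Finset.mem_univ a)).elim

end

end Vale.Agent.P088.HY.H794.F

end
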