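import Vale.Agent.P088.R2.H794.FamU1

/-!
# P088: several cells, the orthogonality relation on `ℝ^n`
-/

set_option linter.all false

open Bundle Manifold MeasureTheory Set Filter Topology
open scoped ContDiff Matrix ENNReal

noncomputable section

namespace Vale.Agent.P088.HY.H794.F

open Vale.Agent.P088 Vale.Agent.P088.EYM Vale.Agent.P088.EYM.O Vale.Agent.P088.H207
open Vale.Agent.P088.H207.L (sec sec_cd sec_fd sec_pd sec_lop sec_ed fea fea_cont)
open Vale.Agent.P088.H207.J (tr tri tr_tri tri_tr tr_cd tri_cd tr_fd int_tr)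

universe u

section

variable {n N : ℕ} [NeZero n] {M : Type u} [TopologicalSpace M]
  [ChartedSpace (EuclideanHalfSpace n) M] [IsManifold (𝓡∂ n) ∞ M] [T2Space M] [CompactSpace M]
  [MeasurableSpace M] [BorelSpace M] [ConnectedSpace M]

/-- Equal data on `M` give the orthogonality relation of the two pairs in each cell. -/
theorem orU_F {ι : Type} [Finite ι] {p : ι → M} {V K K₁ : ι → Set (E n)}
    (C : Cells n p V K K₁) {P Q : One n N M} {Γ : Set M} (hΓ : RelBd n Γ)
    (hne : Γ.Nonempty) (hS : SameD P Q Γ)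
    (hA : ∀ m, (∀ b, m ∉ (xc n (p b)).symm '' K b) → ∀ X : TangentSpace (𝓡∂ n) m,
      P.A.form m X = Q.A.form m X)
    (hg : ∀ m, (∀ b, m ∉ (xc n (p b)).symm '' K b) → ∀ v w : TangentSpace (𝓡∂ n) m,
      Q.g.inner m v w = P.g.inner m v w)
    (a : ι) {Ω : Set (Fin n → ℝ)} (hΩ : IsOpen Ω) (hΩb : Bornology.IsBounded Ω)
    (hVΩ : V a = {x | tr (xc n (p a) (p a)) x ∈ Ω})
    {g₁ g₂ : LR.MF n} (hg₁ : LR.SmM g₁) (hg₂ : LR.SmM g₂) (hp₁ : ∀ y, (g₁ y).PosDef)
    (hp₂ : ∀ y, (g₂ y).PosDef)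
    (hgP : ∀ x ∈ V a, g₁ (tr (xc n (p a) (p a)) x) = (P.loc (p a)).g x)
    (hgQ : ∀ x ∈ V a, g₂ (tr (xc n (p a) (p a)) x) = (Q.loc (p a)).g x)
    {A₁ A₂ : LR.Cn n N} (hA₁ : LR.SmU A₁) (hA₂ : LR.SmU A₂)
    (hBP : ∀ x ∈ V a, ∀ i, (P.loc (p a)).B i x = S.toE (A₁ i (tr (xc n (p a) (p a)) x)))
    (hBQ : ∀ x ∈ V a, ∀ i, (Q.loc (p a)).B i x = S.toE (A₂ i (tr (xc n (p a) (p a)) x))) :
    LR.U.OrU Ω (LR.sg g₁) A₁ (LR.sg g₂) A₂ := by
  set z : E n := xc n (p a) (p a) with hz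
  have hV : IsOpen (V a) := C.op a
  have hbt := C.tg a
  have hpos := C.pos a
  have hmV' : ∀ x, tr z x ∈ Ω ↔ x ∈ V a := fun x => by rw [hVΩ]; rfl
  have hKV : ∀ b, K b ⊆ V b := fun b => (C.kk b).trans (interior_subset.trans (C.kV b))
  have hKR : K a ⊆ V a := hKV a
  have hK := C.cK a
  have hs₁ : LR.SmM (LR.sg g₁) := H833.smM_sg hg₁ hp₁
  have hs₂ : LR.SmM (LR.sg g₂) := H833.smM_sg hg₂ hp₂
  have hsy₁ := H833.symm_sg hp₁
  have hsy₂ := H833.symm_sg hp₂
  have hgg₁ : ∀ x ∈ V a, ∀ j k,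
      gg (P.loc (p a)).g j k x = LR.sg g₁ (tr z x) j k := by
    intro x hx j k
    unfold LR.sg gg
    rw [hgP x hx]
    rfl
  have hgg₂ : ∀ x ∈ V a, ∀ j k,
      gg (Q.loc (p a)).g j k x = LR.sg g₂ (tr z x) j k := by
    intro x hx j k
    unfold LR.sg gg
    rw [hgQ x hx]
    rfl
  intro u v hu hv hue hve
  have hF : Sol (P.loc (p a)) (V a) (sec z u) := by
    refine ⟨(sec_cd hu).contDiffOn, fun x hx => ?_⟩
    rw [sec_lop hV hpos hs₁ hA₁ hBP hgg₁ hu hx]
    unfold sec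
    simp only
    rw [hue _ ((hmV' x).2 hx)]
    rfl
  have hG : Sol (Q.loc (p a)) (V a) (sec z v) := by
    refine ⟨(sec_cd hv).contDiffOn, fun x hx => ?_⟩
    rw [sec_lop hV hpos hs₂ hA₂ hBQ hgg₂ hv hx]
    unfold sec
    simp only
    rw [hve _ ((hmV' x).2 hx)]
    rfl
  have h0 := orthGF C hΓ hne hS hA hg a hF hG
  have he₁ : ∀ x ∈ V a, ed (P.loc (p a)) (sec z v) (sec z u) x =
      fea (LR.sg g₁) A₁ u v (tr z x) := fun x hx =>
    sec_ed hsy₁ (hpos hx) (hBP x hx) (hgg₁ x hx) rfl hu hv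
  have he₂ : ∀ x ∈ V a, ed (Q.loc (p a)) (sec z v) (sec z u) x =
      fea (LR.sg g₂) A₂ u v (tr z x) := fun x hx =>
    sec_ed hsy₂ (hpos hx) (hBQ x hx) (hgg₂ x hx) rfl hu hv
  have hc₁ := fea_cont hs₁ hA₁ hu hv
  have hc₂ := fea_cont hs₂ hA₂ hu hv
  rw [setIntegral_congr_fun hK.measurableSet (fun y hy => he₁ y (hKR hy)),
    setIntegral_congr_fun hK.measurableSet (fun y hy => he₂ y (hKR hy))] at h0
  set f : (Fin n → ℝ) → ℂ := fun y => fea (LR.sg g₂) A₂ u v y - fea (LR.sg g₁) A₁ u v y with hf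
  have hfc : Continuous f := hc₂.sub hc₁
  have hcl : Continuous fun x : E n => tr z x := (tr_cd z).continuous
  have hfz : ∀ x ∈ V a, x ∉ K a → f (tr z x) = 0 := by
    intro x hx hxρ
    have h5 : ∀ b, (xc n (p a)).symm x ∉ (xc n (p b)).symm '' K b := by
      intro b hb
      by_cases hab : a = b
      · subst hab
        obtain ⟨x', hx', he⟩ := hb
        have h6 : x' = x := (xc n (p a)).symm.injOn (hbt (hKR hx')) (hbt hx) he
        exact hxρ (h6 ▸ hx')
      · exact Set.disjoint_left.1 (C.dj a b hab) (mem_image_of_mem _ hx)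
          (image_mono (hKV b) hb)
    have h6 : g₂ (tr z x) = g₁ (tr z x) := by
      rw [hgQ x hx, hgP x hx]
      ext i j
      exact hg _ h5 _ _
    have h7 : LR.sg g₂ (tr z x) = LR.sg g₁ (tr z x) := by
      unfold LR.sg
      rw [h6]
    have h8 : ∀ i, A₂ i (tr z x) = A₁ i (tr z x) := by
      intro i
      apply S.toE_inj
      rw [← hBP x hx i, ← hBQ x hx i]
      exact (hA _ h5 _).symm
    rw [hf]
    simp only
    unfold fea LR.cd
    simp only [h7, h8, sub_self]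
  -- change of variables
  have h1 : ∫ x in V a, f (tr z x) = 0 := by
    have e1 : ∫ x in K a, f (tr z x) = 0 := by
      rw [hf]
      simp only
      rw [integral_sub]
      · rw [h0, sub_self]
      · exact ((hc₂.comp hcl).continuousOn).integrableOn_compact hK
      · exact ((hc₁.comp hcl).continuousOn).integrableOn_compact hK
    rw [← e1]
    refine setIntegral_eq_of_subset_of_forall_diff_eq_zero hV.measurableSet hKR ?_
    intro x hx
    exact hfz x hx.1 hx.2
  have h2 : ∫ x, Ω.indicator f (tr z x) = ∫ x in V a, f (tr z x) := by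
    rw [← integral_indicator hV.measurableSet]
    refine integral_congr_ae (Eventually.of_forall fun x => ?_)
    by_cases hx : x ∈ V a
    · simp only [indicator_of_mem hx, indicator_of_mem ((hmV' x).2 hx)]
    · have hx' : tr z x ∉ Ω := fun h => hx ((hmV' x).1 h)
      simp only [indicator_of_notMem hx, indicator_of_notMem hx']
  rw [h1, int_tr z] at h2
  rw [integral_indicator hΩ.measurableSet] at h2
  have hi : ∀ {h : (Fin n → ℝ) → ℂ}, Continuous h → IntegrableOn h Ω := fun hh =>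
    (hh.continuousOn.integrableOn_compact (Metric.isCompact_of_isClosed_isBounded
      isClosed_closure hΩb.closure)).mono_set subset_closure
  rw [hf, integral_sub (hi hc₂) (hi hc₁)] at h2
  exact (sub_eq_zero.1 h2).symm

end

end Vale.Agent.P088.HY.H794.F

end
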