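import Vale.Agent.P088.R2.H794.FamU2
import Vale.Agent.P088.R2.H794.Fam4
import Vale.Agent.P088.R2.H455.J.K2

/-!
# P088: several cells, gauges and connections
-/

set_option linter.all false

open Bundle Manifold MeasureTheory Set Filter Topology
open scoped ContDiff Matrix ENNReal

noncomputable section

namespace Vale.Agent.P088.HY.H794.F

open Vale.Agent.P088 Vale.Agent.P088.B Vale.Agent.P088.EYM Vale.Agent.P088.EYM.O
open Vale.Agent.P088.H207 (Dm cV Gm Am)
open Vale.Agent.P088.H207.R (vO vO_sub Rg cbO cb_src lc_w lc_K tch_on mvD mv_off mv_off_D mv_smooth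
  mv_jac)
open Vale.Agent.P088.H207.L (gU gU_src gU_nsrc ue ue_cd ue_fd)
open Vale.Agent.P088.H207.J (tr tri tr_tri tri_tr tr_cd tri_cd tr_fd int_tr)
open Vale.Agent.P088.R2.H455.J (gU_off gU_d gU_d_off gU_uni gU_smooth)

universe u

section

variable {n N : ℕ} [NeZero n] {M : Type u} [TopologicalSpace M]
  [ChartedSpace (EuclideanHalfSpace n) M] [IsManifold (𝓡∂ n) ∞ M] [T2Space M] [CompactSpace M]
  [ConnectedSpace M]

/-- The product of gauges supported in disjoint sets. -/
theorem gauge_fam {ι : Type} (T : ι → Set M) (hdj : ∀ a b, a ≠ b → Disjoint (T a) (T b))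
    (W : ι → M → EndF N) (hW : ∀ b, IsSmoothUnitary (𝓡∂ n) (W b))
    (hoff : ∀ b m, m ∉ T b → W b m = 1 ∧ ∀ v : E n, (dmap (𝓡∂ n) (W b) m v : EndF N) = 0)
    (S : Finset ι) :
    ∃ V : M → EndF N, IsSmoothUnitary (𝓡∂ n) V ∧
      (∀ m, (∀ b ∈ S, m ∉ T b) → V m = 1 ∧ ∀ v : E n, (dmap (𝓡∂ n) V m v : EndF N) = 0) ∧
      ∀ b ∈ S, ∀ m ∈ T b, V m = W b m ∧
        ∀ v : E n, (dmap (𝓡∂ n) V m v : EndF N) = dmap (𝓡∂ n) (W b) m v := by
  classical
  letI := borel M
  haveI : BorelSpace M := ⟨rfl⟩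
  induction S using Finset.induction_on with
  | empty =>
    refine ⟨fun _ => 1, ⟨contMDiff_const, fun _ => one_mem _⟩, fun m _ => ⟨rfl, fun v => ?_⟩,
      fun b hb => ?_⟩
    · unfold dmap
      rw [mfderiv_const]
      rfl
    · exact absurd hb (Finset.notMem_empty b)
  | insert c S hc ih =>
    obtain ⟨V, hV, h1, h2⟩ := ih
    have hd : ∀ (x : M) (v : E n), (dmap (𝓡∂ n) (fun x => V x * W c x) x v : EndF N) =
      V x * (dmap (𝓡∂ n) (W c) x v : EndF N) + (dmap (𝓡∂ n) V x v : EndF N) * W c x :=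
      fun x v => dI_mulE hV.smooth (hW c).smooth x v
    refine ⟨fun x => V x * W c x, ⟨contMDiff_bilin isBB_mul hV.smooth (hW c).smooth,
      fun x => mul_mem (hV.unitary x) ((hW c).unitary x)⟩, fun m hm => ?_, fun b hb m hm => ?_⟩
    · obtain ⟨e1, e2⟩ := h1 m fun b hb => hm b (Finset.mem_insert_of_mem hb)
      obtain ⟨e3, e4⟩ := hoff c m (hm c (Finset.mem_insert_self c S))
      refine ⟨?_, fun v => ?_⟩
      · show V m * W c m = 1
        rw [e1, e3, one_mul]
      · rw [hd, e1, e2, e3, e4]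
        simp
    · rcases Finset.mem_insert.1 hb with rfl | hb
      · obtain ⟨e1, e2⟩ := h1 m fun b' hb' h => by
          have hne : b ≠ b' := fun h => hc (h ▸ hb')
          exact Set.disjoint_left.1 (hdj b b' hne) hm h
        refine ⟨?_, fun v => ?_⟩
        · show V m * W b m = W b m
          rw [e1, one_mul]
        · rw [hd, e1, e2, one_mul, zero_mul, add_zero]
      · obtain ⟨e1, e2⟩ := h2 b hb m hm
        have hne : b ≠ c := fun h => hc (h ▸ hb)
        obtain ⟨e3, e4⟩ := hoff c m fun h => Set.disjoint_left.1 (hdj b c hne) hm h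
        refine ⟨?_, fun v => ?_⟩
        · show V m * W c m = W b m
          rw [e1, e3, mul_one]
        · rw [hd, e2, e3, e4, mul_zero, zero_add, mul_one]

end

section

variable {n N : ℕ} [NeZero n] {M : Type u} [TopologicalSpace M]
  [ChartedSpace (EuclideanHalfSpace n) M] [IsManifold (𝓡∂ n) ∞ M] [T2Space M] [MeasurableSpace M]

/-- The pull back of the connection, with a gauge, in the cell. -/
theorem mv_con_in {P Q : One n N M} {p : M} {Ω : Set (Fin n → ℝ)} (hR : Rg p Ω)
    {w K : (Fin n → ℝ) → Fin n → ℝ} (D : LR.Dif Ω w K)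
    {U : (Fin n → ℝ) → Matrix (Fin N) (Fin N) ℂ} (hU : LR.H158.SmC U)
    (h1 : ∀ y ∉ Ω, U y = 1) {A₁ A₂ : LR.Cn n N}
    (hBP : ∀ x ∈ vO (xc n p p) Ω, ∀ i,
      (P.loc p).B i x = S.toE (A₁ i (tr (xc n p p) x)))
    (hBQ : ∀ x ∈ vO (xc n p p) Ω, ∀ i,
      (Q.loc p).B i x = S.toE (A₂ i (tr (xc n p p) x)))
    (hg : ∀ i, ∀ x ∈ Ω, A₂ i x = (U x)ᴴ * LR.pb w A₁ i x * U x + (U x)ᴴ * LR.pdm i U x)
    {m : M} (hm : m ∈ (xc n p).symm '' vO (xc n p p) Ω) (v : E n) :
    Am Q m v = ContinuousLinearMap.adjoint (gU p U m) *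
        (Am P (H207.J.mv p (fun y => y + w y) m) (Dm (H207.J.mv p fun y => y + w y) m v)) *
          gU p U m +
      ContinuousLinearMap.adjoint (gU p U m) * (dmap (𝓡∂ n) (gU p U : M → EndF N) m v : EndF N) := by
  obtain ⟨y, hy, rfl⟩ := hm
  have hycb := vO_sub hy
  have hyt : y ∈ tg n p := (hR.sub _ hycb).1
  have hs : (xc n p).symm y ∈ (xc n p).source := (xc n p).map_target hyt
  have hmv : H207.J.mv p (fun y => y + w y) ((xc n p).symm y) =
      (xc n p).symm (H207.J.tch (xc n p p) (fun y => y + w y) y) := by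
    rw [H207.J.mv_src hs, (xc n p).right_inv hyt]
  have htc := tch_on (lc_w D) hy
  have hs' : H207.J.mv p (fun y => y + w y) ((xc n p).symm y) ∈ (xc n p).source := by
    rw [hmv]
    exact (xc n p).map_target (hR.sub _ (vO_sub htc)).1
  obtain ⟨h3, h2⟩ := EYM.cChart n M univ (H207.J.mv p fun y => y + w y) isOpen_univ
    (mv_smooth hR (lc_w D)).contMDiffOn p p ((xc n p).symm y) (mem_univ _) hs hs'
  have hJ := mv_jac hR D (m := (xc n p).symm y) (mem_image_of_mem _ hycb)
  rw [(xc n p).right_inv hyt] at hJ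
  rw [(xc n p).right_inv hyt, hJ] at h3
  have hd := fun j => gU_d hR hU h1 (m := (xc n p).symm y) (mem_image_of_mem _ hycb) j
  rw [(xc n p).right_inv hyt] at hd
  have hV : gU p U ((xc n p).symm y) = S.toE (U (tr (xc n p p) y)) := by
    rw [gU_src hs, (xc n p).right_inv hyt]
    rfl
  obtain ⟨a, ha⟩ := h2 v
  set m := (xc n p).symm y with hmdef
  set Jm := LR.jm w (tr (xc n p p) y) with hJdef
  set y' := tr (xc n p p) y with hy'
  have hy'b : y' ∈ Ω := hy
  -- on the coordinate vectors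
  have key : ∀ j : Fin n, Am Q m (cV p m j) = ContinuousLinearMap.adjoint (gU p U m) *
      (Am P (H207.J.mv p (fun y => y + w y) m)
        (Dm (H207.J.mv p fun y => y + w y) m (cV p m j))) *
        gU p U m + ContinuousLinearMap.adjoint (gU p U m) *
          (dmap (𝓡∂ n) (gU p U : M → EndF N) m (cV p m j) : EndF N) := by
    intro j
    have e1 : Am Q m (cV p m j) = S.toE (A₂ j y') := hBQ y hy j
    have e2 : Dm (H207.J.mv p fun y => y + w y) m (cV p m j) =
        ∑ k, Jm k j • cV p (H207.J.mv p (fun y => y + w y) m) k := h3 j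
    have e3 : ∀ k, Am P (H207.J.mv p (fun y => y + w y) m)
        (cV p (H207.J.mv p (fun y => y + w y) m) k) = S.toE (A₁ k (y' + w y')) := by
      intro k
      have e4 := hBP _ htc k
      have e5 : tr (xc n p p) (H207.J.tch (xc n p p) (fun y => y + w y) y) = y' + w y' := by
        unfold H207.J.tch
        rw [tr_tri]
      rw [e5] at e4
      rw [hmv]
      exact e4
    have e6 : Am P (H207.J.mv p (fun y => y + w y) m)
        (Dm (H207.J.mv p fun y => y + w y) m (cV p m j)) = S.toE (LR.pb w A₁ j y') := by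
      rw [e2, map_sum]
      simp only [map_smul, e3]
      rw [S.toE_rsum (fun k => A₁ k (y' + w y')) (fun k => Jm k j)]
      congr 1
    rw [e1, e6, hd j, hV, hg j y' hy'b, ← S.toE_star, S.toE_add, S.toE_mul, S.toE_mul, S.toE_mul]
  have ha' : v = ∑ j, a j • cV p m j := ha
  have e7 : Am Q m v = ∑ j, a j • Am Q m (cV p m j) := by
    rw [ha', map_sum]
    exact Finset.sum_congr rfl fun j _ => map_smul _ _ _
  have e8 : Am P (H207.J.mv p (fun y => y + w y) m) (Dm (H207.J.mv p fun y => y + w y) m v) =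
      ∑ j, a j • Am P (H207.J.mv p (fun y => y + w y) m)
        (Dm (H207.J.mv p fun y => y + w y) m (cV p m j)) := by
    rw [ha', map_sum, map_sum]
    exact Finset.sum_congr rfl fun j _ => by rw [map_smul, map_smul]
  have e9 : (dmap (𝓡∂ n) (gU p U : M → EndF N) m v : EndF N) =
      ∑ j, a j • (dmap (𝓡∂ n) (gU p U : M → EndF N) m (cV p m j) : EndF N) := by
    have e10 : ∀ T : E n →L[ℝ] EndF N, T v = ∑ j, a j • T (cV p m j) := by
      intro T
      rw [ha', map_sum]
      exact Finset.sum_congr rfl fun j _ => map_smul _ _ _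
    exact e10 _
  rw [e7, e8, e9, Finset.mul_sum, Finset.sum_mul, Finset.mul_sum, ← Finset.sum_add_distrib]
  refine Finset.sum_congr rfl fun j _ => ?_
  rw [key j, smul_add, mul_smul_comm, smul_mul_assoc, mul_smul_comm]

end

end Vale.Agent.P088.HY.H794.F

end
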