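import Vale.Agent.P088.R2.H794.FamU3
import Vale.Agent.P088.R2.H794.Fam6
import Vale.Agent.P088.R2.H455.J.K3

/-!
# P088: joint uniqueness on finitely many cells from rigidity on `ℝ^n`
-/

set_option linter.all false

open Bundle Manifold MeasureTheory Set Filter Topology
open scoped ContDiff Matrix ENNReal

noncomputable section

namespace Vale.Agent.P088.HY.H794.F

open Vale.Agent.P088 Vale.Agent.P088.B Vale.Agent.P088.EYM
open Vale.Agent.P088.H207 (gl ch_at src_at gch_at IsDom inM MatchO)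
open Vale.Agent.P088.H207.R (vO vO_sub vO_compact Rg cbO cb_src lc_w lc_K tch_on mvD mv_off mv_met
  mv_off_D glueO glueO_in glueO_out glueO_sm tr_at inM_at rg_of)
open Vale.Agent.P088.H207.L (gU gU_src gU_nsrc ue ue_cd ue_fd ach_at related_comp2)
open Vale.Agent.P088.H207.J (tr tri tr_tri tri_tr tr_cd tri_cd tr_fd int_tr)
open Vale.Agent.P088.R2.H455.J (gU_off gU_d gU_d_off gU_uni gU_smooth glA glA_in glA_out glA_sm
  MatchP RigP)

universe u

/-- Joint uniqueness near rigid pairs on finitely many domains of charts. -/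
theorem bg_famU {n : ℕ} [NeZero n] (hn : 3 ≤ n) {N : ℕ} (hN : 1 ≤ N)
    {M : Type u} [TopologicalSpace M]
    [ChartedSpace (EuclideanHalfSpace n) M] [IsManifold (𝓡∂ n) ∞ M] [T2Space M] [CompactSpace M]
    [ConnectedSpace M] (Z : At n M) (hZ : Z = at_ n M) (Γ O₀ : Set M) (hO₀ : IsOpen O₀)
    (hΓ : Γ = O₀ ∩ bd Z) (hne : Γ.Nonempty) (P P' Q : Pair Z N)
    (hd : Vale.Agent.P088.B.SameData Γ P Q)
    (hR : Related Γ P P') {ι : Type} [Finite ι] (p : ι → M) {Ω : ι → Set (Fin n → ℝ)}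
    {h : ι → LR.MF n} (hh : ∀ a, LR.SmM (h a)) (hhp : ∀ a y, (h a y).PosDef)
    {α : ι → LR.Cn n N} (hα : ∀ a, LR.SmU (α a))
    {X : ι → LR.MF n → LR.Cn n N → Prop} (hrig : ∀ a, RigP n N (Ω a) (h a) (α a) (X a))
    (hp : ∀ a, IsDom Z (p a) (Ω a)) (hmat : ∀ a, MatchP (h a) (α a) P' (p a) (Ω a))
    (hdj : ∀ a b, a ≠ b → Disjoint (inM Z (p a) (Ω a)) (inM Z (p b) (Ω b)))
    (K K₁ : ι → Set (Fin n → ℝ)) (hK : ∀ a, IsCompact (K a))
    (hKK : ∀ a, K a ⊆ interior (K₁ a)) (hK₁ : ∀ a, IsCompact (K₁ a)) (hK₁Ω : ∀ a, K₁ a ⊆ Ω a)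
    (hc : IsPreconnected ((bd Z)ᶜ \ ⋃ a, inM Z (p a) (K a)))
    (hc₁ : IsPreconnected ((bd Z)ᶜ \ ⋃ a, inM Z (p a) (K₁ a)))
    (hpw : B8.PwLe (⋃ a, inM Z (p a) (K a))ᶜ Γ P' Q)
    (hAoff : ∀ x ∉ ⋃ a, inM Z (p a) (K a), Q.A x = P'.A x)
    (hX : ∀ a, ∀ (g : LR.MF n) (β : LR.Cn n N), LR.SmM g → (∀ y, (g y).PosDef) → LR.SmU β →
      (∀ y ∈ Ω a, g y = gch Z Q.g (p a) (y + Z.ch (p a) (p a))) → (∀ y ∉ K a, g y = h a y) →
      (∀ i, ∀ y ∈ Ω a, β i y = ach Z Q.A (p a) i (y + Z.ch (p a) (p a))) →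
      (∀ i, ∀ y ∉ K a, β i y = α a i y) → X a g β) :
    Related Γ P Q := by
  classical
  haveI := Fintype.ofFinite ι
  have hd' : Vale.Agent.P088.B.SameData Γ P' Q := Vale.Agent.P088.B.same_related Z hZ hO₀ hΓ hne hR hd
  subst hZ
  letI := borel M
  haveI : BorelSpace M := ⟨rfl⟩
  obtain ⟨hrel, hok, -, -⟩ := TM.fLoc n N M
  obtain ⟨hIo, hIp, hId⟩ := TM.fConn n M
  have hRg : ∀ a, Rg (p a) (Ω a) := fun a => rg_of (hp a)
  have hb : bd (at_ n M) = (𝓡∂ n).boundary M := bd_at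
  set z : ι → E n := fun a => xc n (p a) (p a) with hz
  have hKΩ : ∀ a, K a ⊆ Ω a := fun a => (hKK a).trans (interior_subset.trans (hK₁Ω a))
  have hcl : ∀ a, vO (z a) (closure (Ω a)) ⊆ tg n (p a) := fun a x hx => ((hRg a).sub x hx).1
  have hvm : ∀ a, ∀ {S T : Set (Fin n → ℝ)}, S ⊆ T → vO (z a) S ⊆ vO (z a) T :=
    fun a _ _ hST x hx => hST hx
  have hbt : ∀ a, vO (z a) (Ω a) ⊆ tg n (p a) := fun a => vO_sub.trans (hcl a)
  have hpos : ∀ a, vO (z a) (Ω a) ⊆ {y | 0 < y 0} := fun a x hx => ((hRg a).sub x (vO_sub hx)).2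
  have hKM : ∀ a, inM (at_ n M) (p a) (K a) = (xc n (p a)).symm '' vO (z a) (K a) := fun a =>
    inM_at ((hvm a (hKΩ a)).trans (hbt a))
  have hKM₁ : ∀ a, inM (at_ n M) (p a) (K₁ a) = (xc n (p a)).symm '' vO (z a) (K₁ a) := fun a =>
    inM_at ((hvm a (hK₁Ω a)).trans (hbt a))
  have hV : ∀ a, inM (at_ n M) (p a) (Ω a) = (xc n (p a)).symm '' vO (z a) (Ω a) := fun a =>
    inM_at (hbt a)
  have hvKc : ∀ a, IsCompact (vO (z a) (K a)) := fun a => vO_compact (hK a)
  have hvK₁c : ∀ a, IsCompact (vO (z a) (K₁ a)) := fun a => vO_compact (hK₁ a)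
  have hvO : ∀ a, IsOpen (vO (z a) (Ω a)) := fun a => (hRg a).op.preimage (tr_cd (z a)).continuous
  have hvKK : ∀ a, vO (z a) (K a) ⊆ interior (vO (z a) (K₁ a)) := fun a =>
    (hvm a (hKK a)).trans (interior_maximal (hvm a interior_subset)
      (isOpen_interior.preimage (tr_cd (z a)).continuous))
  have hVH : ∀ a, vO (z a) (Ω a) ⊆ Hs n := fun a y hy => le_of_lt (show (0 : ℝ) < y 0 from hpos a hy)
  have hmi : Mi n M = (bd (at_ n M))ᶜ := by
    rw [hb, ← ModelWithCorners.compl_interior, compl_compl]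
  have hcpK : ∀ a, IsCompact ((xc n (p a)).symm '' vO (z a) (K a)) := fun a =>
    (hvKc a).image_of_continuousOn ((continuousOn_extChartAt_symm (p a)).mono
      ((hvm a (hKΩ a)).trans (hbt a)))
  have hKmi : ∀ a, (xc n (p a)).symm '' vO (z a) (K a) ⊆ Mi n M := by
    rintro a _ ⟨y, hy, rfl⟩
    exact cRungeB_mi_of_pos TM.fLoc (p a) (hbt a (hvm a (hKΩ a) hy)) (hpos a (hvm a (hKΩ a) hy))
  have hmem : ∀ a, ∀ y ∈ vO (z a) (Ω a), (xc n (p a)).symm y ∈ inM (at_ n M) (p a) (Ω a) :=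
    fun a y hy => by
      rw [hV a]
      exact mem_image_of_mem _ hy
  have hchy : ∀ a, ∀ y ∈ vO (z a) (Ω a),
      (at_ n M).ch (p a) ((xc n (p a)).symm y) = WithLp.ofLp y :=
    fun a y hy => by rw [ch_at, (xc n (p a)).right_inv (hbt a hy)]
  -- the hole
  obtain ⟨S₀, hS'⟩ : ∃ S₀ : Set M, S₀ = ⋃ a, inM (at_ n M) (p a) (K a) := ⟨_, rfl⟩
  have hSc : IsCompact S₀ := by
    rw [hS']
    exact isCompact_iUnion fun a => by rw [hKM a]; exact hcpK a
  have hSmi : S₀ ⊆ Mi n M := by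
    rw [hS']
    exact iUnion_subset fun a => by rw [hKM a]; exact hKmi a
  have hnS : ∀ x, (∀ a, x ∉ (xc n (p a)).symm '' vO (z a) (K a)) → x ∉ S₀ := by
    intro x hx h
    rw [hS', mem_iUnion] at h
    obtain ⟨a, ha⟩ := h
    rw [hKM a] at ha
    exact hx a ha
  have hAoff' : ∀ x ∉ S₀, Q.A x = P'.A x := fun x hx => hAoff x (by rw [← hS']; exact hx)
  have hole : B8.Hole (fun _ => 1) S₀ (⋃ a, inM (at_ n M) (p a) (Ω a)) Γ P' Q := by
    refine ⟨hSc.isClosed, ?_, ?_, ?_, ?_, by rw [hS']; exact hpw,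
      ⟨fun a b => contMDiffOn_const, fun x => by simp, fun x _ => rfl, fun x hx j => ?_⟩⟩
    · rw [hb, eq_empty_iff_forall_notMem]
      rintro x ⟨h1, h2⟩
      have h3 := hSmi h1
      rw [← ModelWithCorners.compl_interior] at h2
      exact h2 h3
    · have hc' := hc
      rw [← hmi, ← hS'] at hc'
      refine hc'.subset_closure (fun x hx => hx.2) fun x hx => ?_
      rw [mem_closure_iff]
      intro W hW hxW
      obtain ⟨q, ⟨hq1, hq2⟩, hqI⟩ := mem_closure_iff.1 (hId x) (W ∩ S₀ᶜ)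
        (hW.inter hSc.isClosed.isOpen_compl) ⟨hxW, hx⟩
      exact ⟨q, hq1, hqI, hq2⟩
    · refine isOpen_iUnion fun a => ?_
      rw [hV a]
      exact cRungeB_open TM.fLoc (p a)
        ⟨vO (z a) (Ω a), hvO a, (inter_eq_left.2 (hVH a)).symm⟩ (hbt a)
    · rw [hS']
      refine iUnion_mono fun a => ?_
      rw [hKM a, hV a]
      exact image_mono (hvm a (hKΩ a))
    · have e1 : dM (fun y : Vale.Agent.P088.B.V n => (1 : Matrix (Fin N) (Fin N) ℂ))
          ((at_ n M).ch x x) j = 0 := by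
        ext a b
        unfold dM dj
        simp
      rw [e1, hAoff' x hx]
      simp
  obtain ⟨h1, -, -⟩ := B8.hole' hn hN (at_ n M) rfl Γ O₀ hO₀ hΓ hne P' Q hd' _ _ _ hole
  have hS : EYM.SameD (B2.one P') (B2.one Q) Γ := Vale.Agent.P088.B.sameD_one hd'
  have hRB : EYM.RelBd n Γ := ⟨O₀, hO₀, by rw [hΓ, hb]⟩
  have hchp : ∀ a, (at_ n M).ch (p a) (p a) = WithLp.ofLp (z a) := fun a => ch_at (p a) (p a)
  have hokQ : ∀ a, ((B2.one Q).loc (p a)).Ok (vO (z a) (Ω a)) := fun a =>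
    CHarm_ok_mono (hok _ (p a)) (hbt a)
  have hdjv : ∀ a b, a ≠ b → Disjoint ((xc n (p a)).symm '' vO (z a) (Ω a))
      ((xc n (p b)).symm '' vO (z b) (Ω b)) := fun a b hab => by
    rw [← hV a, ← hV b]
    exact hdj a b hab
  have hC : Cells n p (fun a => vO (z a) (Ω a)) (fun a => vO (z a) (K a))
      (fun a => vO (z a) (K₁ a)) := by
    refine ⟨hvO, hbt, hpos, hvKc, hvKK, hvK₁c, fun a => hvm a (hK₁Ω a), hdjv, ?_⟩
    rw [← hmi] at hc₁
    have e1 : (⋃ a, inM (at_ n M) (p a) (K₁ a)) = ⋃ a, (xc n (p a)).symm '' vO (z a) (K₁ a) :=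
      iUnion_congr hKM₁
    rw [e1] at hc₁
    exact hc₁
  have hoffg : ∀ x, (∀ a, x ∉ (xc n (p a)).symm '' vO (z a) (K a)) → Q.g x = P'.g x := fun x hx =>
    h1 x (hnS x hx)
  -- one cell
  have hcell : ∀ a, ∃ (w K' : (Fin n → ℝ) → Fin n → ℝ) (U : LR.U.MC n N) (β : LR.Cn n N),
      ∃ D : LR.Dif (Ω a) w K', (∀ x ∈ vO (z a) (Ω a), ((B2.one Q).loc (p a)).g x =
        (LR.jm w (tr (z a) x))ᵀ *
          ((B2.one P').loc (p a)).g (H207.J.tch (z a) (fun y => y + w y) x) *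
          LR.jm w (tr (z a) x)) ∧
      LR.H158.SmC U ∧ (∀ x, (U x)ᴴ * U x = 1) ∧ (∀ x ∉ Ω a, U x = 1) ∧
      (∀ i, ∀ x ∈ Ω a, β i x = (U x)ᴴ * LR.pb w (α a) i x * U x + (U x)ᴴ * LR.pdm i U x) ∧
      (∀ x ∈ vO (z a) (Ω a), ∀ i, ((B2.one Q).loc (p a)).B i x = S.toE (β i (tr (z a) x))) ∧
      (∀ x ∈ vO (z a) (Ω a), ∀ i, ((B2.one P').loc (p a)).B i x = S.toE (α a i (tr (z a) x))) := by
    intro a
    -- centred coordinates
    set y₀ : Fin n → ℝ := WithLp.ofLp (z a) with hy₀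
    have htri : ∀ y : Fin n → ℝ, WithLp.ofLp (tri (z a) y) = y + y₀ := by
      intro y
      funext j
      show z a j + y j = y j + z a j
      ring
    have htO : ∀ y ∈ Ω a, tri (z a) y ∈ vO (z a) (Ω a) := fun y hy => by
      show tr (z a) (tri (z a) y) ∈ Ω a
      rwa [tr_tri]
    have hnotin : ∀ y ∈ Ω a, y ∉ K a → ∀ b,
        (xc n (p a)).symm (tri (z a) y) ∉ (xc n (p b)).symm '' vO (z b) (K b) := by
      intro y hy hy' b hb'
      have hx := htO y hy
      by_cases hab : b = a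
      · subst hab
        obtain ⟨x', hx', he⟩ := hb'
        have h6 : x' = tri (z b) y :=
          (xc n (p b)).symm.injOn (hbt b (hvm b (hKΩ b) hx')) (hbt b hx) he
        rw [h6] at hx'
        have h7 : tr (z b) (tri (z b) y) ∈ K b := hx'
        rw [tr_tri] at h7
        exact hy' h7
      · exact Set.disjoint_left.1 (hdjv b a hab) (image_mono (hvm b (hKΩ b)) hb')
          (mem_image_of_mem _ hx)
    -- the metrics
    have hgP : ∀ y ∈ vO (z a) (Ω a), gl P' (p a) y = h a (tr (z a) y) := by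
      intro y hy
      have e1 := (hmat a _ (hmem a y hy)).1
      rw [hchy a y hy, gch_at P' (p a) (hbt a hy), hchp a] at e1
      exact e1
    set f : LR.MF n := fun y => gch (at_ n M) Q.g (p a) (y + y₀) with hf
    have hfgl : ∀ y ∈ Ω a, f y = gl Q (p a) (tri (z a) y) := by
      intro y hy
      have e1 := gch_at Q (p a) (hbt a (htO y hy))
      rw [htri] at e1
      exact e1
    have hf1 : ∀ y ∈ Ω a, y ∉ K a → f y = h a y := by
      intro y hy hy'
      have hx := htO y hy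
      have h5 := hnotin y hy hy'
      have e1 : gl Q (p a) (tri (z a) y) = gl P' (p a) (tri (z a) y) := by
        ext i j
        show S.bil (Q.g _) _ _ = S.bil (P'.g _) _ _
        rw [hoffg _ h5]
      rw [hfgl y hy, e1, hgP _ hx, tr_tri]
    have hfs : ∀ i j, ContDiffOn ℝ ∞ (fun y => f y i j) (Ω a) := by
      intro i j
      have e2 : ContDiffOn ℝ ∞ (fun x : E n => gl Q (p a) x i j) (vO (z a) (Ω a)) :=
        (hokQ a).g_smooth i j
      refine (e2.comp (tri_cd (z a)).contDiffOn fun y hy => htO y hy).congr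
        fun y hy => ?_
      rw [hfgl y hy]
      rfl
    set g : LR.MF n := glueO (Ω a) f (h a) with hg
    have hgs : LR.SmM g := glueO_sm (hRg a).op (hK a).isClosed (hKΩ a) hfs (hh a) hf1
    have hgp : ∀ y, (g y).PosDef := by
      intro y
      by_cases hy : y ∈ Ω a
      · rw [hg, glueO_in hy, hfgl y hy]
        exact (hokQ a).g_pos _ (htO y hy)
      · rw [hg, glueO_out hy]
        exact hhp a y
    have hgQ : ∀ x ∈ vO (z a) (Ω a), g (tr (z a) x) = gl Q (p a) x := by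
      intro x hx
      rw [hg, glueO_in (show tr (z a) x ∈ Ω a from hx), hfgl _ hx, tri_tr]
    have hgPc : ∀ x ∈ vO (z a) (Ω a), h a (tr (z a) x) = gl P' (p a) x := fun x hx =>
      (hgP x hx).symm
    -- the connections
    have hBP : ∀ x ∈ vO (z a) (Ω a), ∀ i,
        ((B2.one P').loc (p a)).B i x = S.toE (α a i (tr (z a) x)) := by
      intro x hx i
      have e1 := (hmat a _ (hmem a x hx)).2 i
      rw [hchy a x hx, hchp a] at e1
      rw [ach_at P' (p a) (hbt a hx) i, e1]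
      rfl
    have hBQ0 : ∀ x ∈ vO (z a) (Ω a), ∀ i, ((B2.one Q).loc (p a)).B i x =
        S.toE (ach (at_ n M) Q.A (p a) i (WithLp.ofLp x)) := fun x hx i =>
      ach_at Q (p a) (hbt a hx) i
    set φ : Fin n → (Fin n → ℝ) → Matrix (Fin N) (Fin N) ℂ := fun i y =>
      ach (at_ n M) Q.A (p a) i (y + y₀) with hφ
    have hφB : ∀ y ∈ Ω a, ∀ i, ((B2.one Q).loc (p a)).B i (tri (z a) y) = S.toE (φ i y) := by
      intro y hy i
      rw [hBQ0 _ (htO y hy) i, htri]
    have hφ1 : ∀ i, ∀ y ∈ Ω a, y ∉ K a → φ i y = α a i y := by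
      intro i y hy hy'
      have hx := htO y hy
      have h5 := hnotin y hy hy'
      apply S.toE_inj
      rw [← hφB y hy i]
      have e1 := hBP _ hx i
      rw [tr_tri] at e1
      rw [← e1]
      show S.formOf (Q.A _) _ = S.formOf (P'.A _) _
      rw [hAoff' _ (hnS _ h5)]
    have hφs : ∀ i c d, ContDiffOn ℝ ∞ (fun y => φ i y c d) (Ω a) := by
      intro i c d
      have e2 : ContDiffOn ℝ ∞ (fun x : E n => S.ent c d (((B2.one Q).loc (p a)).B i x))
          (vO (z a) (Ω a)) := (S.ent c d).contDiff.comp_contDiffOn ((hokQ a).B_smooth i)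
      refine (e2.comp (tri_cd (z a)).contDiffOn fun y hy => htO y hy).congr
        fun y hy => ?_
      show φ i y c d = S.ent c d (((B2.one Q).loc (p a)).B i (tri (z a) y))
      rw [hφB y hy i, S.ent_apply, S.ofE_toE]
    have hφk : ∀ i, ∀ y ∈ Ω a, (φ i y)ᴴ = -φ i y := by
      intro i y hy
      apply S.toE_inj
      rw [S.toE_star, S.toE_neg, ← hφB y hy i]
      exact (B2.one Q).A.skew _ _
    set β : LR.Cn n N := fun i => glA (Ω a) (φ i) (α a i) with hβ
    have hβe : ∀ i c d, (fun y => β i y c d) = glA (Ω a) (fun y => φ i y c d)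
        (fun y => α a i y c d) := by
      intro i c d
      funext y
      by_cases hy : y ∈ Ω a
      · rw [glA_in hy, hβ]
        simp only
        rw [glA_in hy]
      · rw [glA_out hy, hβ]
        simp only
        rw [glA_out hy]
    have hβU : LR.SmU β := by
      refine ⟨fun i c d => ?_, fun i y => ?_⟩
      · rw [hβe i c d]
        exact glA_sm (hRg a).op (hK a).isClosed (hKΩ a) (hφs i c d) ((hα a).1 i c d)
          fun y hy hy' => by rw [hφ1 i y hy hy']
      · by_cases hy : y ∈ Ω a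
        · rw [hβ]
          simp only
          rw [glA_in hy, hφk i y hy]
        · rw [hβ]
          simp only
          rw [glA_out hy, (hα a).2 i y]
    have hBQ : ∀ x ∈ vO (z a) (Ω a), ∀ i,
        ((B2.one Q).loc (p a)).B i x = S.toE (β i (tr (z a) x)) := by
      intro x hx i
      have hx' : tr (z a) x ∈ Ω a := hx
      have e1 := hφB _ hx' i
      rw [tri_tr] at e1
      rw [e1, hβ]
      simp only
      rw [glA_in hx']
    have hgX : X a g β := by
      refine hX a g β hgs hgp hβU (fun y hy => ?_) (fun y hy => ?_) (fun i y hy => ?_)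
        fun i y hy => ?_
      · rw [hg, glueO_in hy, hchp a]
      · by_cases hy' : y ∈ Ω a
        · rw [hg, glueO_in hy', hf1 y hy' hy]
        · exact glueO_out hy'
      · rw [hβ]
        simp only
        rw [glA_in hy, hchp a]
      · by_cases hy' : y ∈ Ω a
        · rw [hβ]
          simp only
          rw [glA_in hy', hφ1 i y hy' hy]
        · rw [hβ]
          simp only
          rw [glA_out hy']
    have hor : LR.U.OrU (Ω a) (LR.sg (h a)) (α a) (LR.sg g) β :=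
      orU_F hC (P := B2.one P') (Q := B2.one Q) hRB hne hS
        (fun m hm X => by
          show S.formOf (P'.A m) X = S.formOf (Q.A m) X
          rw [hAoff' m (hnS m hm)])
        (fun x hx v w => by
          show S.bil (Q.g x) v w = S.bil (P'.g x) v w
          rw [hoffg x hx]) a (hRg a).op (hp a).2.2.1 rfl (hh a) hgs (hhp a) hgp hgPc hgQ
        (hα a) hβU hBP hBQ
    obtain ⟨w, K', U, D, hwK, hUs, hUu, hU1, hUg⟩ := hrig a g β hgs hgp
      (fun y hy => glueO_out hy) hβU (fun i y hy => glA_out hy) hgX hor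
    refine ⟨w, K', U, β, D, fun y hy => ?_, hUs, hUu, hU1, hUg, hBQ, hBP⟩
    have e1 := tch_on (lc_w D) (z := z a) hy
    have e2 : tr (z a) (H207.J.tch (z a) (fun y => y + w y) y) = tr (z a) y + w (tr (z a) y) := by
      unfold H207.J.tch
      rw [tr_tri]
    have e3 : ((B2.one Q).loc (p a)).g y = gl Q (p a) y := rfl
    have e5 : ((B2.one P').loc (p a)).g (H207.J.tch (z a) (fun y => y + w y) y) =
      gl P' (p a) (H207.J.tch (z a) (fun y => y + w y) y) := rfl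
    rw [e3, e5, ← hgQ y hy, hwK, ← hgPc _ e1, e2]
  choose w K' U β D hw hUs hUu hU1 hUg hBQ hBP using hcell
  have hΓΩ : ∀ a, ∀ x ∈ Γ, x ∉ (xc n (p a)).symm '' vO (z a) (Ω a) := by
    intro a x hx hx'
    rw [hΓ, hb] at hx
    obtain ⟨y, hy, rfl⟩ := hx'
    have h3 := cRungeB_mi_of_pos TM.fLoc (p a) (hbt a hy) (hpos a hy)
    have h4 := hx.2
    rw [← ModelWithCorners.compl_interior] at h4
    exact h4 h3
  -- the diffeomorphism and the gauge
  obtain ⟨F, hF1, hF2⟩ := comp_fam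
    (fun b => (xc n (p b)).symm '' vO (z b) (Ω b)) hdjv (fun b => mvD (hRg b) (D b))
    (fun b m hm => ⟨mv_off (hRg b) (lc_w (D b)) hm, fun v => mv_off_D (hRg b) (D b) hm v⟩)
    (fun b m hm => mv_on (hRg b) (lc_w (D b)) hm) Finset.univ
  obtain ⟨V, hV0, hV1, hV2⟩ := gauge_fam (N := N)
    (fun b => (xc n (p b)).symm '' vO (z b) (Ω b)) hdjv (fun b => gU (p b) (U b))
    (fun b => gU_uni (hRg b) (hUs b) (hU1 b) (hUu b))
    (fun b m hm => ⟨gU_off (hRg b) (hU1 b) hm, fun v => gU_d_off (hRg b) (hUs b) (hU1 b) hm v⟩)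
    Finset.univ
  refine related_comp2 hR F (fun x hx => (hF1 x fun b _ => hΓΩ b x hx).1) hV0
    (fun x hx => (hV1 x fun b _ => hΓΩ b x hx).1) ?_ ?_
  · intro m v v'
    by_cases hm : ∃ b, m ∈ (xc n (p b)).symm '' vO (z b) (Ω b)
    · obtain ⟨b, hb'⟩ := hm
      obtain ⟨e1, e2⟩ := hF2 b (Finset.mem_univ b) m hb'
      rw [e1, e2, e2]
      exact mv_met_in (P := B2.one P') (Q := B2.one Q) (hRg b) (D b) (hw b) hb' v v'
    · have hm' : ∀ b, m ∉ (xc n (p b)).symm '' vO (z b) (Ω b) := fun b hb' => hm ⟨b, hb'⟩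
      obtain ⟨e1, e2⟩ := hF1 m fun b _ => hm' b
      rw [e1, e2, e2]
      show S.bil (Q.g m) v v' = S.bil (P'.g m) v v'
      rw [hoffg m fun b hb' => hm' b (image_mono (hvm b (hKΩ b)) hb')]
  · intro m v
    by_cases hm : ∃ b, m ∈ (xc n (p b)).symm '' vO (z b) (Ω b)
    · obtain ⟨b, hb'⟩ := hm
      obtain ⟨e1, e2⟩ := hF2 b (Finset.mem_univ b) m hb'
      obtain ⟨e3, e4⟩ := hV2 b (Finset.mem_univ b) m hb'
      rw [e1, e2, e3, e4]
      exact mv_con_in (P := B2.one P') (Q := B2.one Q) (hRg b) (D b) (hUs b) (hU1 b) (hBP b)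
        (hBQ b) (hUg b) hb' v
    · have hm' : ∀ b, m ∉ (xc n (p b)).symm '' vO (z b) (Ω b) := fun b hb' => hm ⟨b, hb'⟩
      obtain ⟨e1, e2⟩ := hF1 m fun b _ => hm' b
      obtain ⟨e3, e4⟩ := hV1 m fun b _ => hm' b
      rw [e1, e2, e3, e4]
      have e5 : ContinuousLinearMap.adjoint (1 : EndF N) = 1 := _root_.star_one (EndF N)
      rw [e5, one_mul, mul_one, mul_zero, add_zero]
      show S.formOf (Q.A m) v = S.formOf (P'.A m) v
      rw [hAoff' m (hnS m fun b hb' => hm' b (image_mono (hvm b (hKΩ b)) hb'))]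

end Vale.Agent.P088.HY.H794.F

end
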