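import Vale.Agent.P088.H207.St8

/-!
# P088: two arbitrary metrics which differ in a small ball, definitions
-/

open Set
open scoped Matrix

noncomputable section

namespace Vale.Agent.P088.HY.H794

open Vale.Agent.P088.B Vale.Agent.P088.H207

universe u

variable {n N : ℕ} [NeZero n] {M : Type u} {Z : At n M}

/-- In the chart at `p`, on the ball of radius `R`: the derivatives of `g_{ij}` of order at most `k`
are at most `B`, and `det g ≥ 1 / B`. -/
def BddB (k : ℕ) (B : ℝ) (Q : Pair Z N) (p : M) (R : ℝ) : Prop :=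
  ∀ x ∈ oball Z p R,
    (∀ i j, ∀ l ≤ k, ‖iteratedFDeriv ℝ l (fun y : V n => gch Z Q.g p y i j) (Z.ch p x)‖ ≤ B) ∧
      1 / B ≤ (gch Z Q.g p (Z.ch p x)).det

end Vale.Agent.P088.HY.H794

end
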