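import Vale.Agent.P088.R2.H794.Cell
import Vale.Agent.P088.R2.H794.St
import Vale.Agent.P088.H207.O2

/-!
# P088: two arbitrary metrics which differ in a small ball
-/

set_option linter.all false

open Bundle Manifold MeasureTheory Set Filter Topology
open scoped ContDiff Matrix ENNReal

noncomputable section

namespace Vale.Agent.P088.HY.H794

open Vale.Agent.P088 Vale.Agent.P088.B Vale.Agent.P088.EYM
open Vale.Agent.P088.H207 (IsDom IsOpn inM MatchO CloseO IsBall oball kball rad gl ch_at src_at gch_at)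
open Vale.Agent.P088.H207.J (tr tri tr_tri tri_tr tr_cd tri_cd)
open Vale.Agent.P088.H207.R

universe u

section

variable {n N : ℕ} [NeZero n] {M : Type u} [TopologicalSpace M]
  [ChartedSpace (EuclideanHalfSpace n) M] [IsManifold (𝓡∂ n) ∞ M] [T2Space M] [CompactSpace M]
  [ConnectedSpace M]

/-- The metric in centred coordinates is smooth and positive. -/
theorem gch_cent (P : Pair (at_ n M) N) {p : M} {O : Set (Fin n → ℝ)}
    (h : ∀ y ∈ O, 0 < (y + (at_ n M).ch p p) 0 ∧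
      ∃ x ∈ (at_ n M).src p, (at_ n M).ch p x = y + (at_ n M).ch p p) :
    (∀ i j, ContDiffOn ℝ ∞ (fun y => gch (at_ n M) P.g p (y + (at_ n M).ch p p) i j) O) ∧
      ∀ y ∈ O, (gch (at_ n M) P.g p (y + (at_ n M).ch p p)).PosDef := by
  letI := borel M
  haveI : BorelSpace M := ⟨rfl⟩
  obtain ⟨hrel, hok, -, -⟩ := TM.fLoc n N M
  set z : E n := xc n p p with hz
  have hbt : vO z O ⊆ tg n p := by
    intro x hx
    obtain ⟨h5, x', hx', hxy⟩ := h _ hx
    rw [src_at] at hx'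
    have e1 : tr (xc n p p) x + (at_ n M).ch p p = WithLp.ofLp x := by
      rw [ch_at]
      funext j
      show (x j - (xc n p p) j) + (xc n p p) j = x j
      ring
    rw [e1, ch_at] at hxy
    have e2 : xc n p x' = x := (WithLp.ofLp_injective 2) hxy
    exact e2 ▸ (xc n p).map_source hx'
  have hokP : ((B2.one P).loc p).Ok (vO z O) := CHarm_ok_mono (hok _ p) hbt
  have hchp : (at_ n M).ch p p = WithLp.ofLp z := ch_at p p
  set y₀ : Fin n → ℝ := WithLp.ofLp z with hy₀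
  have htri : ∀ y : Fin n → ℝ, WithLp.ofLp (tri z y) = y + y₀ := by
    intro y
    funext j
    show z j + y j = y j + z j
    ring
  have htO : ∀ y ∈ O, tri z y ∈ vO z O := fun y hy => by
    show tr z (tri z y) ∈ O
    rwa [tr_tri]
  have hfgl : ∀ y ∈ O, gch (at_ n M) P.g p (y + (at_ n M).ch p p) = gl P p (tri z y) := by
    intro y hy
    have e1 := gch_at P p (hbt (htO y hy))
    rw [htri] at e1
    rw [hchp]
    exact e1
  refine ⟨fun i j => ?_, fun y hy => ?_⟩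
  · have e2 : ContDiffOn ℝ ∞ (fun x : E n => gl P p x i j) (vO z O) := hokP.g_smooth i j
    refine (e2.comp (tri_cd z).contDiffOn fun y hy => htO y hy).congr fun y hy => ?_
    rw [hfgl y hy]
    rfl
  · rw [hfgl y hy]
    exact hokP.g_pos _ (htO y hy)

end

/-- **Two arbitrary metrics which differ in a small ball.** -/
theorem small_ball {n : ℕ} [NeZero n] (hn : 3 ≤ n) {k : ℕ} (hk : 1 ≤ k) {B ε : ℝ} (hB : 0 < B)
    (hε : 0 < ε) (hR : RigR n k B ε) : ∃ r₀ : ℝ, 0 < r₀ ∧ ∀ r : ℝ, 0 < r → r ≤ r₀ →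
    ∀ {N : ℕ} (_ : 1 ≤ N) {M : Type u} [TopologicalSpace M]
    [ChartedSpace (EuclideanHalfSpace n) M] [IsManifold (𝓡∂ n) ∞ M] [T2Space M] [CompactSpace M]
    [ConnectedSpace M] (Z : At n M) (_ : Z = at_ n M) (Γ O₀ : Set M) (_ : IsOpen O₀)
    (_ : Γ = O₀ ∩ bd Z) (_ : Γ.Nonempty) (P P' Q Q' : Pair Z N)
    (_ : Vale.Agent.P088.B.SameData Γ P Q)
    (_ : Related Γ P P') (_ : Related Γ Q Q') (p : M) (_ : IsBall Z p (2 * r))
    (_ : BddB k B P' p (2 * r)) (_ : BddB k B Q' p (2 * r))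
    (_ : ∀ x ∈ oball Z p (2 * r), P'.A x = 0)
    (_ : B8.PwLe (kball Z p r)ᶜ Γ P' Q')
    (_ : ∃ U, B8.GaugeBy U (kball Z p r)ᶜ Γ P'.A Q'.A Z), Related Γ P Q := by
  obtain ⟨r₀, hr₀, hcell⟩ := rigO_cell hk hB hε hR
  refine ⟨r₀, hr₀, ?_⟩
  intro r hr hrr N hN M _ _ _ _ _ _ Z hZ Γ O₀ hO₀ hΓ hne P P' Q Q' hd hP hQ p hp h1 h2 hA hpw hU
  have hd1 : Vale.Agent.P088.B.SameData Γ P Q' :=
    Vale.Agent.P088.H207.O.same_symm (Vale.Agent.P088.B.same_related Z hZ hO₀ hΓ hne hQ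
      (Vale.Agent.P088.H207.O.same_symm hd))
  suffices hmain : Related Γ P Q' by
    subst hZ
    exact Vale.Agent.P088.H207.O.related_tr hmain (Vale.Agent.P088.H207.O.related_inv hQ)
  subst hZ
  -- points of the ball
  have hpt : ∀ y : Fin n → ℝ, ∑ j, y j ^ 2 ≤ (2 * r) ^ 2 → 0 < (y + (at_ n M).ch p p) 0 ∧
      ∃ x ∈ (at_ n M).src p, (at_ n M).ch p x = y + (at_ n M).ch p p := by
    intro y hy
    refine hp.2 _ ?_
    show ∑ i, ((y + (at_ n M).ch p p) i - (at_ n M).ch p p i) ^ 2 ≤ (2 * r) ^ 2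
    simpa using hy
  have hxy : ∀ {x : M} {y : Fin n → ℝ}, (at_ n M).ch p x = y + (at_ n M).ch p p →
      rad (at_ n M) p ((at_ n M).ch p x) = ∑ j, y j ^ 2 := by
    intro x y h
    show ∑ i, ((at_ n M).ch p x i - (at_ n M).ch p p i) ^ 2 = _
    rw [h]
    simp
  have hball : ∀ y ∈ oB n (2 * r), ∃ x ∈ oball (at_ n M) p (2 * r),
      (at_ n M).ch p x = y + (at_ n M).ch p p := by
    intro y hy
    obtain ⟨-, x, hx, he⟩ := hpt y (le_of_lt hy)
    refine ⟨x, ⟨hx, ?_⟩, he⟩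
    rw [hxy he]
    exact hy
  obtain ⟨f, hf⟩ : ∃ f : LR.MF n, f = fun y => gch (at_ n M) P'.g p (y + (at_ n M).ch p p) :=
    ⟨_, rfl⟩
  obtain ⟨hfs, hfp⟩ := gch_cent P' (O := oB n (2 * r)) (p := p) fun y hy => hpt y (le_of_lt hy)
  have hiter : ∀ (Q : Pair (at_ n M) N) (i j : Fin n) (l : ℕ) (y : Fin n → ℝ),
      iteratedFDeriv ℝ l (fun y => gch (at_ n M) Q.g p (y + (at_ n M).ch p p) i j) y =
        iteratedFDeriv ℝ l (fun y => gch (at_ n M) Q.g p y i j) (y + (at_ n M).ch p p) :=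
    fun Q i j l y => iteratedFDeriv_comp_add_right (𝕜 := ℝ)
      (f := fun y => gch (at_ n M) Q.g p y i j) l ((at_ n M).ch p p) y
  have hfb : ∀ y ∈ oB n (2 * r), ∀ i j, ∀ l ≤ k,
      ‖iteratedFDeriv ℝ l (fun y => f y i j) y‖ ≤ B := by
    intro y hy i j l hl
    obtain ⟨x, hx, he⟩ := hball y hy
    have h3 := (h1 x hx).1 i j l hl
    rw [he] at h3
    rw [hf, hiter P' i j l y]
    exact h3
  have h0 : (0 : Fin n → ℝ) ∈ oB n (2 * r) := zero_mem_oB (by linarith)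
  have hdet : 1 / B ≤ (f 0).det := by
    obtain ⟨x, hx, he⟩ := hball 0 h0
    have h3 := (h1 x hx).2
    rw [he] at h3
    rw [hf]
    exact h3
  have hsub : ∀ {a b : ℝ}, 0 < a → a ≤ b → oB n a ⊆ oB n b := fun ha hab y hy =>
    lt_of_lt_of_le hy (pow_le_pow_left₀ ha.le hab 2)
  have h32 : (0 : ℝ) < 3 / 2 * r := by positivity
  have hdom : IsDom (at_ n M) p (oB n (3 / 2 * r)) := by
    refine ⟨isOpen_oB _, reg_oB h32, ?_, fun y hy => hpt y ?_⟩
    · refine (Metric.isBounded_closedBall (x := (0 : Fin n → ℝ)) (r := 3 / 2 * r)).subset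
        fun y hy => ?_
      rw [mem_closedBall_zero_iff]
      exact norm_le_of_oB h32 hy
    · rw [closure_oB h32] at hy
      have h3 : ∑ j, y j ^ 2 ≤ (3 / 2 * r) ^ 2 := hy
      nlinarith [sq_nonneg r]
  have hrig := hcell r hr hrr f (by rw [hf]; exact hfs) (by rw [hf]; exact hfp) hfb hdet
    (oB n (3 / 2 * r)) hdom.1 hdom.2.1 subset_rfl
  -- the compact sets
  have hcpt : ∀ a : ℝ, 0 < a → IsCompact {y : Fin n → ℝ | ∑ j, y j ^ 2 ≤ a ^ 2} := fun a ha => by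
    refine Metric.isCompact_of_isClosed_isBounded (isClosed_le cont_sq continuous_const) ?_
    refine (Metric.isBounded_closedBall (x := (0 : Fin n → ℝ)) (r := a)).subset fun y hy => ?_
    rw [mem_closedBall_zero_iff, pi_norm_le_iff_of_nonneg ha.le]
    exact fun j => abs_le_of_oB ha hy j
  letI := borel M
  haveI : BorelSpace M := ⟨rfl⟩
  have hCB : IsCB n p (2 * r) := Vale.Agent.P088.H207.isCB_of hp
  have hin : ∀ a : ℝ, 0 ≤ a → a ≤ 2 * r →
      inM (at_ n M) p {y : Fin n → ℝ | ∑ j, y j ^ 2 ≤ a ^ 2} = cb n p a := fun a ha hab => by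
    rw [← Vale.Agent.P088.H207.kball_at hCB ha hab]
    rfl
  have hb : bd (at_ n M) = (𝓡∂ n).boundary M := bd_at
  have hmi : (bd (at_ n M))ᶜ = Mi n M := by
    rw [hb, ← ModelWithCorners.compl_interior, compl_compl]
  have hconn : ∀ a : ℝ, 0 < a → a < 2 * r →
      IsPreconnected ((bd (at_ n M))ᶜ \ inM (at_ n M) p {y : Fin n → ℝ | ∑ j, y j ^ 2 ≤ a ^ 2}) := by
    intro a ha hab
    rw [hin a ha.le hab.le, hmi]
    have hsubM : (xc n p).symm '' Metric.ball (xc n p p) (2 * r) ⊆ Mi n M := by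
      intro x hx
      exact cRungeB_cb_mi TM.fLoc hCB (image_mono Metric.ball_subset_closedBall hx)
    exact Vale.Agent.P088.EYM.O.D779.top_diff (TM.fConn n M).2.1 (cRungeB_cb_closed hCB hab)
      (cRungeB_B_open TM.fLoc hCB) hsubM
      (image_mono (Metric.closedBall_subset_ball hab))
      ⟨_, mem_image_of_mem _ (Metric.mem_closedBall_self ha.le)⟩
      (cRungeB_A_conn (by omega) hCB ha hab)
  have hk1 : {y : Fin n → ℝ | ∑ j, y j ^ 2 ≤ r ^ 2} ⊆
      interior {y : Fin n → ℝ | ∑ j, y j ^ 2 ≤ (5 / 4 * r) ^ 2} := by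
    have h3 : oB n (5 / 4 * r) ⊆ {y : Fin n → ℝ | ∑ j, y j ^ 2 ≤ (5 / 4 * r) ^ 2} :=
      fun y (hy : ∑ j, y j ^ 2 < (5 / 4 * r) ^ 2) => show ∑ j, y j ^ 2 ≤ (5 / 4 * r) ^ 2 from hy.le
    refine Subset.trans (fun y hy => ?_) (interior_maximal h3 (isOpen_oB _))
    have h4 : ∑ j, y j ^ 2 ≤ r ^ 2 := hy
    show ∑ j, y j ^ 2 < (5 / 4 * r) ^ 2
    have : 0 < r ^ 2 := by positivity
    nlinarith
  have hk2 : {y : Fin n → ℝ | ∑ j, y j ^ 2 ≤ (5 / 4 * r) ^ 2} ⊆ oB n (3 / 2 * r) := by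
    intro y hy
    have h4 : ∑ j, y j ^ 2 ≤ (5 / 4 * r) ^ 2 := hy
    show ∑ j, y j ^ 2 < (3 / 2 * r) ^ 2
    have : 0 < r ^ 2 := by positivity
    nlinarith
  have hkb : kball (at_ n M) p r = inM (at_ n M) p {y : Fin n → ℝ | ∑ j, y j ^ 2 ≤ r ^ 2} := rfl
  refine bg_dom hn (exR_sm hr (by rw [hf]; exact hfs)) (exR_pos hr (by rw [hf]; exact hfp)) hrig hN
    (at_ n M) rfl Γ O₀ hO₀ hΓ hne P P' Q' hd1 hP p hdom ?_ _ _ (hcpt r hr) hk1
    (hcpt (5 / 4 * r) (by positivity)) hk2 (hconn r hr (by linarith))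
    (hconn (5 / 4 * r) (by positivity) (by linarith)) (by rw [← hkb]; exact hpw)
    (by rw [← hkb]; exact hU) ?_
  · rintro x ⟨hx, hx'⟩
    refine ⟨?_, hA x ⟨hx, ?_⟩⟩
    · rw [exR_in hr (le_of_lt hx'), hf]
      show _ = gch (at_ n M) P'.g p ((at_ n M).ch p x - (at_ n M).ch p p + (at_ n M).ch p p)
      rw [sub_add_cancel]
    · exact hsub h32 (by linarith) hx'
  · intro g hg hgp hin' hout y hy i j l hl
    obtain ⟨x, hx, he⟩ := hball y (hsub h32 (by linarith) hy)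
    have h3 := (h2 x hx).1 i j l hl
    rw [he] at h3
    have e1 : (fun y => g y i j) =ᶠ[𝓝 y]
        fun y => gch (at_ n M) Q'.g p (y + (at_ n M).ch p p) i j := by
      filter_upwards [(isOpen_oB (3 / 2 * r)).mem_nhds hy] with y' hy'
      rw [hin' y' hy']
    rw [(e1.iteratedFDeriv ℝ l).self_of_nhds, hiter Q' i j l y]
    exact h3

end Vale.Agent.P088.HY.H794

end
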