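import Vale.Agent.P088.R2.H794.Mfd

/-!
# P088: two metrics near a constant one, on a compact set of a chart of any size
-/

set_option linter.all false

open Bundle Manifold MeasureTheory Set Filter Topology
open scoped ContDiff Matrix ENNReal

noncomputable section

namespace Vale.Agent.P088.HY.H794

open Vale.Agent.P088 Vale.Agent.P088.B Vale.Agent.P088.EYM
open Vale.Agent.P088.H207 (IsDom IsOpn inM MatchO CloseO IsBall oball kball rad gl ch_at src_at gch_at)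
open Vale.Agent.P088.H207.J (tr tri tr_tri tri_tr tr_cd tri_cd)
open Vale.Agent.P088.H207.R

universe u

section

variable {n : ℕ}

/-- The cut-off of `f - G`, extended by `G`. -/
def exC (r : ℝ) (G : Matrix (Fin n) (Fin n) ℝ) (f : LR.MF n) : LR.MF n :=
  fun y => G + chR (r⁻¹ • y) • (f y - G)

variable {r : ℝ} {G : Matrix (Fin n) (Fin n) ℝ} {f : LR.MF n}

lemma exC_in (hr : 0 < r) {y : LR.V n} (hy : ∑ j, y j ^ 2 ≤ (3 / 2 * r) ^ 2) :
    exC r G f y = f y := by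
  unfold exC
  rw [chR_one ((in_r hr).2 (by rw [mul_pow] at hy; linarith)), one_smul]
  abel

lemma exC_out (hr : 0 < r) {y : LR.V n} (hy : 49 / 16 * r ^ 2 ≤ ∑ j, y j ^ 2) :
    exC r G f y = G := by
  unfold exC
  rw [chR_zero ((in_r' hr).2 hy), zero_smul, add_zero]

lemma exC_sm (hf : LR.SmM f) : LR.SmM (exC r G f) := fun i j =>
  contDiff_const.add ((chR_sm.comp (contDiff_const_smul _)).mul ((hf i j).sub contDiff_const))

lemma exC_pos (hG : G.PosDef) (hf : ∀ y, (f y).PosDef) (y : LR.V n) : (exC r G f y).PosDef := by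
  have e : exC r G f y = (1 - chR (r⁻¹ • y)) • G + chR (r⁻¹ • y) • f y := by
    unfold exC
    rw [smul_sub, sub_smul, one_smul]; abel
  rw [e]
  have h1 := chR_nonneg (r⁻¹ • y)
  have h2 := chR_le (r⁻¹ • y)
  rcases eq_or_lt_of_le h1 with h3 | h3
  · rw [← h3, zero_smul, add_zero, sub_zero, one_smul]; exact hG
  · rw [add_comm]
    exact ((hf y).smul h3).add_posSemidef (hG.posSemidef.smul (by linarith))

/-- From `Cl` to `ClR`. -/
lemma clR_of_cl {s ε : ℝ} (hs : 0 < s) (hε : 0 ≤ ε) {k : ℕ} {φ : LR.V n → ℝ} {l : ℕ} (hl : l ≤ k)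
    {x : LR.V n} (h : ‖iteratedFDeriv ℝ l φ x‖ ≤ ε) :
    s ^ l * ‖iteratedFDeriv ℝ l φ x‖ ≤ max 1 s ^ k * ε := by
  have h1 : s ^ l ≤ max 1 s ^ k := (pow_le_pow_left₀ hs.le (le_max_right 1 s) l).trans
    (pow_le_pow_right₀ (le_max_left 1 s) hl)
  exact mul_le_mul h1 h (norm_nonneg _) (by positivity)

end

/-- Rigidity of a metric near a constant one, among the metrics near the same constant one. -/
theorem rigO_near {n : ℕ} [NeZero n] {k : ℕ} {B ε : ℝ} (hε : 0 < ε) (hRig : RigR n k B ε) (R : ℝ)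
    (hR : 0 < R) : ∃ δ : ℝ, 0 < δ ∧ ∃ s : ℝ, 0 < s ∧
    (∀ y : Fin n → ℝ, (∀ j, |y j| ≤ R) → ∑ j, y j ^ 2 ≤ (3 / 2 * s) ^ 2) ∧
    ∀ G : Matrix (Fin n) (Fin n) ℝ, G.PosDef → (∀ i j, |G i j| ≤ B) → B⁻¹ ≤ G.det →
    ∀ h : LR.MF n, LR.SmM h → (∀ y, (h y).PosDef) → (∀ i j, LR.Cl k δ (fun y => h y i j - G i j)) →
    ∀ Ω : Set (Fin n → ℝ), IsOpen Ω → interior (closure Ω) = Ω → (∀ y ∈ Ω, ∀ j, |y j| ≤ R) →
    RigO n Ω (exC s G h) (fun g => ∀ y ∈ Ω, ∀ i j, ∀ l ≤ k,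
      ‖iteratedFDeriv ℝ l (fun y => g y i j - G i j) y‖ ≤ δ) := by
  obtain ⟨X, hX1, hX⟩ := chR_bd n k
  obtain ⟨s, hs⟩ : ∃ s : ℝ, s = n * R := ⟨_, rfl⟩
  have hn1 : (1 : ℝ) ≤ n := by exact_mod_cast Nat.one_le_iff_ne_zero.2 (NeZero.ne n)
  have hs0 : 0 < s := by rw [hs]; positivity
  have hRs : R ≤ s := by rw [hs]; nlinarith
  obtain ⟨D, hD⟩ : ∃ D : ℝ, D = 2 ^ k * (X * max 1 s ^ k) := ⟨_, rfl⟩
  have hD0 : 0 < D := by rw [hD]; positivity
  have hD1 : max 1 s ^ k ≤ D := by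
    rw [hD]
    have h1 : (1 : ℝ) ≤ 2 ^ k := one_le_pow₀ (by norm_num)
    have h2 : 0 < max 1 s ^ k := by positivity
    have h3 : max 1 s ^ k ≤ X * max 1 s ^ k := by nlinarith
    nlinarith
  refine ⟨ε / D, by positivity, s, hs0, fun y hy => ?_, ?_⟩
  · calc ∑ j, y j ^ 2 ≤ ∑ _j : Fin n, R ^ 2 := by
          refine Finset.sum_le_sum fun j _ => ?_
          rw [← sq_abs]
          exact pow_le_pow_left₀ (abs_nonneg _) (hy j) 2
      _ = n * R ^ 2 := by simp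
      _ ≤ (3 / 2 * s) ^ 2 := by
          rw [hs]
          nlinarith [sq_nonneg R, mul_nonneg (sub_nonneg.2 hn1) (sq_nonneg R), mul_nonneg (mul_nonneg (sub_nonneg.2 hn1) (sub_nonneg.2 hn1)) (sq_nonneg R)]
  intro G hG hGb hGd h hh hhp hhcl Ω hΩ hreg hΩR g hg hgp hoff hgX hst
  have hDe : max 1 s ^ k * (ε / D) ≤ ε := by
    calc max 1 s ^ k * (ε / D) ≤ D * (ε / D) := mul_le_mul_of_nonneg_right hD1 (by positivity)
      _ = ε := by field_simp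
  have hcl1 : ∀ i j, ClR k s ε (fun y => exC s G h y i j - G i j) := by
    intro i j l hl y
    have e : (fun y => exC s G h y i j - G i j) = fun y => chR (s⁻¹ • y) * (h y i j - G i j) := by
      funext y
      show G i j + chR (s⁻¹ • y) * (h y i j - G i j) - G i j = _
      ring
    rw [e]
    refine (mul_scale hs0 isOpen_univ chR_sm (((hh i j).sub contDiff_const).contDiffOn) hX
      (by linarith) (A := max 1 s ^ k * (ε / D)) (fun l hl y _ => clR_of_cl hs0 (by positivity) hl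
        (hhcl i j l hl y)) hl (mem_univ y)).trans ?_
    calc 2 ^ l * (X * (max 1 s ^ k * (ε / D))) ≤ 2 ^ k * (X * (max 1 s ^ k * (ε / D))) :=
          mul_le_mul_of_nonneg_right (pow_le_pow_right₀ (by norm_num) hl) (by positivity)
      _ = D * (ε / D) := by rw [hD]; ring
      _ = ε := by field_simp
  have hout : ∀ y : Fin n → ℝ, (∃ j, 4 * s < |y j|) → exC s G h y = G := by
    rintro y ⟨j, hj⟩
    refine exC_out hs0 ?_
    have h1 : y j ^ 2 ≤ ∑ j, y j ^ 2 :=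
      Finset.single_le_sum (f := fun j => y j ^ 2) (fun i _ => sq_nonneg _) (Finset.mem_univ j)
    have h2 : (4 * s) ^ 2 ≤ y j ^ 2 := by
      rw [← sq_abs (y j)]
      exact pow_le_pow_left₀ (by positivity) hj.le 2
    nlinarith
  refine hRig s hs0 G hG hGb hGd Ω hΩ hreg (fun y hy j => (hΩR y hy j).trans (by linarith))
    (exC s G h) g (exC_sm hh) hg (exC_pos hG hhp) hgp hout hoff hcl1 (fun i j l hl y => ?_) hst
  by_cases hy : y ∈ Ω
  · exact (clR_of_cl hs0 (by positivity) hl (hgX y hy i j l hl)).trans hDe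
  · rw [Vale.Agent.P088.H292.BM.iter_off hreg ((hg i j).sub contDiff_const)
      ((exC_sm hh i j).sub contDiff_const) (fun y hy => by rw [hoff y hy]) l hy]
    exact hcl1 i j l hl y

/-- **Two metrics near a constant one, on a compact set of a chart.** -/
theorem near_const {n : ℕ} [NeZero n] (hn : 3 ≤ n) {k : ℕ} {B ε : ℝ} (hB : 0 < B) (hε : 0 < ε)
    (hRig : RigR n k B ε) (R : ℝ) (hR : 0 < R) : ∃ δ : ℝ, 0 < δ ∧
    ∀ G : Matrix (Fin n) (Fin n) ℝ, G.PosDef → (∀ i j, |G i j| ≤ B) → 1 / B ≤ G.det →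
    ∀ h : LR.MF n, LR.SmM h → (∀ y, (h y).PosDef) → (∀ i j, LR.Cl k δ (fun y => h y i j - G i j)) →
    ∀ {N : ℕ} (_ : 1 ≤ N) {M : Type u} [TopologicalSpace M]
    [ChartedSpace (EuclideanHalfSpace n) M] [IsManifold (𝓡∂ n) ∞ M] [T2Space M] [CompactSpace M]
    [ConnectedSpace M] (Z : At n M) (_ : Z = at_ n M) (Γ O₀ : Set M) (_ : IsOpen O₀)
    (_ : Γ = O₀ ∩ bd Z) (_ : Γ.Nonempty) (P P' Q Q' : Pair Z N)
    (_ : Vale.Agent.P088.B.SameData Γ P Q)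
    (_ : Related Γ P P') (_ : Related Γ Q Q') (p : M) (W : Set (Fin n → ℝ))
    (_ : IsOpn Z p W) (_ : MatchO h P' p W) (K : Set (Fin n → ℝ)) (_ : IsCompact K)
    (_ : K ⊆ W) (_ : ∀ y ∈ K, ∀ j, |y j| ≤ R) (_ : IsPreconnected ((bd Z)ᶜ \ inM Z p K))
    (_ : B8.PwLe (inM Z p K)ᶜ Γ P' Q')
    (_ : ∃ U, B8.GaugeBy U (inM Z p K)ᶜ Γ P'.A Q'.A Z) (_ : CloseO k δ (fun _ => G) Q' p W),
    Related Γ P Q := by
  obtain ⟨δ, hδ, s, hs, hin, hmain⟩ := rigO_near hε hRig (R + 1) (by linarith)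
  refine ⟨δ, hδ, ?_⟩
  intro G hG hGb hGd h hh hhp hhcl N hN M _ _ _ _ _ _ Z hZ Γ O₀ hO₀ hΓ hne P P' Q Q' hd hP hQ p W hW
    hM K hK hKW hKR hc0 hpw hU hcl
  have hd1 : Vale.Agent.P088.B.SameData Γ P Q' :=
    Vale.Agent.P088.H207.O.same_symm (Vale.Agent.P088.B.same_related Z hZ hO₀ hΓ hne hQ
      (Vale.Agent.P088.H207.O.same_symm hd))
  suffices hrel : Related Γ P Q' by
    subst hZ
    exact Vale.Agent.P088.H207.O.related_tr hrel (Vale.Agent.P088.H207.O.related_inv hQ)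
  have hW' : IsOpen (W ∩ {y : Fin n → ℝ | ∀ j, |y j| < R + 1}) := by
    refine hW.1.inter ?_
    have e1 : {y : Fin n → ℝ | ∀ j, |y j| < R + 1} = ⋂ j, {y : Fin n → ℝ | |y j| < R + 1} := by
      ext y
      simp
    rw [e1]
    exact isOpen_iInter_of_finite fun j => isOpen_lt (by fun_prop) continuous_const
  obtain ⟨Ω, g1, g2, g3, g4, g5⟩ := reg_between hK hW' fun y hy =>
    ⟨hKW hy, fun j => lt_of_le_of_lt (hKR y hy j) (by linarith)⟩
  have g6 : Ω ⊆ W := fun y hy => (g5 (subset_closure hy)).1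
  have hΩR : ∀ y ∈ Ω, ∀ j, |y j| ≤ R + 1 := fun y hy j => ((g5 (subset_closure hy)).2 j).le
  have hsub : inM Z p Ω ⊆ inM Z p W := fun x hx => ⟨hx.1, g6 hx.2⟩
  have hdom : IsDom Z p Ω := ⟨g1, g2, g3, fun y hy => hW.2 y (g5 hy).1⟩
  have hrig := hmain G hG hGb (by rwa [one_div] at hGd) h hh hhp hhcl Ω g1 g2 hΩR
  subst hZ
  obtain ⟨K₁, k1, k2, k3, k4⟩ := nbK hdom hK g4 hc0
  refine bg_dom hn (exC_sm hh) (exC_pos hG hhp) hrig hN (at_ n M) rfl Γ O₀ hO₀ hΓ hne P P' Q' hd1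
    hP p hdom ?_ K K₁ hK k2 k1 k3 hc0 k4 hpw hU ?_
  · intro x hx
    refine ⟨?_, (hM x (hsub hx)).2⟩
    rw [(hM x (hsub hx)).1, exC_in hs (hin _ fun j => hΩR _ hx.2 j)]
  · intro g hg hgp hin' hout y hy i j l hl
    obtain ⟨x, hx, hxy⟩ := dom_pt hdom hy
    have h1 := hcl x (hsub hx) i j l hl
    rw [hxy] at h1
    have e1 : (fun y => g y i j - G i j) =ᶠ[𝓝 y]
        fun y => gch (at_ n M) Q'.g p (y + (at_ n M).ch p p) i j - G i j := by
      filter_upwards [g1.mem_nhds hy] with y' hy'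
      rw [hin' y' hy']
    rw [(e1.iteratedFDeriv ℝ l).self_of_nhds]
    have h2 := iteratedFDeriv_comp_add_right (𝕜 := ℝ)
      (f := fun y => gch (at_ n M) Q'.g p y i j - G i j) l ((at_ n M).ch p p) y
    rw [h2]
    exact h1

/-- **Two arbitrary metrics**: (I) which differ in a small ball; (II) near a constant one. -/
theorem two_metrics (hL : RowLOG) {n : ℕ} [NeZero n] (hn : 3 ≤ n) :
    ∃ k : ℕ, (∀ B : ℝ, 0 < B → ∃ r₀ : ℝ, 0 < r₀ ∧ ∀ r : ℝ, 0 < r → r ≤ r₀ →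
    ∀ {N : ℕ} (_ : 1 ≤ N) {M : Type u} [TopologicalSpace M]
    [ChartedSpace (EuclideanHalfSpace n) M] [IsManifold (𝓡∂ n) ∞ M] [T2Space M] [CompactSpace M]
    [ConnectedSpace M] (Z : At n M) (_ : Z = at_ n M) (Γ O₀ : Set M) (_ : IsOpen O₀)
    (_ : Γ = O₀ ∩ bd Z) (_ : Γ.Nonempty) (P P' Q Q' : Pair Z N)
    (_ : Vale.Agent.P088.B.SameData Γ P Q)
    (_ : Related Γ P P') (_ : Related Γ Q Q') (p : M) (_ : IsBall Z p (2 * r))
    (_ : BddB k B P' p (2 * r)) (_ : BddB k B Q' p (2 * r))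
    (_ : ∀ x ∈ oball Z p (2 * r), P'.A x = 0)
    (_ : B8.PwLe (kball Z p r)ᶜ Γ P' Q')
    (_ : ∃ U, B8.GaugeBy U (kball Z p r)ᶜ Γ P'.A Q'.A Z), Related Γ P Q) ∧
    ∀ (B R : ℝ), 0 < B → 0 < R → ∃ δ : ℝ, 0 < δ ∧
    ∀ G : Matrix (Fin n) (Fin n) ℝ, G.PosDef → (∀ i j, |G i j| ≤ B) → 1 / B ≤ G.det →
    ∀ h : LR.MF n, LR.SmM h → (∀ y, (h y).PosDef) → (∀ i j, LR.Cl k δ (fun y => h y i j - G i j)) →
    ∀ {N : ℕ} (_ : 1 ≤ N) {M : Type u} [TopologicalSpace M]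
    [ChartedSpace (EuclideanHalfSpace n) M] [IsManifold (𝓡∂ n) ∞ M] [T2Space M] [CompactSpace M]
    [ConnectedSpace M] (Z : At n M) (_ : Z = at_ n M) (Γ O₀ : Set M) (_ : IsOpen O₀)
    (_ : Γ = O₀ ∩ bd Z) (_ : Γ.Nonempty) (P P' Q Q' : Pair Z N)
    (_ : Vale.Agent.P088.B.SameData Γ P Q)
    (_ : Related Γ P P') (_ : Related Γ Q Q') (p : M) (W : Set (Fin n → ℝ))
    (_ : IsOpn Z p W) (_ : MatchO h P' p W) (K : Set (Fin n → ℝ)) (_ : IsCompact K)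
    (_ : K ⊆ W) (_ : ∀ y ∈ K, ∀ j, |y j| ≤ R) (_ : IsPreconnected ((bd Z)ᶜ \ inM Z p K))
    (_ : B8.PwLe (inM Z p K)ᶜ Γ P' Q')
    (_ : ∃ U, B8.GaugeBy U (inM Z p K)ᶜ Γ P'.A Q'.A Z) (_ : CloseO k δ (fun _ => G) Q' p W),
    Related Γ P Q := by
  obtain ⟨k₀, hk₀⟩ := rigR_of_log hL hn
  have hmono : ∀ {B ε : ℝ}, RigR n k₀ B ε → RigR n (k₀ + 1) B ε := by
    intro B ε h R hR G hG hGb hGd Ω hΩ hreg hΩb g₁ g₂ s1 s2 p1 p2 hoff1 hoff c1 c2 hst
    exact h R hR G hG hGb hGd Ω hΩ hreg hΩb g₁ g₂ s1 s2 p1 p2 hoff1 hoff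
      (fun i j l hl => c1 i j l (by omega)) (fun i j l hl => c2 i j l (by omega)) hst
  refine ⟨k₀ + 1, fun B hB => ?_, fun B R hB hR => ?_⟩
  · obtain ⟨ε, hε, h⟩ := hk₀ B hB
    exact small_ball hn (by omega) hB hε (hmono h)
  · obtain ⟨ε, hε, h⟩ := hk₀ B hB
    exact near_const hn hB hε (hmono h) R hR

end Vale.Agent.P088.HY.H794

end
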