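import Vale.Agent.P088.R2.H558.Spec
import Vale.Agent.P088.R2.H794.St

/-!
# P088: two arbitrary metrics, finitely many cells, statements
-/

open Manifold Set
open scoped ContDiff Matrix

noncomputable section

namespace Vale.Agent.P088.HY.H794

open Vale.Agent.P088 Vale.Agent.P088.B Vale.Agent.P088.H207

universe u

section

variable {n N : ℕ} [NeZero n] {M : Type u} {Z : At n M}

/-- A small cell. In the chart at `p`, for some `0 < r ≤ r₀`: the ball of radius `2 r` about `p`
consists of interior points of `M`, there the derivatives of `g'_{ij}` of order at most `k` are at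
most `B`, and `det g' ≥ 1 / B`; `W` is in the ball of radius `3 r / 2`; on `W`, the derivatives of
`g''_{ij}` of order at most `k` are at most `B`, and `A' = 0`. -/
def SmallCell (k : ℕ) (B r₀ : ℝ) (P' Q' : Pair Z N) (p : M) (W : Set (V n)) : Prop :=
  ∃ r : ℝ, 0 < r ∧ r ≤ r₀ ∧ IsBall Z p (2 * r) ∧ BddB k B P' p (2 * r) ∧
    (∀ y ∈ W, ∑ j, y j ^ 2 < (3 / 2 * r) ^ 2) ∧ ∀ x ∈ inM Z p W, P'.A x = 0 ∧
      ∀ i j, ∀ l ≤ k, ‖iteratedFDeriv ℝ l (fun y : V n => gch Z Q'.g p y i j) (Z.ch p x)‖ ≤ B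

/-- A cell of any size, near a constant metric `G`. In the chart at `p`, in coordinates centred at
`p`: `g' = h` and `A' = 0` on `W`; the derivatives of order at most `k` of `h - G` are at most `δ`
on `ℝ^n`, and so are those of `g'' - G` on `W`; the entries of `G` are at most `B`,
`det G ≥ 1 / B`, and `K` is in the cube of side `2 R`. -/
def NearCell (k : ℕ) (B R δ : ℝ) (P' Q' : Pair Z N) (p : M) (W K : Set (V n)) : Prop :=
  ∃ (G : Matrix (Fin n) (Fin n) ℝ) (h : LR.MF n), G.PosDef ∧ (∀ i j, |G i j| ≤ B) ∧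
    1 / B ≤ G.det ∧ LR.SmM h ∧ (∀ y, (h y).PosDef) ∧
    (∀ i j, LR.Cl k δ (fun y => h y i j - G i j)) ∧ MatchO h P' p W ∧
    (∀ y ∈ K, ∀ j, |y j| ≤ R) ∧ CloseO k δ (fun _ => G) Q' p W

end

/-- The conclusion of Q1 in the situation of Q1 (any `M`, any `Γ`), for pairs `(g₁, A₁)`,
`(g₂, A₂)` with the same data on `Γ` which have transforms `(g', A')`, `(g'', A'')` and finitely
many cells `K a`: compact subsets of open sets `W a` of charts, in the interior of `M`, the `W a`
pairwise disjoint, the complement of the cells in the interior of `M` connected, such that off the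
cells the connections are gauge equivalent and the metrics are piecewise ordered (for example,
equal), and each cell is small, or near a constant metric. Nothing is assumed on `A''` in the
cells, nor on the distance between the cells. -/
def CellUniq (n N : ℕ) [NeZero n] (k : ℕ) (B R r₀ δ : ℝ) : Prop :=
  ∀ (M : Type u) [TopologicalSpace M] [ChartedSpace (EuclideanHalfSpace n) M]
    [IsManifold (𝓡∂ n) ∞ M] [T2Space M] [CompactSpace M] [ConnectedSpace M] (Γ O : Set M),
    IsOpen O → Γ = O ∩ bd (at_ n M) → Γ.Nonempty → ∀ P P' Q Q' : Pair (at_ n M) N,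
    Vale.Agent.P088.B.SameData Γ P Q → Related Γ P P' → Related Γ Q Q' →
    ∀ (ι : Type) [Finite ι] (p : ι → M) (W K : ι → Set (V n)),
    (∀ a, IsOpn (at_ n M) (p a) (W a)) → (∀ a, IsCompact (K a)) → (∀ a, K a ⊆ W a) →
    (∀ a b, a ≠ b → Disjoint (inM (at_ n M) (p a) (W a)) (inM (at_ n M) (p b) (W b))) →
    IsPreconnected ((bd (at_ n M))ᶜ \ ⋃ a, inM (at_ n M) (p a) (K a)) →
    (∀ a, SmallCell k B r₀ P' Q' (p a) (W a) ∨ NearCell k B R δ P' Q' (p a) (W a) (K a)) →
    B8.PwLe (⋃ a, inM (at_ n M) (p a) (K a))ᶜ Γ P' Q' →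
    (∃ U, B8.GaugeBy U (⋃ a, inM (at_ n M) (p a) (K a))ᶜ Γ P'.A Q'.A (at_ n M)) → Related Γ P Q

end Vale.Agent.P088.HY.H794

end
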