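import Vale.Agent.P088.R2.H558.Spec
import Vale.Agent.P088.R2.H794.St

/-!
# P088: two arbitrary metrics, statements
-/

open Manifold Set
open scoped ContDiff Matrix

noncomputable section

namespace Vale.Agent.P088.HY.H794

open Vale.Agent.P088 Vale.Agent.P088.B Vale.Agent.P088.H207

universe u

/-- The conclusion of Q1 in the situation of Q1 (any `M`, any `Γ`), for pairs `(g₁, A₁)`,
`(g₂, A₂)` with the same data on `Γ` which have transforms `(g', A')`, `(g'', A'')` such that: in a
chart, on a ball of radius `2 r` with closure in the interior of `M`, the derivatives of the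
metrics `g'`, `g''` of order at most `k` are at most `B`, their determinants are at least `1 / B`,
and `A' = 0`; off the closed concentric ball of radius `r` the connections are gauge equivalent and
the metrics are piecewise ordered (for example, equal). Nothing is assumed on `A''` in the ball of
radius `r`. -/
def TwoSmall (n N : ℕ) [NeZero n] (k : ℕ) (r B : ℝ) : Prop :=
  ∀ (M : Type u) [TopologicalSpace M] [ChartedSpace (EuclideanHalfSpace n) M]
    [IsManifold (𝓡∂ n) ∞ M] [T2Space M] [CompactSpace M] [ConnectedSpace M] (Γ O : Set M),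
    IsOpen O → Γ = O ∩ bd (at_ n M) → Γ.Nonempty → ∀ P P' Q Q' : Pair (at_ n M) N,
    Vale.Agent.P088.B.SameData Γ P Q → Related Γ P P' → Related Γ Q Q' → ∀ p : M, IsBall (at_ n M) p (2 * r) →
    BddB k B P' p (2 * r) → BddB k B Q' p (2 * r) →
    (∀ x ∈ oball (at_ n M) p (2 * r), P'.A x = 0) →
    B8.PwLe (kball (at_ n M) p r)ᶜ Γ P' Q' →
    (∃ U, B8.GaugeBy U (kball (at_ n M) p r)ᶜ Γ P'.A Q'.A (at_ n M)) → Related Γ P Q

/-- The conclusion of Q1 in the situation of Q1 (any `M`, any `Γ`), for pairs `(g₁, A₁)`,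
`(g₂, A₂)` with the same data on `Γ` which have transforms `(g', A')`, `(g'', A'')` such that, in
a chart, for a compact set `K` contained in an open set `W`, both in the interior of `M` and of any
shape, with `K` in the cube of side `2 R` and of connected complement in the interior of `M`: on
`W` (coordinates centred at `p`), `g' = h`, `A' = 0`, where the derivatives of order at most `k` of
`h - G` are at most `δ` on `ℝ^n`, and so are those of `g'' - G` on `W`; off `K` the connections are
gauge equivalent and the metrics are piecewise ordered (for example, equal). Here `G` is any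
constant metric with entries at most `B` and determinant at least `1 / B`. Nothing is assumed on
`A''` in `K`. -/
def TwoNear (n N : ℕ) [NeZero n] (k : ℕ) (B R δ : ℝ) : Prop :=
  ∀ G : Matrix (Fin n) (Fin n) ℝ, G.PosDef → (∀ i j, |G i j| ≤ B) → 1 / B ≤ G.det →
  ∀ h : LR.MF n, LR.SmM h → (∀ y, (h y).PosDef) → (∀ i j, LR.Cl k δ (fun y => h y i j - G i j)) →
  ∀ (M : Type u) [TopologicalSpace M] [ChartedSpace (EuclideanHalfSpace n) M]
    [IsManifold (𝓡∂ n) ∞ M] [T2Space M] [CompactSpace M] [ConnectedSpace M] (Γ O : Set M),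
    IsOpen O → Γ = O ∩ bd (at_ n M) → Γ.Nonempty → ∀ P P' Q Q' : Pair (at_ n M) N,
    Vale.Agent.P088.B.SameData Γ P Q → Related Γ P P' → Related Γ Q Q' → ∀ (p : M) (W K : Set (Fin n → ℝ)),
    IsOpn (at_ n M) p W → MatchO h P' p W → IsCompact K → K ⊆ W → (∀ y ∈ K, ∀ j, |y j| ≤ R) →
    IsPreconnected ((bd (at_ n M))ᶜ \ inM (at_ n M) p K) →
    B8.PwLe (inM (at_ n M) p K)ᶜ Γ P' Q' →
    (∃ U, B8.GaugeBy U (inM (at_ n M) p K)ᶜ Γ P'.A Q'.A (at_ n M)) →
    CloseO k δ (fun _ => G) Q' p W → Related Γ P Q

end Vale.Agent.P088.HY.H794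

end
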